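import Vale.Agent.P271.A.HF

/-! P271 A/DegAbs: integrality of the degree.

Plan. Take `e₁, D₁, e₂, D₂` from `hilb`. By induction on `k`, `u ^ k * W₂ ^ (p k) * W₁ ^ M ⊆
W₁ ^ (q k + M)` and `W₁ ^ (q k) * W₂ ^ M ⊆ u ^ k * W₂ ^ (p k + M)`; with `b = 1` this compares
dimensions (multiplication by `u ^ k` is injective). Since `m ^ d ≤ d! * (m + d).choose d ≤ (m + d) ^ d`,
letting `k → ∞` gives `e₂ p ^ d ≤ e₁ q ^ d` and the reverse. So `p ^ d ∣ e₁`, `p ^ d ≤ e₁`; use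
`E = p ^ d`. `finrank_Vk_le`: apply `hilb` in `FractionRing A` to the image of `Vk x 1`
(`Submodule.map_pow`). Auxiliary names start with `deg_`. -/

open MeasureTheory Set Filter Topology
open scoped ContDiff ENNReal ComplexConjugate

noncomputable section

namespace Vale.Agent.P271

theorem deg_pow_mul {K : Type} [Field K] [Algebra ℂ K] {X Y Z : Submodule ℂ K}
    (h : X * Z ≤ Y * Z) (k : ℕ) : X ^ k * Z ≤ Y ^ k * Z := by
  induction k with
  | zero => rw [pow_zero, pow_zero]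
  | succ k ih =>
    calc X ^ (k + 1) * Z = X ^ k * (X * Z) := by ring
      _ ≤ X ^ k * (Y * Z) := mul_le_mul' le_rfl h
      _ = Y * (X ^ k * Z) := by ring
      _ ≤ Y * (Y ^ k * Z) := mul_le_mul' le_rfl ih
      _ = Y ^ (k + 1) * Z := by ring

theorem deg_fd {K : Type} [Field K] [Algebra ℂ K] (W : Submodule ℂ K) [FiniteDimensional ℂ W]
    (k : ℕ) : FiniteDimensional ℂ ↥(W ^ k) :=
  (Submodule.fg_iff_finiteDimensional _).1
    (((Submodule.fg_iff_finiteDimensional W).2 inferInstance).pow k)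

theorem deg_mono {K : Type} [Field K] [Algebra ℂ K] (W : Submodule ℂ K) [FiniteDimensional ℂ W]
    (h1 : (1 : K) ∈ W) {a b : ℕ} (h : a ≤ b) :
    Module.finrank ℂ ↥(W ^ a) ≤ Module.finrank ℂ ↥(W ^ b) := by
  haveI := deg_fd W b
  exact Submodule.finrank_mono (pow_le_pow_right' (Submodule.one_le.2 h1) h)

theorem deg_le_mul {K : Type} [Field K] [Algebra ℂ K] (X : Submodule ℂ K) {W : Submodule ℂ K}
    (h1 : (1 : K) ∈ W) (M : ℕ) : X ≤ X * W ^ M := by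
  intro a ha
  have h : (1 : K) ∈ W ^ M := Submodule.one_le.1 (one_le_pow_of_one_le' (Submodule.one_le.2 h1) M)
  simpa using Submodule.mul_mem_mul ha h

theorem deg_span_pow {K : Type} [Field K] [Algebra ℂ K] (u : K) (W : Submodule ℂ K) (p k : ℕ) :
    (Submodule.span ℂ {u} * W ^ p) ^ k = Submodule.span ℂ {u ^ k} * W ^ (p * k) := by
  rw [mul_pow, Submodule.span_pow, Set.singleton_pow, pow_mul]

theorem deg_lim {e₁ e₂ p q c d : ℕ}
    (h : ∀ k, e₂ * (p * k + d).choose d ≤ e₁ * (q * k + c + d).choose d) :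
    e₂ * p ^ d ≤ e₁ * q ^ d := by
  have h2 : ∀ k, e₂ * (p * k) ^ d ≤ e₁ * (q * k + c + d) ^ d := fun k =>
    calc e₂ * (p * k) ^ d ≤ e₂ * (p * k + 1).ascFactorial d :=
          Nat.mul_le_mul_left _ ((Nat.pow_le_pow_left (Nat.le_succ _) d).trans
            (Nat.pow_succ_le_ascFactorial _ _))
      _ = d.factorial * (e₂ * (p * k + d).choose d) := by
          rw [Nat.ascFactorial_eq_factorial_mul_choose]; ring
      _ ≤ d.factorial * (e₁ * (q * k + c + d).choose d) := Nat.mul_le_mul_left _ (h k)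
      _ = e₁ * (q * k + c + 1).ascFactorial d := by
          rw [Nat.ascFactorial_eq_factorial_mul_choose]; ring
      _ ≤ e₁ * (q * k + c + d) ^ d := Nat.mul_le_mul_left _ (Nat.ascFactorial_le_pow_add _ _)
  have t : Tendsto (fun k : ℕ => (e₁ : ℝ) * ((q : ℝ) + ((c : ℝ) + d) / (k : ℝ)) ^ d) atTop
      (𝓝 ((e₁ : ℝ) * ((q : ℝ) + 0) ^ d)) :=
    (((tendsto_const_div_atTop_nhds_zero_nat ((c : ℝ) + d)).const_add (q : ℝ)).pow d).const_mul _
  have key : (e₂ : ℝ) * (p : ℝ) ^ d ≤ (e₁ : ℝ) * ((q : ℝ) + 0) ^ d := by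
    refine ge_of_tendsto t ?_
    filter_upwards [eventually_gt_atTop 0] with k hk
    have hk' : (0 : ℝ) < k := by exact_mod_cast hk
    have h3 : (e₂ : ℝ) * ((p : ℝ) * k) ^ d ≤ (e₁ : ℝ) * ((q : ℝ) * k + c + d) ^ d := by
      exact_mod_cast h2 k
    have e : ((q : ℝ) * k + c + d) = ((q : ℝ) + ((c : ℝ) + d) / (k : ℝ)) * k := by
      field_simp
      ring
    rw [e, mul_pow, mul_pow, ← mul_assoc, ← mul_assoc] at h3
    exact le_of_mul_le_mul_right h3 (pow_pos hk' d)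
  rw [add_zero] at key
  exact_mod_cast key

theorem deg_cmp {K : Type} [Field K] [Algebra ℂ K] (W₁ W₂ : Submodule ℂ K)
    [FiniteDimensional ℂ W₂] (h₂ : (1 : K) ∈ W₂) {e₁ e₂ D d p q M : ℕ} (hp : 1 ≤ p)
    (up : ∀ k, Module.finrank ℂ ↥(W₁ ^ k) ≤ e₁ * (k + D + d).choose d)
    (lo : ∀ k, e₂ * (k + d).choose d ≤ Module.finrank ℂ ↥(W₂ ^ (k + e₂)))
    (cmp : ∀ k, Module.finrank ℂ ↥(W₂ ^ (p * k)) ≤ Module.finrank ℂ ↥(W₁ ^ (q * k + M))) :
    e₂ * p ^ d ≤ e₁ * q ^ d := by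
  refine deg_lim (c := q * e₂ + M + D) fun k => ?_
  have h3 : p * k + e₂ ≤ p * (k + e₂) := by nlinarith
  have h4 := (lo (p * k)).trans ((deg_mono W₂ h₂ h3).trans ((cmp _).trans (up _)))
  have e : q * (k + e₂) + M + D + d = q * k + (q * e₂ + M + D) + d := by ring
  rwa [e] at h4

theorem deg_abs {K : Type} [Field K] [Algebra ℂ K] (W₁ W₂ : Submodule ℂ K)
    [FiniteDimensional ℂ W₁] [FiniteDimensional ℂ W₂] (h₁ : (1 : K) ∈ W₁) (h₂ : (1 : K) ∈ W₂)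
    (g₁ : ∀ a : K, ∃ k, ∃ P ∈ W₁ ^ k, ∃ Q ∈ W₁ ^ k, Q ≠ 0 ∧ a * Q = P)
    (g₂ : ∀ a : K, ∃ k, ∃ P ∈ W₂ ^ k, ∃ Q ∈ W₂ ^ k, Q ≠ 0 ∧ a * Q = P) {d : ℕ} {y : Fin d → K}
    (hy : IsTranscendenceBasis ℂ y) {p q M : ℕ} (hpq : p.Coprime q) (hp : 1 ≤ p) (hq : 1 ≤ q)
    {u : K} (hu : u ≠ 0) (I₁ : ∀ a ∈ W₂ ^ p, ∀ b ∈ W₁ ^ M, u * a * b ∈ W₁ ^ (q + M))
    (I₂ : ∀ a ∈ W₁ ^ q, ∀ b ∈ W₂ ^ M, ∃ c ∈ W₂ ^ (p + M), a * b = u * c) (k : ℕ) :
    p ^ d * (k + d).choose d ≤ Module.finrank ℂ ↥(W₁ ^ (k + p ^ d)) := by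
  obtain ⟨e₁, D₁, he₁, up₁, lo₁⟩ := hilb W₁ h₁ g₁ hy
  obtain ⟨e₂, D₂, he₂, up₂, lo₂⟩ := hilb W₂ h₂ g₂ hy
  have J₁ : Submodule.span ℂ {u} * W₂ ^ p * W₁ ^ M ≤ W₁ ^ q * W₁ ^ M := by
    rw [← pow_add]
    refine Submodule.mul_le.2 fun m hm b hb => ?_
    obtain ⟨a, ha, rfl⟩ := Submodule.mem_span_singleton_mul.1 hm
    exact I₁ a ha b hb
  have J₂ : W₁ ^ q * W₂ ^ M ≤ Submodule.span ℂ {u} * W₂ ^ p * W₂ ^ M := by
    rw [mul_assoc, ← pow_add]
    refine Submodule.mul_le.2 fun a ha b hb => ?_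
    obtain ⟨c, hc, e⟩ := I₂ a ha b hb
    exact Submodule.mem_span_singleton_mul.2 ⟨c, hc, e.symm⟩
  have c₁ : ∀ k, Module.finrank ℂ ↥(W₂ ^ (p * k)) ≤ Module.finrank ℂ ↥(W₁ ^ (q * k + M)) := by
    intro k
    have h := (deg_le_mul _ h₁ M).trans (deg_pow_mul J₁ k)
    rw [deg_span_pow, ← pow_mul, ← pow_add] at h
    haveI := deg_fd W₁ (q * k + M)
    rw [← hf_mul_rank (W₂ ^ (p * k)) (pow_ne_zero k hu)]
    exact Submodule.finrank_mono h
  have c₂ : ∀ k, Module.finrank ℂ ↥(W₁ ^ (q * k)) ≤ Module.finrank ℂ ↥(W₂ ^ (p * k + M)) := by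
    intro k
    have h := (deg_le_mul _ h₂ M).trans (deg_pow_mul J₂ k)
    rw [deg_span_pow, ← pow_mul, mul_assoc, ← pow_add] at h
    haveI : FiniteDimensional ℂ ↥(Submodule.span ℂ {u ^ k} * W₂ ^ (p * k + M)) :=
      (Submodule.fg_iff_finiteDimensional _).1 ((Submodule.fg_span_singleton _).mul
        ((Submodule.fg_iff_finiteDimensional _).2 (deg_fd W₂ _)))
    rw [← hf_mul_rank (W₂ ^ (p * k + M)) (pow_ne_zero k hu)]
    exact Submodule.finrank_mono h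
  have r₁ := deg_cmp W₁ W₂ h₂ hp up₁ (lo₂ e₂ le_rfl) c₁
  have r₂ := deg_cmp W₂ W₁ h₁ hq up₂ (lo₁ e₁ le_rfl) c₂
  have hd : p ^ d ∣ e₁ * q ^ d := ⟨e₂, by rw [le_antisymm r₂ r₁, mul_comm]⟩
  have hle : p ^ d ≤ e₁ := Nat.le_of_dvd he₁ ((hpq.pow d d).dvd_of_dvd_mul_right hd)
  exact lo₁ _ hle k

theorem finrank_Vk_le {A : Type} [CommRing A] [IsDomain A] [Algebra ℂ A] {M d : ℕ} {x : Fin M → A}
    (gen : Algebra.adjoin ℂ (range x) = ⊤) {y : Fin d → A} (hy : IsTranscendenceBasis ℂ y) :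
    ∃ C : ℕ, ∀ k, Module.finrank ℂ (Vk x k) ≤ C * (k + 1) ^ d := by
  let K := FractionRing A
  let f : A →ₐ[ℂ] K := IsScalarTower.toAlgHom ℂ A K
  have hf : Function.Injective f := IsFractionRing.injective A K
  let V : Submodule ℂ A := Submodule.span ℂ (insert 1 (range x))
  let W : Submodule ℂ K := V.map f.toLinearMap
  haveI : FiniteDimensional ℂ V :=
    FiniteDimensional.span_of_finite ℂ ((finite_range x).insert 1)
  haveI : FiniteDimensional ℂ W := inferInstance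
  have h1 : (1 : K) ∈ W := ⟨1, Submodule.subset_span (mem_insert _ _), map_one f⟩
  have hx : ∀ i, f (x i) ∈ W := fun i =>
    ⟨x i, Submodule.subset_span (mem_insert_of_mem _ (mem_range_self i)), rfl⟩
  have hA : ∀ a : A, ∃ D, ∀ D' ≥ D, f a ∈ W ^ D' := by
    intro a
    have ha : a ∈ Algebra.adjoin ℂ (range x) := by rw [gen]; exact Algebra.mem_top
    rw [Algebra.adjoin_range_eq_range_aeval] at ha
    obtain ⟨P, rfl⟩ := ha
    have e : f (MvPolynomial.aeval x P) = MvPolynomial.aeval (fun i => f (x i)) P :=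
      (MvPolynomial.comp_aeval_apply x f P)
    obtain ⟨D, hD⟩ := hf_poly h1 hx P
    exact ⟨D, fun D' h => by
      have h3 := hD D' h
      rw [← e] at h3
      exact h3⟩
  have hgen : ∀ a : K, ∃ k, ∃ P ∈ W ^ k, ∃ Q ∈ W ^ k, Q ≠ 0 ∧ a * Q = P := by
    intro a
    obtain ⟨r, s, hs, rfl⟩ := IsFractionRing.div_surjective A a
    obtain ⟨D, hD⟩ := hA r
    obtain ⟨D', hD'⟩ := hA s
    have hs0 : f s ≠ 0 := fun e => nonZeroDivisors.ne_zero hs (hf (by rw [e, map_zero]))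
    exact ⟨D + D', f r, hD _ (by omega), f s, hD' _ (by omega), hs0, div_mul_cancel₀ _ hs0⟩
  haveI : Algebra.IsAlgebraic A K := IsLocalization.isAlgebraic K (nonZeroDivisors A)
  obtain ⟨e, D, -, up, -⟩ := hilb W h1 hgen (hy.algebraMap_comp (A := K))
  refine ⟨e * (D + d + 1) ^ d, fun k => ?_⟩
  have e1 : Module.finrank ℂ (Vk x k) = Module.finrank ℂ ↥(W ^ k) := by
    have e2 : W ^ k = (Vk x k).map f.toLinearMap := (Submodule.map_pow V f k).symm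
    rw [e2]
    exact (Submodule.equivMapOfInjective f.toLinearMap hf (Vk x k)).finrank_eq
  rw [e1]
  refine (up k).trans ?_
  rw [mul_assoc, ← mul_pow]
  refine Nat.mul_le_mul_left _ ((Nat.choose_le_pow _ _).trans (Nat.pow_le_pow_left ?_ d))
  nlinarith [Nat.zero_le (k * (D + d))]

end Vale.Agent.P271
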