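import Vale.Agent.P271.Defs

/-! P271 A/Dense: nonempty Zariski open sets of an irreducible variety are dense. See
`notes/P271.md`, part A.

Plan (Mumford). `exists_finite_inj_algHom_of_fg` gives `S = MvPolynomial (Fin s) ℂ → B` finite and
injective; `q ∈ S` nonzero with `b ∣ q` (`IsAlgebraic.exists_nonzero_dvd`), `w = φ` on `S`. The algebra
maps `B → ℂ` over `w` are finitely many (generators are roots of monic polynomials); take `g` with
`φ g = 0` and `ψ g = 1` for the others (`g = 1 - ∏ h ψ`, `φ (h ψ) = 1`, `ψ (h ψ) = 0`). `F = minpoly S g`,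
`w l → w` with `q (w l) ≠ 0` (a line through `w`); the constant term of `F (w l)` tends to `0`, so a root
`t l → 0` (product of the roots). `minpoly.equivAdjoin` gives a point of `adjoin S {g}`, lying over
(`Ideal.exists_ideal_over_maximal_of_isIntegral`, or `IsAlgClosed.lift` on a quotient) lifts it to `ψ l`.
For each `a` the values `ψ l a` are bounded (roots of monic polynomials with bounded coefficients), so
along an ultrafilter (or a subsequence on generators) they converge to a point over `w` killing `g`, which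
is `φ`. Auxiliary names start with `dense_`. -/

open MeasureTheory Set Filter Topology
open scoped ContDiff ENNReal ComplexConjugate

noncomputable section

namespace Vale.Agent.P271

open Polynomial

theorem dense_small {P : ℂ[X]} (hP : P.Monic) (h : P.natDegree ≠ 0) :
    ∃ t, P.IsRoot t ∧ ‖t ^ P.natDegree‖ ≤ ‖P.coeff 0‖ := by
  have h1 := (IsAlgClosed.splits P).natDegree_eq_card_roots
  obtain ⟨t, ht, h2⟩ := P.roots.toFinset.exists_min_image (fun r => ‖r‖₊)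
    (Multiset.toFinset_nonempty.2 fun e => h (by simp [h1, e]))
  refine ⟨t, (mem_roots hP.ne_zero).1 (Multiset.mem_toFinset.1 ht), ?_⟩
  have h3 := Multiset.pow_card_le_prod (s := P.roots.map fun r => ‖r‖₊) (a := ‖t‖₊) fun x hx => by
    obtain ⟨r, hr, rfl⟩ := Multiset.mem_map.1 hx
    exact h2 r (Multiset.mem_toFinset.2 hr)
  rw [(IsAlgClosed.splits P).coeff_zero_eq_prod_roots_of_monic hP, norm_mul, norm_pow, norm_pow,
    norm_neg, norm_one, one_pow, one_mul, h1]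
  rw [Multiset.card_map] at h3
  exact (NNReal.coe_le_coe.2 h3).trans_eq
    (congrArg NNReal.toReal (map_multiset_prod (nnnormHom (α := ℂ)) P.roots).symm)

theorem dense_big {P : ℂ[X]} (hP : P.Monic) {t : ℂ} (h : P.IsRoot t) :
    ‖t‖ ≤ ∑ i ∈ Finset.range P.natDegree, ‖P.coeff i‖ + 1 := by
  have h1 := (h.norm_lt_cauchyBound hP.ne_zero).le
  rw [cauchyBound, hP.leadingCoeff, nnnorm_one, div_one] at h1
  have h2 : (Finset.range P.natDegree).sup (fun i => ‖P.coeff i‖₊) ≤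
      ∑ i ∈ Finset.range P.natDegree, ‖P.coeff i‖₊ := Finset.sup_le fun i hi =>
    Finset.single_le_sum (f := fun i => ‖P.coeff i‖₊) (fun _ _ => zero_le) hi
  simpa using NNReal.coe_le_coe.2 (h1.trans (add_le_add h2 le_rfl))

theorem dense_ext {R B : Type} [CommRing R] [CommRing B] [Algebra ℂ R] [Algebra ℂ B]
    [Algebra.FiniteType ℂ B] (f : R →ₐ[ℂ] B) (hf : f.toRingHom.IsIntegral) (χ : R →ₐ[ℂ] ℂ)
    (h : ∀ r, f r = 0 → χ r = 0) : ∃ ψ : B →ₐ[ℂ] ℂ, ∀ r, ψ (f r) = χ r := by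
  let _ := f.toRingHom.toAlgebra
  have : Algebra.IsIntegral R B := ⟨hf⟩
  have : (RingHom.ker χ).IsMaximal :=
    RingHom.ker_isMaximal_of_surjective χ fun c => ⟨algebraMap ℂ R c, χ.commutes c⟩
  obtain ⟨Q, hQ, e⟩ := Ideal.exists_ideal_over_maximal_of_isIntegral (S := B) (RingHom.ker χ) h
  let _ := Ideal.Quotient.field Q
  have := finite_of_finite_type_of_isJacobsonRing ℂ (B ⧸ Q)
  let E := AlgEquiv.ofBijective (Algebra.ofId ℂ (B ⧸ Q)) IsAlgClosed.algebraMap_bijective_of_isIntegral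
  refine ⟨E.symm.toAlgHom.comp (Ideal.Quotient.mkₐ ℂ Q), fun r => E.symm_apply_eq.2 ?_⟩
  have h1 : r - algebraMap ℂ R (χ r) ∈ Q.comap (algebraMap R B) := by simp [e, RingHom.mem_ker]
  have h2 : f (r - algebraMap ℂ R (χ r)) ∈ Q := h1
  rw [map_sub, f.commutes] at h2
  exact Ideal.Quotient.eq.2 h2

section

variable {S B : Type} [CommRing S] [CommRing B] [Algebra ℂ S] [Algebra ℂ B] [Algebra S B]
  [Algebra.IsIntegral S B]

theorem dense_root {ψ : B →ₐ[ℂ] ℂ} {w : S →ₐ[ℂ] ℂ} (h : ∀ p, ψ (algebraMap S B p) = w p) (a : B) :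
    ((minpoly S a).map (w : S →+* ℂ)).Monic ∧ ((minpoly S a).map (w : S →+* ℂ)).IsRoot (ψ a) := by
  refine ⟨(minpoly.monic (Algebra.IsIntegral.isIntegral a)).map _, ?_⟩
  have h1 := hom_eval₂ (minpoly S a) (algebraMap S B) (ψ : B →+* ℂ) a
  rw [← aeval_def, minpoly.aeval, map_zero, show (ψ : B →+* ℂ).comp (algebraMap S B) = w from
    RingHom.ext h] at h1
  rw [IsRoot.def, eval_map]
  exact h1.symm

theorem dense_sep [Algebra.FiniteType ℂ B] (φ : B →ₐ[ℂ] ℂ) {w : S →ₐ[ℂ] ℂ}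
    (h : ∀ p, φ (algebraMap S B p) = w p) : ∃ g, φ g = 0 ∧
      ∀ ψ : B →ₐ[ℂ] ℂ, (∀ p, ψ (algebraMap S B p) = w p) → ψ g = 0 → ψ = φ := by
  obtain ⟨s, hs⟩ := Algebra.FiniteType.out (R := ℂ) (A := B)
  have h1 : {ψ : B →ₐ[ℂ] ℂ | (∀ p, ψ (algebraMap S B p) = w p) ∧ ψ ≠ φ}.Finite := by
    refine ((Finite.pi' fun a : s => finite_setOfPred_isRoot (dense_root h a.1).1.ne_zero).preimage
      (f := fun (ψ : B →ₐ[ℂ] ℂ) (a : s) => ψ a) fun ψ _ ψ' _ e => ?_).subset
      fun ψ hψ a => (dense_root hψ.1 a.1).2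
    exact AlgHom.ext_of_adjoin_eq_top hs fun a ha => congrFun e ⟨a, ha⟩
  have h2 : ∀ ψ : B →ₐ[ℂ] ℂ, ∃ a, ψ a = 0 ∧ (ψ ≠ φ → φ a ≠ 0) := fun ψ => by
    by_cases e : ψ = φ
    · exact ⟨0, map_zero _, fun h => absurd e h⟩
    · obtain ⟨a, ha⟩ := DFunLike.ne_iff.1 e
      exact ⟨a - algebraMap ℂ B (ψ a), by simp, fun _ => by simpa [sub_eq_zero] using ha.symm⟩
  choose a ha ha' using h2
  refine ⟨∏ ψ ∈ h1.toFinset, a ψ - algebraMap ℂ B (φ (∏ ψ ∈ h1.toFinset, a ψ)), by simp,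
    fun ψ hψ h0 => by_contra fun e => ?_⟩
  rw [map_sub, map_prod, Finset.prod_eq_zero (h1.mem_toFinset.2 ⟨hψ, e⟩) (ha ψ), AlgHom.commutes,
    zero_sub, neg_eq_zero, map_prod] at h0
  exact Finset.prod_ne_zero_iff.2 (fun ψ' h' => ha' ψ' (h1.mem_toFinset.1 h').2) h0

theorem dense_lim {ψ : ℕ → B →ₐ[ℂ] ℂ} {w : ℕ → S →ₐ[ℂ] ℂ} {w₀ : S →ₐ[ℂ] ℂ}
    (h : ∀ l p, ψ l (algebraMap S B p) = w l p) (hw : ∀ p, Tendsto (fun l => w l p) atTop (𝓝 (w₀ p)))
    (U : Ultrafilter ℕ) (hU : ↑U ≤ (atTop : Filter ℕ)) :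
    ∃ χ : B →ₐ[ℂ] ℂ, ∀ a, Tendsto (fun l => ψ l a) U (𝓝 (χ a)) := by
  have h1 : ∀ a, ∃ z, Tendsto (fun l => ψ l a) U (𝓝 z) := fun a => by
    have h2 := (tendsto_finsetSum (Finset.range (minpoly S a).natDegree) fun i _ =>
      (hw ((minpoly S a).coeff i)).norm).add_const 1
    obtain ⟨z, -, hz⟩ := (isCompact_closedBall (0 : ℂ) _).ultrafilter_le_nhds (U.map fun l => ψ l a)
      (le_principal_iff.2 (mem_map.2 (hU ((h2.eventually_le_const (lt_add_one _)).mono
        fun l hl => mem_closedBall_zero_iff.2 (le_trans (by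
          have h3 := dense_big (dense_root (h l) a).1 (dense_root (h l) a).2
          rw [(minpoly.monic (Algebra.IsIntegral.isIntegral a)).natDegree_map] at h3
          simpa using h3) hl)))))
    exact ⟨z, hz⟩
  choose z hz using h1
  have h2 : ∀ c, z (algebraMap ℂ B c) = c := fun c =>
    tendsto_nhds_unique (hz _) (by simp)
  refine ⟨⟨⟨⟨⟨z, by simpa using h2 1⟩, fun a b => ?_⟩, by simpa using h2 0, fun a b => ?_⟩, h2⟩, hz⟩
  · exact tendsto_nhds_unique (hz _) (by simpa using (hz a).mul (hz b))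
  · exact tendsto_nhds_unique (hz _) (by simpa using (hz a).add (hz b))

theorem dense_lift [IsDomain S] [IsDomain B] [IsIntegrallyClosed S] [FaithfulSMul S B]
    [IsScalarTower ℂ S B] [Algebra.FiniteType ℂ B] (φ : B →ₐ[ℂ] ℂ) {w : ℕ → S →ₐ[ℂ] ℂ}
    {w₀ : S →ₐ[ℂ] ℂ} (h : ∀ p, φ (algebraMap S B p) = w₀ p)
    (hw : ∀ p, Tendsto (fun l => w l p) atTop (𝓝 (w₀ p))) :
    ∃ ψ : ℕ → B →ₐ[ℂ] ℂ, (∀ l p, ψ l (algebraMap S B p) = w l p) ∧
      ∀ a, Tendsto (fun l => ψ l a) atTop (𝓝 (φ a)) := by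
  obtain ⟨g, hg, hg'⟩ := dense_sep φ h
  have hi : IsIntegral S g := Algebra.IsIntegral.isIntegral g
  have hm := minpoly.monic hi
  have h1 : ∀ l, ∃ ψ : B →ₐ[ℂ] ℂ, (∀ p, ψ (algebraMap S B p) = w l p) ∧
      ‖ψ g ^ (minpoly S g).natDegree‖ ≤ ‖w l ((minpoly S g).coeff 0)‖ := fun l => by
    obtain ⟨t, ht, ht'⟩ := dense_small (hm.map (w l : S →+* ℂ)) (by
      rw [hm.natDegree_map]
      exact (minpoly.natDegree_pos hi).ne')
    rw [hm.natDegree_map, coeff_map] at ht'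
    obtain ⟨ψ, hψ⟩ := dense_ext ((aeval g : S[X] →ₐ[S] B).restrictScalars ℂ)
      (RingHom.IsIntegral.tower_top (C : S →+* S[X]) _ (by
        rw [show RingHom.comp _ C = algebraMap S B from RingHom.ext fun p => by simp]
        exact Algebra.IsIntegral.isIntegral)) (aevalTower (w l) t) fun r hr => by
      obtain ⟨c, rfl⟩ := minpoly.isIntegrallyClosed_dvd hi hr
      rw [IsRoot.def, eval_map] at ht
      rw [map_mul, show aevalTower (w l) t (minpoly S g) = 0 from ht, zero_mul]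
    refine ⟨ψ, fun p => by simpa using hψ (C p), ?_⟩
    rwa [show ψ g = t by simpa using hψ X]
  choose ψ h2 h3 using h1
  refine ⟨ψ, h2, fun a => (tendsto_iff_ultrafilter _ _ _).2 fun U hU => ?_⟩
  obtain ⟨χ, hχ⟩ := dense_lim h2 hw U hU
  have h4 : w₀ ((minpoly S g).coeff 0) = 0 := by
    simpa [hg, ← coeff_zero_eq_eval_zero] using (dense_root h g).2
  have h5 : χ g ^ (minpoly S g).natDegree = 0 := tendsto_nhds_unique ((hχ g).pow _)
    ((squeeze_zero_norm h3 (by simpa [h4] using (hw ((minpoly S g).coeff 0)).norm)).mono_left hU)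
  rw [← hg' χ (fun p => tendsto_nhds_unique (hχ _) ?_) (pow_eq_zero_iff
    (minpoly.natDegree_pos hi).ne' |>.1 h5)]
  · exact hχ a
  · simpa only [h2] using (hw p).mono_left hU

end

theorem dense_pts {B : Type} [CommRing B] [IsDomain B] [Algebra ℂ B] [Algebra.FiniteType ℂ B]
    (φ : B →ₐ[ℂ] ℂ) {b : B} (hb : b ≠ 0) :
    ∃ ψ : ℕ → (B →ₐ[ℂ] ℂ), (∀ l, ψ l b ≠ 0) ∧
      ∀ a, Tendsto (fun l => ψ l a) atTop (𝓝 (φ a)) := by
  obtain ⟨s, f, hf, hf'⟩ := exists_integral_inj_algHom_of_fg ℂ B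
  let _ := f.toRingHom.toAlgebra
  have : IsScalarTower ℂ (MvPolynomial (Fin s) ℂ) B :=
    IsScalarTower.of_algebraMap_eq fun a => (f.commutes a).symm
  have : FaithfulSMul (MvPolynomial (Fin s) ℂ) B := (faithfulSMul_iff_algebraMap_injective _ _).2 hf
  have : Algebra.IsIntegral (MvPolynomial (Fin s) ℂ) B := ⟨hf'⟩
  obtain ⟨q, hq, c, hc⟩ := (Algebra.IsIntegral.isIntegral (R := MvPolynomial (Fin s) ℂ)
    b).isAlgebraic.exists_nonzero_dvd (mem_nonZeroDivisors_of_ne_zero hb)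
  have h1 : (fun j => φ (f (MvPolynomial.X j))) ∈ closure {v | MvPolynomial.eval v q ≠ 0} := by
    by_contra h
    refine hq (MvPolynomial.funext fun v => ?_)
    have h2 := (AnalyticOnNhd.eval_mvPolynomial q).eq_of_eventuallyEq analyticOnNhd_const
      ((not_frequently.1 (mem_closure_iff_frequently.not.1 h)).mono fun v hv => not_not.1 hv)
    simpa using congrFun h2 v
  obtain ⟨v, hv, hv'⟩ := mem_closure_iff_seq_limit.1 h1
  obtain ⟨ψ, h2, h3⟩ := dense_lift φ (w := fun l => MvPolynomial.aeval (v l))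
    (w₀ := MvPolynomial.aeval fun j => φ (f (MvPolynomial.X j)))
    (fun p => congr($(MvPolynomial.aeval_unique (φ.comp f)) p))
    fun p => ((MvPolynomial.continuous_eval p).tendsto _).comp hv'
  refine ⟨ψ, fun l h => hv l ?_, h3⟩
  have h4 := h2 l q
  rw [hc, map_mul, h, zero_mul] at h4
  exact h4.symm

end Vale.Agent.P271
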