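import Vale.Agent.P271.A.GaDefs
import Vale.Agent.P271.S.Reg

/-! P271 A/GaFib (about 200 lines): the fibres of `π` over `Δ ≠ 0`.

Plan. `inj`: `Δ(y) x_i(z) = R_i(y, θ z)` (`ev_eval₂`, `ev_ι`), `X.emb.injective`. `exists_pt`: every `a` has `k, R` with
`ι Δ ^ k * a = R(θ)` (`Algebra.adjoin_induction`, `X.gen`; constants are `ι (C c)`). The set `N` of `a` with
`ι Δ ^ k * a = R(θ)` and `R(y, τ) = 0` for some `k, R` is an ideal; `1 ∉ N` (else `P ∣ C (Δ ^ k) - R`, evaluate at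
`(y, τ)`); `θ - τ` and `x (σ j) - y j` lie in `N` (`k = 0`). `exists_pt_of_ne_top` (S/Reg; finite type from `X.gen`) gives
`φ` with `φ (ι Q) = eval y Q`, so `φ h ≠ 0` by `hd`, and `X.surj`. `fibre`: `ev · θ` is a bijection from the fibre to
the roots of `p = P.map (eval y)`, which is monic of degree `P.natDegree` and separable by `sep`
(`Polynomial.card_rootSet_eq_natDegree`, or `nodup_roots`, `IsAlgClosed.card_roots_eq_natDegree`; `Set.ncard_image_of_injOn`).
`dual`: `J = range (e + 1) ×ˢ range (e + 1)`, `u (k, i) = if i < k then ι (P.coeff k) * θ ^ i else 0`, `m (k, i) = k - 1 - i`.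
The first sum is `P'(θ)` (`geom_sum₂_self`), nonzero by `sep`, `ι_inj`; the second sum times `θ z - θ z' ≠ 0` is
`P(y, θ z) - P(y, θ z') = 0` (`Commute.geom_sum₂_mul` or `geom_sum₂_mul`). Auxiliary names start with `gaf_`. -/

open MeasureTheory Set Filter Topology
open scoped ContDiff ENNReal ComplexConjugate

noncomputable section

namespace Vale.Agent.P271

variable {n M : ℕ} {A Ω : Type} [CommRing A] [IsDomain A] [Algebra ℂ A] [TopologicalSpace Ω]
  [T2Space Ω] [SecondCountableTopology Ω] [MeasurableSpace Ω] [BorelSpace Ω] {X : Aff n M A Ω}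
  (T : X.Prim)

theorem Aff.Prim.inj {z z' : Ω} (hz : MvPolynomial.eval (X.π z) T.Δ ≠ 0) (h : X.π z' = X.π z)
    (hθ : X.ev z' T.θ = X.ev z T.θ) : z' = z := by
  refine X.emb.injective (funext fun i => ?_)
  obtain ⟨R, hR⟩ := T.gen i
  have h1 := congrArg (X.ev z) hR
  have h2 := congrArg (X.ev z') hR
  rw [map_mul, X.ev_ι, X.ev_eval₂] at h1 h2
  rw [h, hθ, ← h1] at h2
  exact mul_left_cancel₀ hz h2

omit [IsDomain A] [T2Space Ω] [SecondCountableTopology Ω] [BorelSpace Ω] in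
theorem Aff.gaf_C (X : Aff n M A Ω) (c : ℂ) : X.ι (MvPolynomial.C c) = algebraMap ℂ A c :=
  MvPolynomial.aeval_C _ _

omit [IsDomain A] [T2Space Ω] [SecondCountableTopology Ω] [BorelSpace Ω] in
theorem Aff.Prim.gaf_rep (a : A) :
    ∃ (k : ℕ) (R : Polynomial (MvPolynomial (Fin n) ℂ)), X.ι T.Δ ^ k * a = R.eval₂ X.ι T.θ := by
  have ha : a ∈ Algebra.adjoin ℂ (range X.x) := X.gen ▸ Algebra.mem_top
  induction ha using Algebra.adjoin_induction with
  | mem x hx =>
    obtain ⟨i, rfl⟩ := hx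
    obtain ⟨R, hR⟩ := T.gen i
    exact ⟨1, R, by rwa [pow_one]⟩
  | algebraMap c =>
    exact ⟨0, Polynomial.C (MvPolynomial.C c), by
      rw [pow_zero, one_mul, Polynomial.eval₂_C, X.gaf_C]⟩
  | add x y _ _ hx hy =>
    obtain ⟨k, R, h⟩ := hx
    obtain ⟨k', R', h'⟩ := hy
    refine ⟨k + k', Polynomial.C (T.Δ ^ k') * R + Polynomial.C (T.Δ ^ k) * R', ?_⟩
    rw [Polynomial.eval₂_add, Polynomial.eval₂_mul, Polynomial.eval₂_mul, Polynomial.eval₂_C,
      Polynomial.eval₂_C, map_pow, map_pow, ← h, ← h']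
    ring
  | mul x y _ _ hx hy =>
    obtain ⟨k, R, h⟩ := hx
    obtain ⟨k', R', h'⟩ := hy
    refine ⟨k + k', R * R', ?_⟩
    rw [Polynomial.eval₂_mul, ← h, ← h']
    ring

/-- The ideal of the point `(y, τ)`. -/
def Aff.Prim.gafN (y : E n) (τ : ℂ) : Ideal A where
  carrier := {a | ∃ (k : ℕ) (R : Polynomial (MvPolynomial (Fin n) ℂ)),
    X.ι T.Δ ^ k * a = R.eval₂ X.ι T.θ ∧ R.eval₂ (MvPolynomial.eval y) τ = 0}
  zero_mem' := ⟨0, 0, by simp, by simp⟩
  add_mem' := by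
    rintro a b ⟨k, R, h, h0⟩ ⟨k', R', h', h0'⟩
    refine ⟨k + k', Polynomial.C (T.Δ ^ k') * R + Polynomial.C (T.Δ ^ k) * R', ?_, ?_⟩
    · rw [Polynomial.eval₂_add, Polynomial.eval₂_mul, Polynomial.eval₂_mul, Polynomial.eval₂_C,
        Polynomial.eval₂_C, map_pow, map_pow, ← h, ← h']
      ring
    · rw [Polynomial.eval₂_add, Polynomial.eval₂_mul, Polynomial.eval₂_mul, h0, h0', mul_zero,
        mul_zero, add_zero]
  smul_mem' := by
    rintro b a ⟨k, R, h, h0⟩
    obtain ⟨k', R', h'⟩ := T.gaf_rep b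
    refine ⟨k' + k, R' * R, ?_, by rw [Polynomial.eval₂_mul, h0, mul_zero]⟩
    rw [Polynomial.eval₂_mul, ← h, ← h', smul_eq_mul]
    ring

theorem Aff.Prim.exists_pt {y : E n} (hy : MvPolynomial.eval y T.Δ ≠ 0) {τ : ℂ}
    (hτ : T.P.eval₂ (MvPolynomial.eval y) τ = 0) : ∃ z, X.π z = y ∧ X.ev z T.θ = τ := by
  have : Algebra.FiniteType ℂ A := ⟨⟨(finite_range X.x).toFinset, by simpa using X.gen⟩⟩
  have h1 : T.gafN y τ ≠ ⊤ := by
    rw [Ideal.ne_top_iff_one]
    rintro ⟨k, R, h, h0⟩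
    obtain ⟨Q, hQ⟩ := T.dvd (Polynomial.C (T.Δ ^ k) - R) (by
      rw [Polynomial.eval₂_sub, Polynomial.eval₂_C, map_pow, ← h, mul_one, sub_self])
    have h2 := congrArg (Polynomial.eval₂ (MvPolynomial.eval y) τ) hQ
    rw [Polynomial.eval₂_sub, Polynomial.eval₂_mul, hτ, h0, Polynomial.eval₂_C, map_pow,
      zero_mul, sub_zero] at h2
    exact pow_ne_zero k hy h2
  obtain ⟨φ, hφ⟩ := exists_pt_of_ne_top h1
  have h2 := hφ (T.θ - algebraMap ℂ A τ) ⟨0, Polynomial.X - Polynomial.C (MvPolynomial.C τ),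
    by simp [Polynomial.eval₂_sub, X.gaf_C], by simp [Polynomial.eval₂_sub]⟩
  have h3 : ∀ j, φ (X.x (X.σ j)) = y j := fun j => by
    have h4 := hφ (X.x (X.σ j) - algebraMap ℂ A (y j))
      ⟨0, Polynomial.C (MvPolynomial.X j - MvPolynomial.C (y j)),
        by rw [Polynomial.eval₂_C]; simp [Aff.ι], by rw [Polynomial.eval₂_C]; simp⟩
    simpa [sub_eq_zero] using h4
  have h5 : φ (X.ι T.Δ) = MvPolynomial.eval y T.Δ := by
    refine (MvPolynomial.comp_aeval_apply (X.x ∘ X.σ) φ T.Δ).trans ?_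
    rw [show (fun i => φ ((X.x ∘ X.σ) i)) = y from funext h3, MvPolynomial.aeval_eq_eval]
  obtain ⟨c, hc⟩ := T.hd
  obtain ⟨z, rfl⟩ := X.surj φ fun h => hy (by rw [← h5, hc, map_mul, h, zero_mul])
  exact ⟨z, funext fun j => (X.π_eq z j).trans (h3 j), by simpa [sub_eq_zero] using h2⟩

theorem Aff.Prim.gaf_root (z : Ω) :
    T.P.eval₂ (MvPolynomial.eval (X.π z)) (X.ev z T.θ) = 0 := by
  rw [← X.ev_eval₂, T.root, map_zero]

theorem Aff.Prim.fibre {y : E n} (hy : MvPolynomial.eval y T.Δ ≠ 0) :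
    (X.π ⁻¹' {y}).Finite ∧ (X.π ⁻¹' {y}).ncard = T.P.natDegree := by
  classical
  have hm := T.monic.map (MvPolynomial.eval y)
  have hs : (T.P.map (MvPolynomial.eval y)).Separable := by
    obtain ⟨U, V, h⟩ := T.sep
    have h1 := congrArg (Polynomial.map (MvPolynomial.eval y)) h
    rw [Polynomial.map_C, Polynomial.map_add, Polynomial.map_mul, Polynomial.map_mul,
      ← Polynomial.derivative_map] at h1
    refine ⟨Polynomial.C (MvPolynomial.eval y T.Δ)⁻¹ * U.map (MvPolynomial.eval y),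
      Polynomial.C (MvPolynomial.eval y T.Δ)⁻¹ * V.map (MvPolynomial.eval y), ?_⟩
    rw [mul_assoc, mul_assoc, ← mul_add, ← h1, ← Polynomial.C_mul, inv_mul_cancel₀ hy,
      Polynomial.C_1]
  have hi : InjOn (fun z => X.ev z T.θ) (X.π ⁻¹' {y}) := fun z hz z' hz' h =>
    T.inj (by rwa [show X.π z' = y from hz']) (hz.trans hz'.symm) h
  have he : (fun z => X.ev z T.θ) '' (X.π ⁻¹' {y}) =
      (T.P.map (MvPolynomial.eval y)).roots.toFinset := by
    ext τ
    rw [Finset.mem_coe, Multiset.mem_toFinset, Polynomial.mem_roots hm.ne_zero,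
      Polynomial.IsRoot.def, Polynomial.eval_map]
    constructor
    · rintro ⟨z, rfl, rfl⟩
      exact T.gaf_root z
    · intro h
      exact T.exists_pt hy h
  refine ⟨Finite.of_finite_image (he ▸ Finset.finite_toSet _) hi, ?_⟩
  rw [← hi.ncard_image, he, ncard_coe_finset,
    Multiset.toFinset_card_of_nodup (Polynomial.nodup_roots hs),
    IsAlgClosed.card_roots_eq_natDegree, T.monic.natDegree_map]

theorem gaf_sum {R : Type} [CommRing R] (c : ℕ → R) (a b : R) (e : ℕ) :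
    ∑ j ∈ Finset.range e ×ˢ Finset.range e,
      (if j.2 < j.1 then c j.1 * a ^ j.2 else 0) * b ^ (j.1 - 1 - j.2) =
        ∑ k ∈ Finset.range e, c k * ∑ i ∈ Finset.range k, a ^ i * b ^ (k - 1 - i) := by
  rw [Finset.sum_product]
  refine Finset.sum_congr rfl fun k hk => ?_
  rw [Finset.mul_sum, ← Finset.sum_subset (Finset.range_mono (Finset.mem_range.1 hk).le)
    fun i _ hi => by rw [if_neg (by simpa using hi), zero_mul]]
  exact Finset.sum_congr rfl fun i hi => by rw [if_pos (Finset.mem_range.1 hi), mul_assoc]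

theorem Aff.Prim.dual : ∃ (J : Finset (ℕ × ℕ)) (u : ℕ × ℕ → A) (m : ℕ × ℕ → ℕ),
    ∑ j ∈ J, u j * T.θ ^ m j ≠ 0 ∧ ∀ z z', MvPolynomial.eval (X.π z) T.Δ ≠ 0 → X.π z' = X.π z →
      z' ≠ z → ∑ j ∈ J, X.ev z (u j) * X.ev z' T.θ ^ m j = 0 := by
  refine ⟨Finset.range (T.P.natDegree + 1) ×ˢ Finset.range (T.P.natDegree + 1),
    fun j => if j.2 < j.1 then X.ι (T.P.coeff j.1) * T.θ ^ j.2 else 0, fun j => j.1 - 1 - j.2,
    fun h => ?_, fun z z' hz h hne => ?_⟩
  · rw [gaf_sum fun k => X.ι (T.P.coeff k)] at h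
    have h1 : (Polynomial.derivative T.P).eval₂ X.ι T.θ = 0 := by
      rw [← h]
      conv_lhs => rw [T.P.as_sum_range]
      rw [Polynomial.derivative_sum, Polynomial.eval₂_finsetSum]
      refine Finset.sum_congr rfl fun k _ => ?_
      rw [Polynomial.derivative_monomial, Polynomial.eval₂_monomial, geom_sum₂_self, map_mul,
        map_natCast, mul_assoc]
    obtain ⟨U, V, hUV⟩ := T.sep
    have h2 := congrArg (Polynomial.eval₂ X.ι T.θ) hUV
    rw [Polynomial.eval₂_C, Polynomial.eval₂_add, Polynomial.eval₂_mul, Polynomial.eval₂_mul,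
      T.root, h1, mul_zero, mul_zero, add_zero] at h2
    exact T.ne (X.ι_inj (h2.trans (map_zero _).symm))
  · simp only [apply_ite (X.ev z), map_mul, map_pow, map_zero, X.ev_ι]
    rw [gaf_sum fun k => MvPolynomial.eval (X.π z) (T.P.coeff k)]
    refine (mul_eq_zero.1 ?_).resolve_right
      (sub_ne_zero.2 fun h' : X.ev z T.θ = X.ev z' T.θ => hne (T.inj hz h h'.symm))
    have h1 := T.gaf_root z
    have h2 := T.gaf_root z'
    rw [h] at h2
    rw [Polynomial.eval₂_eq_sum_range] at h1 h2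
    rw [Finset.sum_mul, Finset.sum_congr rfl fun k _ => by rw [mul_assoc, geom_sum₂_mul, mul_sub],
      Finset.sum_sub_distrib, h1, h2, sub_zero]

end Vale.Agent.P271
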