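import Vale.Agent.P271.A.GaDefs

/-! P271 A/GaTame (about 150 lines): polynomial growth.

Plan. Call `f : α → ℂ` tame for `t : α → ℝ`, `t ≥ 1`, if `‖f a‖ ≤ C * t a ^ D`; closed under sums and products.
`poly_bound`: `MvPolynomial.induction_on`, `norm_le_pi_norm`. `ev z θ` is a root of the monic polynomial
`P.map (eval (π z))` (`ev_eval₂`, `root`), so `‖ev z θ‖ ≤ 1 + ∑ i ∈ range e, ‖eval (π z) (P.coeff i)‖`
(`Polynomial.IsRoot.norm_lt_cauchyBound`, or by hand); hence every `R(θ)` is tame (`Polynomial.induction_on`), in particular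
`ι Δ * x i` (`gen`), and `‖Δ(π z)‖ ^ 2 * nrm z = ‖Δ‖ ^ 2 + ∑ ‖Δ x i‖ ^ 2` is bounded by `C (1 + ‖π z‖) ^ D`. Finally
`nrm ^ q ≤ nrm ^ ⌈q⌉₊` (`1 ≤ nrm`, `Real.rpow_le_rpow_of_exponent_le`, `Nat.le_ceil`). Auxiliary names start with `gam_`. -/

open MeasureTheory Set Filter Topology
open scoped ContDiff ENNReal ComplexConjugate

noncomputable section

namespace Vale.Agent.P271

/-- Polynomial growth with respect to `t`. -/
def gam_T {α R : Type} [NormedRing R] (t : α → ℝ) (f : α → R) : Prop :=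
  ∃ (C : ℝ) (D : ℕ), 0 ≤ C ∧ ∀ a, ‖f a‖ ≤ C * t a ^ D

section Tame

variable {α R : Type} [NormedRing R] {t : α → ℝ} {f g : α → R}

theorem gam_const (c : R) : gam_T t fun _ => c :=
  ⟨‖c‖, 0, norm_nonneg _, fun _ => by rw [pow_zero, mul_one]⟩

theorem gam_add (ht : ∀ a, 1 ≤ t a) (hf : gam_T t f) (hg : gam_T t g) :
    gam_T t fun a => f a + g a := by
  obtain ⟨C, D, hC, h⟩ := hf
  obtain ⟨C', D', hC', h'⟩ := hg
  refine ⟨C + C', D + D', add_nonneg hC hC', fun a => ?_⟩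
  rw [add_mul]
  exact norm_add_le_of_le
    ((h a).trans (mul_le_mul_of_nonneg_left (pow_le_pow_right₀ (ht a) (by omega)) hC))
    ((h' a).trans (mul_le_mul_of_nonneg_left (pow_le_pow_right₀ (ht a) (by omega)) hC'))

theorem gam_mul (hf : gam_T t f) (hg : gam_T t g) : gam_T t fun a => f a * g a := by
  obtain ⟨C, D, hC, h⟩ := hf
  obtain ⟨C', D', hC', h'⟩ := hg
  refine ⟨C * C', D + D', mul_nonneg hC hC', fun a => (norm_mul_le _ _).trans
    ((mul_le_mul (h a) (h' a) (norm_nonneg _) ((norm_nonneg _).trans (h a))).trans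
      (le_of_eq (by ring)))⟩

theorem gam_pow (hf : gam_T t f) (k : ℕ) : gam_T t fun a => f a ^ k := by
  induction k with
  | zero => simpa only [pow_zero] using gam_const (1 : R)
  | succ k ih => simpa only [pow_succ] using gam_mul ih hf

theorem gam_sum {ι : Type} (ht : ∀ a, 1 ≤ t a) (s : Finset ι) {F : ι → α → R}
    (h : ∀ i, gam_T t (F i)) : gam_T t fun a => ∑ i ∈ s, F i a := by
  induction s using Finset.cons_induction with
  | empty => simpa only [Finset.sum_empty] using gam_const (0 : R)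
  | cons i s hi ih => simpa only [Finset.sum_cons] using gam_add ht (h i) ih

theorem gam_norm (hf : gam_T t f) : gam_T t fun a => ‖f a‖ := by
  simpa only [gam_T, norm_norm] using hf

theorem gam_le {u : α → ℝ} (hu : gam_T t u) (h : ∀ a, ‖f a‖ ≤ u a) : gam_T t f := by
  obtain ⟨C, D, hC, h'⟩ := hu
  exact ⟨C, D, hC, fun a => (h a).trans ((le_abs_self _).trans (h' a))⟩

end Tame

theorem gam_root {S : Type} [CommRing S] {P : Polynomial S} (hP : P.Monic) (φ : S →+* ℂ) {w : ℂ}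
    (h : P.eval₂ φ w = 0) : ‖w‖ ≤ 1 + ∑ i ∈ Finset.range P.natDegree, ‖φ (P.coeff i)‖ := by
  have h0 : 0 ≤ ∑ i ∈ Finset.range P.natDegree, ‖φ (P.coeff i)‖ :=
    Finset.sum_nonneg fun _ _ => norm_nonneg _
  rcases le_total ‖w‖ 1 with h1 | h1
  · linarith
  rw [hP.as_sum, Polynomial.eval₂_add, Polynomial.eval₂_X_pow, Polynomial.eval₂_finsetSum] at h
  simp only [Polynomial.eval₂_mul, Polynomial.eval₂_C, Polynomial.eval₂_X_pow] at h
  have h2 : ‖w‖ * ‖w‖ ^ P.natDegree ≤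
      (∑ i ∈ Finset.range P.natDegree, ‖φ (P.coeff i)‖) * ‖w‖ ^ P.natDegree := by
    nth_rw 1 [← norm_pow, eq_neg_of_add_eq_zero_left h]
    rw [norm_neg, Finset.sum_mul]
    refine (mul_le_mul_of_nonneg_left (norm_sum_le _ _) (norm_nonneg w)).trans ?_
    rw [Finset.mul_sum]
    refine Finset.sum_le_sum fun i hi => ?_
    rw [norm_mul, norm_pow, mul_left_comm, ← pow_succ']
    exact mul_le_mul_of_nonneg_left (pow_le_pow_right₀ h1 (Finset.mem_range.1 hi)) (norm_nonneg _)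
  have h3 := le_of_mul_le_mul_right h2 (by positivity)
  linarith

theorem poly_bound {n : ℕ} (Q : MvPolynomial (Fin n) ℂ) :
    ∃ (C : ℝ) (D : ℕ), 0 ≤ C ∧ ∀ y : E n, ‖MvPolynomial.eval y Q‖ ≤ C * (1 + ‖y‖) ^ D := by
  have ht : ∀ y : E n, 1 ≤ 1 + ‖y‖ := fun y => le_add_of_nonneg_right (norm_nonneg _)
  show gam_T (fun y : E n => 1 + ‖y‖) fun y => MvPolynomial.eval y Q
  induction Q using MvPolynomial.induction_on with
  | C a => simpa only [MvPolynomial.eval_C] using gam_const a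
  | add p q hp hq => simpa only [map_add] using gam_add ht hp hq
  | mul_X p i hp =>
    simpa only [map_mul, MvPolynomial.eval_X] using gam_mul hp (g := fun y : E n => y i)
      ⟨1, 1, zero_le_one, fun y => by linarith [norm_le_pi_norm y i]⟩

variable {n M : ℕ} {A Ω : Type} [CommRing A] [IsDomain A] [Algebra ℂ A] [TopologicalSpace Ω]
  [T2Space Ω] [SecondCountableTopology Ω] [MeasurableSpace Ω] [BorelSpace Ω] {X : Aff n M A Ω}
  (T : X.Prim)

theorem Aff.Prim.wt (q : ℝ) (m : ℕ) : ∃ (C : ℝ) (N : ℕ), 0 ≤ C ∧ ∀ z,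
    ‖X.ev z (X.ι T.Δ ^ ⌈q⌉₊ * T.θ ^ m)‖ ^ 2 * X.nrm z ^ q ≤ C * (1 + ‖X.π z‖) ^ N := by
  have ht : ∀ z, 1 ≤ 1 + ‖X.π z‖ := fun z => le_add_of_nonneg_right (norm_nonneg _)
  have hQ : ∀ Q, gam_T (fun z => 1 + ‖X.π z‖) fun z => MvPolynomial.eval (X.π z) Q := fun Q => by
    obtain ⟨C, D, hC, h⟩ := poly_bound Q
    exact ⟨C, D, hC, fun z => h _⟩
  have hθ : gam_T (fun z => 1 + ‖X.π z‖) fun z => X.ev z T.θ :=
    gam_le (gam_add ht (gam_const 1) (gam_sum ht _ fun i => gam_norm (hQ (T.P.coeff i))))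
      fun z => gam_root T.monic _ (by rw [← X.ev_eval₂, T.root, map_zero])
  have hR : ∀ R : Polynomial (MvPolynomial (Fin n) ℂ),
      gam_T (fun z => 1 + ‖X.π z‖) fun z => X.ev z (R.eval₂ X.ι T.θ) := fun R => by
    simp only [X.ev_eval₂]
    simp only [Polynomial.eval₂_eq_sum_range]
    exact gam_sum ht _ fun i => gam_mul (hQ _) (gam_pow hθ i)
  have hx : ∀ i, gam_T (fun z => 1 + ‖X.π z‖) fun z => X.ev z (X.ι T.Δ * X.x i) := fun i => by
    obtain ⟨R, h⟩ := T.gen i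
    rw [h]
    exact hR R
  have hΔ : gam_T (fun z => 1 + ‖X.π z‖) fun z => X.ev z (X.ι T.Δ) := by
    simpa only [X.ev_ι] using hQ T.Δ
  obtain ⟨C, N, hC, h⟩ := gam_mul (gam_pow (gam_add ht (gam_pow (gam_norm hΔ) 2)
    (gam_sum ht Finset.univ fun i => gam_pow (gam_norm (hx i)) 2)) ⌈q⌉₊)
    (gam_pow (gam_pow (gam_norm hθ) m) 2)
  refine ⟨C, N, hC, fun z => le_trans ?_ ((le_abs_self _).trans (h z))⟩
  have h1 : 1 ≤ X.nrm z := le_add_of_nonneg_right (Finset.sum_nonneg fun _ _ => sq_nonneg _)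
  have h2 : X.nrm z ^ q ≤ X.nrm z ^ ⌈q⌉₊ := by
    rw [← Real.rpow_natCast]
    exact Real.rpow_le_rpow_of_exponent_le h1 (Nat.le_ceil q)
  refine (mul_le_mul_of_nonneg_left h2 (sq_nonneg _)).trans (le_of_eq ?_)
  have h3 : ‖X.ev z (X.ι T.Δ)‖ ^ 2 + ∑ i, ‖X.ev z (X.ι T.Δ * X.x i)‖ ^ 2 =
      ‖X.ev z (X.ι T.Δ)‖ ^ 2 * X.nrm z := by
    simp only [Aff.nrm, map_mul, norm_mul, mul_pow, mul_add, mul_one, Finset.mul_sum]
  beta_reduce
  rw [h3, map_mul, map_pow, map_pow, norm_mul, norm_pow, norm_pow]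
  ring

end Vale.Agent.P271
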