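import Vale.Agent.P271.A.KrB
import Vale.Agent.P271.A.GaTame
import Vale.Agent.P271.H.Mean
import Vale.Agent.P271.H.Remov

/-! P271 A/GaLiou (about 200 lines): Liouville theorems.

Plan. `liou_one`: `Complex.norm_iteratedDeriv_le_of_forall_mem_sphere_norm_le` with radius `R ≥ 1` gives the bound
`k! * C * (2 R) ^ N / R ^ k ≤ k! * C * 2 ^ N / R → 0`. `liou_poly`: for `g t = R (0 + t • y)`,
`Complex.hasSum_taylorSeries_of_entire` at `t = 1`, `liou_one` (`1 + ‖t • y‖ ≤ (1 + ‖y‖) (1 + ‖t‖)`),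
`hasSum_sum_of_ne_finset_zero`, `P278.osg2_deriv` (`iteratedDeriv k g 0 = iteratedFDeriv ℂ k R 0 fun _ => y`) and `multi_poly`.
`liou_L2`: `EtDom.removable` for `EtDom.triv n`, `W = univ` (`HolAt` unfolds to `AnalyticAt`; the polynomial is analytic by
`MvPolynomial.induction_on` or `AnalyticOnNhd.eval_mvPolynomial`; local bound on `ball y 1` where
`1 + ‖w‖ ≤ 2 + ‖y‖`) gives an entire `R`. For `R' = Q * R` (zero where `Q = 0`) `mean_ball` with radius `1` and
`poly_bound` give `‖R' y‖ ^ 2 * vol ≤ (C (2 + ‖y‖) ^ D) ^ 2 * (2 + ‖y‖) ^ N * I`, so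
`‖R' y‖ ≤ C' (1 + ‖y‖) ^ (D + N)`; `liou_poly`. Auxiliary names start with `gal_`. -/

open MeasureTheory Set Filter Topology
open scoped ContDiff ENNReal ComplexConjugate

noncomputable section

namespace Vale.Agent.P271

theorem liou_one {g : ℂ → ℂ} (hg : Differentiable ℂ g) {C : ℝ} {N k : ℕ}
    (h : ∀ t, ‖g t‖ ≤ C * (1 + ‖t‖) ^ N) (hk : N < k) : iteratedDeriv k g 0 = 0 := by
  have hC : 0 ≤ C := by simpa using (norm_nonneg _).trans (h 0)
  have h1 : ∀ R : ℝ, 1 ≤ R → ‖iteratedDeriv k g 0‖ ≤ k.factorial * C * 2 ^ N / R := fun R hR => by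
    have hR0 : 0 < R := by linarith
    refine (Complex.norm_iteratedDeriv_le_of_forall_mem_sphere_norm_le (C := C * (2 * R) ^ N) k
      hR0 hg.diffContOnCl fun t ht => (h t).trans ?_).trans ?_
    · rw [mem_sphere_zero_iff_norm.1 ht]
      exact mul_le_mul_of_nonneg_left (pow_le_pow_left₀ (by linarith) (by linarith) N) hC
    · rw [div_le_div_iff₀ (by positivity) hR0]
      have h2 : R ^ (N + 1) ≤ R ^ k := pow_le_pow_right₀ hR hk
      calc (k.factorial : ℝ) * (C * (2 * R) ^ N) * R = k.factorial * C * 2 ^ N * R ^ (N + 1) := by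
            ring
        _ ≤ _ := mul_le_mul_of_nonneg_left h2 (by positivity)
  exact norm_le_zero_iff.1 (ge_of_tendsto (tendsto_const_nhds.div_atTop tendsto_id)
    ((eventually_ge_atTop 1).mono h1))

theorem liou_poly {n : ℕ} {R : E n → ℂ} (hR : ∀ y, AnalyticAt ℂ R y) {C : ℝ} {N : ℕ}
    (h : ∀ y, ‖R y‖ ≤ C * (1 + ‖y‖) ^ N) :
    ∃ T : MvPolynomial (Fin n) ℂ, ∀ y, R y = MvPolynomial.eval y T := by
  have hC : 0 ≤ C := by simpa using (norm_nonneg _).trans (h 0)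
  have hd : Differentiable ℂ R := fun y => (hR y).differentiableAt
  choose T hT using fun k : ℕ => multi_poly (iteratedFDeriv ℂ k R 0)
  refine ⟨∑ k ∈ Finset.range (N + 1), MvPolynomial.C (k.factorial : ℂ)⁻¹ * T k, fun y => ?_⟩
  have hg : Differentiable ℂ fun t : ℂ => R (0 + t • y) := hd.comp (by fun_prop)
  have hb : ∀ t : ℂ, ‖R (0 + t • y)‖ ≤ C * (1 + ‖y‖) ^ N * (1 + ‖t‖) ^ N := fun t => by
    refine (h _).trans ?_
    rw [mul_assoc, ← mul_pow, zero_add, norm_smul]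
    refine mul_le_mul_of_nonneg_left (pow_le_pow_left₀ (by positivity) ?_ N) hC
    nlinarith [norm_nonneg t, norm_nonneg y]
  have h1 := (Complex.hasSum_taylorSeries_of_entire hg 0 1).unique
    (hasSum_sum_of_ne_finset_zero (s := Finset.range (N + 1)) fun k hk => by
      rw [liou_one hg hb (by simpa using hk), smul_zero, smul_zero])
  rw [one_smul, zero_add] at h1
  rw [h1, map_sum]
  refine Finset.sum_congr rfl fun k _ => ?_
  rw [Vale.Agent.P278.osg2_deriv isOpen_univ hd.differentiableOn isOpen_univ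
    (fun _ _ => mem_univ _) k 0 (mem_univ _), zero_smul, add_zero, hT]
  simp

theorem gal_loc {n : ℕ} {U : Set (E n)} (hU : MeasurableSet U) (r : E n → ℂ) (N : ℕ) (z : E n) :
    ∫⁻ w in Metric.ball z 1 ∩ U, ENNReal.ofReal (‖r w‖ ^ 2) ≤ ENNReal.ofReal ((2 + ‖z‖) ^ N) *
      ∫⁻ w in U, ENNReal.ofReal (‖r w‖ ^ 2 * ((1 + ‖w‖) ^ N)⁻¹) := by
  rw [← lintegral_const_mul' _ _ ENNReal.ofReal_ne_top]
  refine (setLIntegral_mono' (measurableSet_ball.inter hU) fun w hw => ?_).trans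
    (lintegral_mono_set inter_subset_right)
  rw [← ENNReal.ofReal_mul (by positivity)]
  refine ENNReal.ofReal_le_ofReal ?_
  have h1 : ‖w‖ ≤ ‖z‖ + 1 := by
    linarith [norm_sub_norm_le w z, mem_ball_iff_norm.1 hw.1]
  have h2 : (1 + ‖w‖) ^ N ≤ (2 + ‖z‖) ^ N := pow_le_pow_left₀ (by positivity) (by linarith) N
  rw [mul_left_comm, ← div_eq_mul_inv]
  exact le_mul_of_one_le_right (sq_nonneg _) ((one_le_div (by positivity)).2 h2)

theorem liou_L2 {n : ℕ} {Q : MvPolynomial (Fin n) ℂ} {r : E n → ℂ}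
    (hr : ∀ y, MvPolynomial.eval y Q ≠ 0 → AnalyticAt ℂ r y) {N : ℕ}
    (h2 : ∫⁻ y in {y : E n | MvPolynomial.eval y Q ≠ 0},
      ENNReal.ofReal (‖r y‖ ^ 2 * ((1 + ‖y‖) ^ N)⁻¹) ≠ ⊤) :
    ∃ T : MvPolynomial (Fin n) ℂ, ∀ y, MvPolynomial.eval y Q ≠ 0 →
      MvPolynomial.eval y Q * r y = MvPolynomial.eval y T := by
  have hU : MeasurableSet {y : E n | MvPolynomial.eval y Q ≠ 0} :=
    (isOpen_ne_fun (MvPolynomial.continuous_eval _) continuous_const).measurableSet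
  have hQ : ∀ y : E n, AnalyticAt ℂ (fun w => MvPolynomial.eval w Q) y := fun y =>
    AnalyticOnNhd.eval_mvPolynomial Q y (mem_univ y)
  obtain ⟨R, hR, hRr⟩ := EtDom.removable (D := EtDom.triv n) isOpen_univ
    (Q := fun w => MvPolynomial.eval w Q) (r := r) (fun z _ => hQ z) (fun z _ hz => hr z hz)
    fun z _ => ⟨Metric.ball z 1, Metric.ball_mem_nhds z one_pos,
      ne_top_of_le_ne_top (ENNReal.mul_ne_top ENNReal.ofReal_ne_top h2) (gal_loc hU r N z)⟩
  have hR' : ∀ y : E n, AnalyticAt ℂ (fun w => MvPolynomial.eval w Q * R w) y := fun y =>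
    (hQ y).mul (hR y (mem_univ y))
  obtain ⟨C, D, hC, hb⟩ := poly_bound Q
  obtain ⟨I, hI⟩ : ∃ I, I = ∫⁻ y in {y : E n | MvPolynomial.eval y Q ≠ 0},
    ENNReal.ofReal (‖r y‖ ^ 2 * ((1 + ‖y‖) ^ N)⁻¹) := ⟨_, rfl⟩
  have hv0 : 0 < volume (Metric.ball (0 : E n) 1) := Metric.measure_ball_pos _ _ one_pos
  have hv1 : volume (Metric.ball (0 : E n) 1) ≠ ⊤ := measure_ball_lt_top.ne
  have hv := ENNReal.toReal_pos hv0.ne' hv1
  obtain ⟨T, hT⟩ := liou_poly hR' (N := D + N)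
    (C := C * 2 ^ (D + N) * √(I.toReal / (volume (Metric.ball (0 : E n) 1)).toReal)) fun y => by
    have h1 := mean_ball (y := y) one_pos fun w _ => hR' w
    have h3 : ∫⁻ w in Metric.ball y 1, ENNReal.ofReal (‖MvPolynomial.eval w Q * R w‖ ^ 2) ≤
        ENNReal.ofReal ((C * (2 + ‖y‖) ^ D) ^ 2) * ∫⁻ w in Metric.ball y 1 ∩
          {y : E n | MvPolynomial.eval y Q ≠ 0}, ENNReal.ofReal (‖r w‖ ^ 2) := by
      rw [inter_comm, ← setLIntegral_indicator hU, ← lintegral_const_mul' _ _ ENNReal.ofReal_ne_top]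
      refine setLIntegral_mono' measurableSet_ball fun w hw => ?_
      by_cases h0 : MvPolynomial.eval w Q = 0
      · simp [h0]
      rw [indicator_of_mem (show w ∈ {y : E n | MvPolynomial.eval y Q ≠ 0} from h0),
        ← ENNReal.ofReal_mul (by positivity), hRr w (mem_univ w) h0, norm_mul, mul_pow]
      refine ENNReal.ofReal_le_ofReal (mul_le_mul_of_nonneg_right
        (pow_le_pow_left₀ (norm_nonneg _) ((hb w).trans ?_) 2) (sq_nonneg _))
      refine mul_le_mul_of_nonneg_left (pow_le_pow_left₀ (by positivity) ?_ D) hC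
      linarith [norm_sub_norm_le w y, mem_ball_iff_norm.1 hw]
    have h4 := h1.trans (h3.trans (mul_le_mul_right (gal_loc hU r N y) _))
    rw [← hI] at h4 h2
    have h5 := ENNReal.toReal_mono (ENNReal.mul_ne_top ENNReal.ofReal_ne_top
      (ENNReal.mul_ne_top ENNReal.ofReal_ne_top h2)) h4
    rw [ENNReal.toReal_mul, ENNReal.toReal_mul, ENNReal.toReal_mul,
      ENNReal.toReal_ofReal (by positivity), ENNReal.toReal_ofReal (by positivity),
      ENNReal.toReal_ofReal (by positivity), ← le_div_iff₀ hv] at h5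
    refine le_of_sq_le_sq (h5.trans ?_) (by positivity)
    have h6 : (2 + ‖y‖) ^ (D + N) ≤ 2 ^ (D + N) * (1 + ‖y‖) ^ (D + N) := by
      rw [← mul_pow]
      exact pow_le_pow_left₀ (by positivity) (by linarith [norm_nonneg y]) _
    have h7 : (2 + ‖y‖) ^ N ≤ ((2 + ‖y‖) ^ N) ^ 2 :=
      le_self_pow₀ (one_le_pow₀ (by linarith [norm_nonneg y])) two_ne_zero
    have h8 : 0 ≤ I.toReal / (volume (Metric.ball (0 : E n) 1)).toReal := by positivity
    calc _ = C ^ 2 * (((2 + ‖y‖) ^ D) ^ 2 * (2 + ‖y‖) ^ N) *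
          (I.toReal / (volume (Metric.ball (0 : E n) 1)).toReal) := by ring
      _ ≤ C ^ 2 * (((2 + ‖y‖) ^ D) ^ 2 * ((2 + ‖y‖) ^ N) ^ 2) *
          (I.toReal / (volume (Metric.ball (0 : E n) 1)).toReal) := by gcongr
      _ = C ^ 2 * ((2 + ‖y‖) ^ (D + N)) ^ 2 *
          (I.toReal / (volume (Metric.ball (0 : E n) 1)).toReal) := by ring
      _ ≤ C ^ 2 * (2 ^ (D + N) * (1 + ‖y‖) ^ (D + N)) ^ 2 *
          (I.toReal / (volume (Metric.ball (0 : E n) 1)).toReal) := by gcongr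
      _ = _ := by rw [mul_pow _ _ 2, mul_pow _ _ 2, mul_pow _ _ 2, mul_pow _ _ 2, Real.sq_sqrt h8]; ring
  exact ⟨T, fun y hy => by rw [← hT y, hRr y (mem_univ y) hy]⟩

end Vale.Agent.P271
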