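import Vale.Agent.P271.A.GaDefs
import Vale.Agent.P271.H.Mean

/-! P271 A/GaTr (about 130 lines): sums over the fibres.

Plan. `tr_analytic`: `s = (hf y hy).1.toFinset`. For `y'` near `y`: `y' ∈ U`, `π ((ch z).symm y') = y'` for all `z ∈ s`
(`calc_near` or `mean_right`), and the points `(ch z).symm y'`, `z ∈ s`, are distinct (`tendsto_symm`, `T2Space`,
`Filter.Tendsto.eventually_ne`-type argument on the product, `eventually_all_finset`); so they form the whole fibre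
(`Set.eq_of_subset_of_ncard_le`) and `tr G y' = ∑ z ∈ s, loc G z y'` (`finsum_mem_image`, `finsum_mem_coe_finset`).
`Finset.analyticAt_fun_sum`, `AnalyticAt.congr`.
`tr_lint`: for `y ∈ U`, Cauchy-Schwarz (`sq_sum_le_card_mul_sum_sq`) gives
`ofReal (‖tr G y‖ ^ 2 * ρ y) ≤ e * ∑' w : π ⁻¹' {y}, g w` (`ENNReal.ofReal_sum_of_nonneg`, `Finset.tsum_subtype` or
`ENNReal.sum_le_tsum`); `setLIntegral_mono'`, `setLIntegral_le_lintegral`, `lintegral_const_mul'`, `lint_fibre`.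
Auxiliary names start with `gat_`. -/

open MeasureTheory Set Filter Topology
open scoped ContDiff ENNReal ComplexConjugate

noncomputable section

namespace Vale.Agent.P271

namespace EtDom

variable {n : ℕ} {Ω : Type} [TopologicalSpace Ω] [T2Space Ω] [SecondCountableTopology Ω]
  [MeasurableSpace Ω] [BorelSpace Ω] {D : EtDom n Ω}

theorem tr_analytic {U : Set (E n)} (hU : IsOpen U) {e : ℕ}
    (hf : ∀ y ∈ U, (D.π ⁻¹' {y}).Finite ∧ (D.π ⁻¹' {y}).ncard = e) {G : Ω → ℂ}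
    (hG : ∀ z, D.HolAt G z) {y : E n} (hy : y ∈ U) : AnalyticAt ℂ (D.tr G) y := by
  obtain ⟨s, hs⟩ := (hf y hy).1.exists_finset_coe
  have hz : ∀ z ∈ s, D.π z = y := fun z hz => by
    have : z ∈ D.π ⁻¹' {y} := hs ▸ Finset.mem_coe.2 hz
    exact this
  have h1 : AnalyticAt ℂ (fun y' => ∑ z ∈ s, D.loc G z y') y :=
    Finset.analyticAt_fun_sum _ fun z h => hz z h ▸ hG z
  refine h1.congr ?_
  have ht : ∀ z ∈ s, Tendsto (D.ch z).symm (𝓝 y) (𝓝 z) := fun z h => hz z h ▸ tendsto_symm z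
  have h2 : ∀ᶠ y' in 𝓝 y, ∀ z ∈ s, D.π ((D.ch z).symm y') = y' :=
    (eventually_all_finset s).2 fun z h =>
      hz z h ▸ (calc_near (D := D) G z).mono fun _ h' => h'.1
  have h3 : ∀ᶠ y' in 𝓝 y, ∀ z ∈ s, ∀ z' ∈ s, (D.ch z).symm y' = (D.ch z').symm y' → z = z' :=
    (eventually_all_finset s).2 fun z h => (eventually_all_finset s).2 fun z' h' => by
      by_cases hzz : z = z'
      · exact Eventually.of_forall fun _ _ => hzz
      · have h4 := ((ht z h).prodMk_nhds (ht z' h')).eventually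
          (isClosed_diagonal.isOpen_compl.mem_nhds (show (z, z') ∈ (diagonal Ω)ᶜ from hzz))
        exact h4.mono fun _ h5 h6 => absurd h6 h5
  filter_upwards [h2, h3, hU.mem_nhds hy] with y' h2 h3 hy'
  have hi : InjOn (fun z => (D.ch z).symm y') s := fun z h z' h' => h3 z h z' h'
  have he : (fun z => (D.ch z).symm y') '' s = D.π ⁻¹' {y'} := by
    refine eq_of_subset_of_ncard_le (by rintro _ ⟨z, h, rfl⟩; exact h2 z h) ?_ (hf y' hy').1
    rw [hi.ncard_image, hs, (hf y' hy').2, (hf y hy).2]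
  rw [tr, ← he, finsum_mem_image hi, finsum_mem_coe_finset]
  rfl

theorem tr_lint {U : Set (E n)} (hU : MeasurableSet U) {e : ℕ}
    (hf : ∀ y ∈ U, (D.π ⁻¹' {y}).Finite ∧ (D.π ⁻¹' {y}).ncard = e) {G : Ω → ℂ} {g : Ω → ℝ≥0∞}
    (hg : Measurable g) {ρ : E n → ℝ} (hρ : ∀ y, 0 ≤ ρ y)
    (h : ∀ z, ENNReal.ofReal (‖G z‖ ^ 2 * ρ (D.π z)) ≤ g z) :
    ∫⁻ y in U, ENNReal.ofReal (‖D.tr G y‖ ^ 2 * ρ y) ≤ e * ∫⁻ z, g z ∂D.ν := by
  rw [lint_fibre hg, ← lintegral_const_mul' _ _ (ENNReal.natCast_ne_top e)]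
  refine le_trans (setLIntegral_mono' hU fun y hy => ?_) (setLIntegral_le_lintegral U _)
  obtain ⟨s, hs⟩ := (hf y hy).1.exists_finset_coe
  have hc : s.card = e := by rw [← ncard_coe_finset, hs, (hf y hy).2]
  have hz : ∀ z ∈ s, D.π z = y := fun z hz => by
    have : z ∈ D.π ⁻¹' {y} := hs ▸ Finset.mem_coe.2 hz
    exact this
  rw [tr, ← hs, finsum_mem_coe_finset, Finset.tsum_subtype' s g]
  have h1 : ‖∑ z ∈ s, G z‖ ^ 2 * ρ y ≤ e * ∑ z ∈ s, ‖G z‖ ^ 2 * ρ y := by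
    rw [← Finset.sum_mul, ← mul_assoc, ← hc]
    exact mul_le_mul_of_nonneg_right ((pow_le_pow_left₀ (norm_nonneg _) (norm_sum_le _ _) 2).trans
      sq_sum_le_card_mul_sum_sq) (hρ y)
  refine (ENNReal.ofReal_le_ofReal h1).trans ?_
  rw [ENNReal.ofReal_mul (Nat.cast_nonneg e), ENNReal.ofReal_natCast,
    ENNReal.ofReal_sum_of_nonneg fun z _ => mul_nonneg (sq_nonneg _) (hρ y)]
  exact mul_le_mul_right (Finset.sum_le_sum fun z hz' => hz z hz' ▸ h z) _

end EtDom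

end Vale.Agent.P271
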