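import Vale.Agent.P271.A.GaPrim
import Vale.Agent.P271.A.GaFib
import Vale.Agent.P271.A.GaTr
import Vale.Agent.P271.A.GaLiou

/-! P271 A/GAGA: holomorphic functions of moderate `L ^ 2` growth are rational. See
`notes/P271.md`, part A. -/

open MeasureTheory Set Filter Topology
open scoped ContDiff ENNReal ComplexConjugate

noncomputable section

namespace Vale.Agent.P271

variable {n M : ℕ} {A Ω : Type} [CommRing A] [IsDomain A] [Algebra ℂ A] [TopologicalSpace Ω]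
  [T2Space Ω] [SecondCountableTopology Ω] [MeasurableSpace Ω] [BorelSpace Ω] (X : Aff n M A Ω)

theorem Aff.ga_tr (T : X.Prim) {F : Ω → ℂ} (hF : ∀ z, X.toEtDom.HolAt F z) {q : ℝ}
    (h2 : ∫⁻ z, ENNReal.ofReal (‖F z‖ ^ 2 / X.nrm z ^ q) ∂X.ν ≠ ⊤) (m : ℕ) :
    ∃ Q : MvPolynomial (Fin n) ℂ, ∀ y, MvPolynomial.eval y T.Δ ≠ 0 → MvPolynomial.eval y T.Δ *
      X.toEtDom.tr (fun z => F z * X.ev z (X.ι T.Δ ^ ⌈q⌉₊ * T.θ ^ m)) y =
        MvPolynomial.eval y Q := by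
  obtain ⟨C, N, hC, hw⟩ := T.wt q m
  have hU : IsOpen {y : E n | MvPolynomial.eval y T.Δ ≠ 0} :=
    isOpen_ne_fun (MvPolynomial.continuous_eval _) continuous_const
  have hn : ∀ z, 0 < X.nrm z := fun z => by unfold Aff.nrm; positivity
  have cF : Continuous F := continuous_iff_continuousAt.2 fun z => (hF z).smAt.continuousAt
  have cn : Continuous X.nrm := by
    unfold Aff.nrm
    exact continuous_const.add
      (continuous_finsetSum _ fun i _ => (X.continuous_ev _).norm.pow 2)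
  have mg : Measurable fun z => ENNReal.ofReal (‖F z‖ ^ 2 / X.nrm z ^ q) :=
    ((cF.norm.pow 2).measurable.div (cn.measurable.pow_const q)).ennreal_ofReal
  refine liou_L2 (N := N) (fun y hy => EtDom.tr_analytic hU (fun y hy => T.fibre hy)
    (fun z => (hF z).mul (X.hol _ z)) hy) (ne_top_of_le_ne_top ?_
      (EtDom.tr_lint (g := fun z => ENNReal.ofReal C * ENNReal.ofReal (‖F z‖ ^ 2 / X.nrm z ^ q))
        hU.measurableSet (fun y hy => T.fibre hy) (mg.const_mul _) (fun y => by positivity)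
        fun z => ?_))
  · rw [lintegral_const_mul _ mg]
    exact ENNReal.mul_ne_top (ENNReal.natCast_ne_top _)
      (ENNReal.mul_ne_top ENNReal.ofReal_ne_top h2)
  · rw [← ENNReal.ofReal_mul hC]
    refine ENNReal.ofReal_le_ofReal ?_
    have h1 := Real.rpow_pos_of_pos (hn z) q
    have h3 : 0 < (1 + ‖X.π z‖) ^ N := by positivity
    rw [norm_mul, mul_pow, ← div_eq_mul_inv, ← mul_div_assoc, div_le_div_iff₀ h3 h1]
    have h4 := mul_le_mul_of_nonneg_left (hw z) (sq_nonneg ‖F z‖)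
    linarith

theorem Aff.gaga {F : Ω → ℂ} (hF : ∀ z, X.toEtDom.HolAt F z) {q : ℝ}
    (h2 : ∫⁻ z, ENNReal.ofReal (‖F z‖ ^ 2 / X.nrm z ^ q) ∂X.ν ≠ ⊤) :
    ∃ a b : A, b ≠ 0 ∧ ∀ z, F z * X.ev z b = X.ev z a := by
  rcases isEmpty_or_nonempty Ω with hΩ | ⟨⟨z₀⟩⟩
  · exact ⟨0, 1, one_ne_zero, fun z => hΩ.elim z⟩
  obtain ⟨T⟩ := X.exists_prim fun h => X.ev_h z₀ (by rw [h, map_zero])
  obtain ⟨J, u, m, hc, hd⟩ := T.dual
  choose Q hQ using X.ga_tr T hF h2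
  have hΔ : X.ι T.Δ ≠ 0 := fun h => T.ne (X.ι_inj (by rw [h, map_zero]))
  refine ⟨X.ι T.Δ * ∑ j ∈ J, u j * X.ι (Q (m j)),
    X.ι T.Δ * (X.ι T.Δ * X.ι T.Δ ^ ⌈q⌉₊ * ∑ j ∈ J, u j * T.θ ^ m j),
    mul_ne_zero hΔ (mul_ne_zero (mul_ne_zero hΔ (pow_ne_zero _ hΔ)) hc), fun z => ?_⟩
  by_cases hz : MvPolynomial.eval (X.π z) T.Δ = 0
  · simp [X.ev_ι, hz]
  have hfin := (T.fibre hz).1
  have hmem : ∀ z' ∈ hfin.toFinset, X.π z' = X.π z := fun z' h => by simpa using h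
  have h1 : ∀ j ∈ J, X.ev z (u j * X.ι (Q (m j))) = ∑ z' ∈ hfin.toFinset,
      MvPolynomial.eval (X.π z) T.Δ * MvPolynomial.eval (X.π z) T.Δ ^ ⌈q⌉₊ * F z' *
        (X.ev z (u j) * X.ev z' T.θ ^ m j) := fun j _ => by
    rw [map_mul, X.ev_ι, ← hQ (m j) _ hz, EtDom.tr, finsum_mem_eq_finite_toFinset_sum _ hfin,
      Finset.mul_sum, Finset.mul_sum]
    refine Finset.sum_congr rfl fun z' h => ?_
    rw [map_mul, map_pow, map_pow, X.ev_ι, hmem z' h]
    ring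
  rw [map_mul (X.ev z) _ (∑ j ∈ J, u j * X.ι (Q (m j))), map_sum, Finset.sum_congr rfl h1,
    Finset.sum_comm, Finset.sum_eq_single_of_mem z (by simp) fun z' h hne => by
      rw [← Finset.mul_sum, hd z z' hz (hmem z' h) hne, mul_zero], ← Finset.mul_sum]
  simp only [map_mul, map_pow, map_sum, X.ev_ι]
  ring

end Vale.Agent.P271
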