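import Vale.Agent.P271.A.Norm
import Vale.Agent.P271.H.Meas

/-! P271 A/GaDefs: definitions for `Aff.gaga` (sub-lead helper45). No task here. -/

open MeasureTheory Set Filter Topology
open scoped ContDiff ENNReal ComplexConjugate

noncomputable section

namespace Vale.Agent.P271

/-- The sum of `G` over the fibre of `π`. -/
def EtDom.tr {n : ℕ} {Ω : Type} [TopologicalSpace Ω] [MeasurableSpace Ω] (D : EtDom n Ω)
    (G : Ω → ℂ) (y : E n) : ℂ := ∑ᶠ z ∈ D.π ⁻¹' {y}, G z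

variable {n M : ℕ} {A Ω : Type} [CommRing A] [IsDomain A] [Algebra ℂ A] [TopologicalSpace Ω]
  [T2Space Ω] [SecondCountableTopology Ω] [MeasurableSpace Ω] [BorelSpace Ω] (X : Aff n M A Ω)

/-- Polynomials in the etale coordinates. -/
def Aff.ι : MvPolynomial (Fin n) ℂ →+* A := (MvPolynomial.aeval (X.x ∘ X.σ)).toRingHom

/-- A primitive element `θ` with minimal polynomial `P` and a common denominator `Δ`. -/
structure Aff.Prim where
  θ : A
  P : Polynomial (MvPolynomial (Fin n) ℂ)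
  Δ : MvPolynomial (Fin n) ℂ
  monic : P.Monic
  root : P.eval₂ X.ι θ = 0
  dvd : ∀ R : Polynomial (MvPolynomial (Fin n) ℂ), R.eval₂ X.ι θ = 0 → P ∣ R
  ne : Δ ≠ 0
  gen : ∀ i, ∃ R : Polynomial (MvPolynomial (Fin n) ℂ), X.ι Δ * X.x i = R.eval₂ X.ι θ
  sep : ∃ U V, Polynomial.C Δ = U * P + V * Polynomial.derivative P
  hd : X.h ∣ X.ι Δ

omit [IsDomain A] [T2Space Ω] [SecondCountableTopology Ω] [BorelSpace Ω] in
theorem Aff.ι_inj : Function.Injective X.ι := X.tb.1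

theorem Aff.ev_ι (z : Ω) (Q : MvPolynomial (Fin n) ℂ) :
    X.ev z (X.ι Q) = MvPolynomial.eval (X.π z) Q := X.ev_aeval z Q

theorem Aff.ev_eval₂ (z : Ω) (a : A) (R : Polynomial (MvPolynomial (Fin n) ℂ)) :
    X.ev z (R.eval₂ X.ι a) = R.eval₂ (MvPolynomial.eval (X.π z)) (X.ev z a) := by
  have h : (X.ev z : A →+* ℂ).comp X.ι = MvPolynomial.eval (X.π z) := RingHom.ext (X.ev_ι z)
  rw [← h]
  exact Polynomial.hom_eval₂ R X.ι (X.ev z : A →+* ℂ) a

end Vale.Agent.P271
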