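import Vale.Agent.P271.A.GaDefs

/-! P271 A/GaPrim (about 180 lines): existence of the primitive element.

Plan. `ga_prim`: `L = FractionRing S`, `K = FractionRing A`, `FractionRing.liftAlgebra`. `K` is algebraic over `L`
(`IsFractionRing.isAlgebraic_iff'`, `IsAlgebraic.extendScalars` ...) and `IntermediateField.adjoin L (image of the
generators) = ⊤`, so `FiniteDimensional L K` (`IntermediateField.finiteDimensional_adjoin`); char zero gives
separable; `Field.exists_primitive_element` gives `α`. Every element of `K` is `a / s` with `s ∈ S`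
(`IsAlgebraic.exists_nonzero_dvd`, or `IsLocalization (Algebra.algebraMapSubmonoid A S⁰) K` from
`Algebra.IsAlgebraic`), and `IsAlgebraic.exists_integral_multiple`; so `θ = s • α ∈ A` is integral and still
primitive. `L⟮θ⟯ = Algebra.adjoin L {θ}` (`adjoin_simple_toSubalgebra_of_isAlgebraic`, `Algebra.adjoin_singleton_eq_range_aeval`),
clear denominators with `IsLocalization.integerNormalization`.
`exists_prim`: `letI := X.ι.toAlgebra`; `FaithfulSMul` from `ι_inj`, algebraic from `X.tb.isAlgebraic`
(`IsTranscendenceBasis.isAlgebraic` is over `adjoin ℂ (range _)`, transport with `AlgebraicIndependent.aevalEquiv`;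
see `exists_norm` in A/Norm), finite type from `X.gen`. `P = minpoly S θ`, `minpoly.isIntegrallyClosed_dvd`.
`c = P'(θ) ≠ 0` (else `P ∣ P'`, `P' = 0`, degree `0`, against `minpoly.natDegree_pos`); `exists_norm` gives
`ι s₀ = c * a`, and `s • a = R(θ)`, so `P ∣ C (s * s₀) - R * P'`. `Δ = (∏ i, s i) * (s * s₀) * q` with `h ∣ ι q`
(`exists_norm`; `h ≠ 0` is a hypothesis). Auxiliary names start with `gap_`. -/

open MeasureTheory Set Filter Topology
open scoped ContDiff ENNReal ComplexConjugate

noncomputable section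

namespace Vale.Agent.P271

theorem ga_prim {S A : Type} [CommRing S] [IsDomain S] [CharZero S] [CommRing A] [IsDomain A]
    [Algebra S A] [FaithfulSMul S A] [Algebra.IsAlgebraic S A] [Algebra.FiniteType S A] :
    ∃ θ : A, IsIntegral S θ ∧
      ∀ a : A, ∃ s : S, s ≠ 0 ∧ ∃ R : Polynomial S, s • a = Polynomial.aeval θ R := by
  let := FractionRing.liftAlgebra S (FractionRing A)
  have := FractionRing.isScalarTower_liftAlgebra S (FractionRing A)
  have : Algebra.IsAlgebraic S (FractionRing A) :=
    (IsFractionRing.isAlgebraic_iff' S A (FractionRing A)).1 inferInstance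
  have : Algebra.IsAlgebraic (FractionRing S) (FractionRing A) :=
    Algebra.IsAlgebraic.extendScalars (IsFractionRing.injective S (FractionRing S))
  have : Algebra.EssFiniteType A (FractionRing A) :=
    .of_isLocalization (FractionRing A) (nonZeroDivisors A)
  have : Algebra.EssFiniteType S (FractionRing A) := .comp S A (FractionRing A)
  have : Algebra.EssFiniteType (FractionRing S) (FractionRing A) :=
    .of_comp S (FractionRing S) (FractionRing A)
  have : Module.Finite (FractionRing S) (FractionRing A) :=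
    Algebra.finite_of_essFiniteType_of_isAlgebraic
  obtain ⟨α, hα⟩ := Field.exists_primitive_element (FractionRing S) (FractionRing A)
  have hα' := Algebra.adjoin_eq_top_of_primitive_element (Algebra.IsAlgebraic.isAlgebraic α) hα
  obtain ⟨⟨a, _, s, hs, rfl⟩, h⟩ :=
    IsLocalization.surj (Algebra.algebraMapSubmonoid A (nonZeroDivisors S)) α
  obtain ⟨t, ht, hint⟩ := (Algebra.IsAlgebraic.isAlgebraic (R := S) a).exists_integral_multiple
  refine ⟨t • a, hint, fun b => ?_⟩
  have hb : algebraMap A (FractionRing A) b ∈ Algebra.adjoin (FractionRing S) {α} := by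
    rw [hα']; trivial
  rw [Algebra.adjoin_singleton_eq_range_aeval] at hb
  obtain ⟨p, hp⟩ := hb
  have hu : algebraMap S (FractionRing S) (t * s) ≠ 0 :=
    (map_ne_zero_iff _ (IsFractionRing.injective S (FractionRing S))).2
      (mul_ne_zero ht (nonZeroDivisors.ne_zero hs))
  have h1 : algebraMap A (FractionRing A) (t • a) =
      algebraMap (FractionRing S) (FractionRing A) (algebraMap S (FractionRing S) (t * s)) * α := by
    simp only at h
    rw [Algebra.smul_def, map_mul, ← h, ← IsScalarTower.algebraMap_apply,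
      ← IsScalarTower.algebraMap_apply, ← IsScalarTower.algebraMap_apply, map_mul]
    ring
  obtain ⟨c, hc, hR⟩ := IsLocalization.integerNormalization_spec (nonZeroDivisors S)
    (p.comp (Polynomial.C (algebraMap S (FractionRing S) (t * s))⁻¹ * Polynomial.X))
  refine ⟨c, nonZeroDivisors.ne_zero hc, IsLocalization.integerNormalization (nonZeroDivisors S)
    (p.comp (Polynomial.C (algebraMap S (FractionRing S) (t * s))⁻¹ * Polynomial.X)),
    IsFractionRing.injective A (FractionRing A) ?_⟩
  rw [← Polynomial.aeval_algebraMap_apply, ← Polynomial.aeval_map_algebraMap (FractionRing S), hR,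
    ← IsScalarTower.algebraMap_smul (FractionRing S) c (p.comp _),
    map_smul (Polynomial.aeval _), Polynomial.aeval_comp,
    map_mul (Polynomial.aeval _), Polynomial.aeval_C, Polynomial.aeval_X, h1, ← mul_assoc,
    ← map_mul, inv_mul_cancel₀ hu, map_one, one_mul, Algebra.smul_def, Algebra.smul_def, map_mul,
    ← IsScalarTower.algebraMap_apply, ← IsScalarTower.algebraMap_apply, ← hp]
  rfl

theorem gap_sep {S A : Type} [CommRing S] [IsDomain S] [IsIntegrallyClosed S] [CharZero S]
    [CommRing A] [IsDomain A] [Algebra S A] [FaithfulSMul S A] [Algebra.IsAlgebraic S A] {θ : A}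
    (hθ : IsIntegral S θ)
    (h : ∀ a : A, ∃ s : S, s ≠ 0 ∧ ∃ R : Polynomial S, s • a = Polynomial.aeval θ R) :
    ∃ s : S, s ≠ 0 ∧ ∃ U V, Polynomial.C s =
      U * minpoly S θ + V * Polynomial.derivative (minpoly S θ) := by
  have hc : Polynomial.aeval θ (Polynomial.derivative (minpoly S θ)) ≠ 0 := fun h0 => by
    have h1 := minpoly.natDegree_pos hθ
    have h2 := Polynomial.eq_zero_of_dvd_of_natDegree_lt (minpoly.isIntegrallyClosed_dvd hθ h0)
      (Polynomial.natDegree_derivative_lt h1.ne')
    exact h1.ne' (Polynomial.derivative_eq_zero.1 h2)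
  obtain ⟨s₀, hs₀, a, ha⟩ := (Algebra.IsAlgebraic.isAlgebraic (R := S) _).exists_nonzero_dvd
    (mem_nonZeroDivisors_of_ne_zero hc)
  obtain ⟨s, hs, R, hR⟩ := h a
  obtain ⟨U, hU⟩ := minpoly.isIntegrallyClosed_dvd hθ
    (p := Polynomial.C (s * s₀) - R * Polynomial.derivative (minpoly S θ)) (by
      rw [map_sub, Polynomial.aeval_C, map_mul, map_mul, ha, ← hR, Algebra.smul_def]
      ring)
  exact ⟨s * s₀, mul_ne_zero hs hs₀, U, R, by rw [mul_comm U, ← hU]; ring⟩

variable {n M : ℕ} {A Ω : Type} [CommRing A] [IsDomain A] [Algebra ℂ A] [TopologicalSpace Ω]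
  [T2Space Ω] [SecondCountableTopology Ω] [MeasurableSpace Ω] [BorelSpace Ω] (X : Aff n M A Ω)

theorem Aff.exists_prim (hh : X.h ≠ 0) : Nonempty X.Prim := by
  let := X.ι.toAlgebra
  have hι : ∀ Q, algebraMap (MvPolynomial (Fin n) ℂ) A Q = X.ι Q := fun _ => rfl
  have : FaithfulSMul (MvPolynomial (Fin n) ℂ) A :=
    (faithfulSMul_iff_algebraMap_injective _ _).2 X.ι_inj
  have : IsScalarTower ℂ (MvPolynomial (Fin n) ℂ) A := IsScalarTower.of_algebraMap_eq fun c =>
    ((MvPolynomial.aeval (X.x ∘ X.σ)).commutes c).symm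
  have := X.tb.isAlgebraic
  have : Algebra.IsAlgebraic (MvPolynomial (Fin n) ℂ) A :=
    Algebra.IsAlgebraic.of_ringHom_of_comp_eq X.tb.1.aevalEquiv
      (RingHom.id A) X.tb.1.aevalEquiv.surjective Function.injective_id
      (RingHom.ext fun Q => X.tb.1.algebraMap_aevalEquiv Q)
  have : Algebra.FiniteType ℂ A := ⟨⟨(finite_range X.x).toFinset, by simpa using X.gen⟩⟩
  have : Algebra.FiniteType (MvPolynomial (Fin n) ℂ) A :=
    .of_restrictScalars_finiteType ℂ _ A
  obtain ⟨θ, hθ, h⟩ := ga_prim (S := MvPolynomial (Fin n) ℂ) (A := A)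
  obtain ⟨s, hs, U, V, hUV⟩ := gap_sep hθ h
  obtain ⟨q, hq, hqd⟩ := exists_norm X.tb hh
  choose r hr R hR using fun i => h (X.x i)
  refine ⟨⟨θ, minpoly _ θ, (∏ i, r i) * q * s, minpoly.monic hθ, minpoly.aeval _ θ,
    fun R h0 => minpoly.isIntegrallyClosed_dvd hθ h0,
    mul_ne_zero (mul_ne_zero (Finset.prod_ne_zero_iff.2 fun i _ => hr i) hq) hs, fun i => ?_,
    ⟨Polynomial.C ((∏ i, r i) * q) * U, Polynomial.C ((∏ i, r i) * q) * V, ?_⟩, ?_⟩⟩
  · refine ⟨Polynomial.C ((∏ j ∈ Finset.univ.erase i, r j) * q * s) * R i, ?_⟩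
    have h1 : (R i).eval₂ X.ι θ = X.ι (r i) * X.x i := by
      rw [← hι, ← Algebra.smul_def, hR i]; rfl
    rw [Polynomial.eval₂_mul, Polynomial.eval₂_C, h1,
      ← Finset.mul_prod_erase _ _ (Finset.mem_univ i)]
    simp only [map_mul]
    ring
  · rw [Polynomial.C_mul, hUV]
    ring
  · rw [map_mul, map_mul]
    exact (hqd.mul_left _).mul_right _

end Vale.Agent.P271
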