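import Vale.Agent.P271.Defs

/-! P271 A/HFb: the dimension count. Auxiliary names start with `hfb_`.

`W ^ k ≤ W ^ (N + k) ≤ V ^ k * W ^ N`. Let `U j = span L (W ^ j)`, increasing. All `W ^ k` lie in
`U N`, which is finite dimensional and stable under multiplication by `Q ∈ W ^ k`; this map is injective,
so onto, and `a * Q = P` gives `a ∈ U N`. Upper bound: `B` the complex span of an `L`-basis of `K`; for
every `a` there are `D` and `0 ≠ c ∈ V ^ D` with `c * a ∈ V ^ D * B` (span induction over `L`), then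
one `c` for all of `W ^ N`; `c * W ^ k ≤ V ^ (k + D) * B` (`Submodule.mulMap_range`,
`Module.finrank_tensorProduct`). Lower bound: `j ≤ finrank (U j)` for `j ≤ e` (if `U (j + 1) ≤ U j` then
`U j = ⊤`), `Submodule.exists_fun_fin_finrank_span_eq` gives `E` elements `u β ∈ W ^ E` independent
over `L`, and `(Fin E → V ^ k) → W ^ (k + E)`, `a ↦ ∑ a β * u β`, is injective. -/

open MeasureTheory Set Filter Topology
open scoped ContDiff ENNReal ComplexConjugate

noncomputable section

namespace Vale.Agent.P271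

section

variable {K : Type} [Field K] [Algebra ℂ K]

theorem hfb_mono {U : Submodule ℂ K} (h : (1 : K) ∈ U) {k k' : ℕ} (hk : k ≤ k') : U ^ k ≤ U ^ k' :=
  pow_le_pow_right' (Submodule.one_le.2 h) hk

theorem hfb_fin (U : Submodule ℂ K) [FiniteDimensional ℂ U] (k : ℕ) : FiniteDimensional ℂ ↥(U ^ k) :=
  Module.Finite.iff_fg.2 ((Module.Finite.iff_fg.1 inferInstance).pow k)

theorem hfb_rank (U U' : Submodule ℂ K) [FiniteDimensional ℂ U] [FiniteDimensional ℂ U'] :
    Module.finrank ℂ ↥(U * U') ≤ Module.finrank ℂ U * Module.finrank ℂ U' := by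
  rw [← Submodule.mulMap_range, ← Module.finrank_tensorProduct]
  exact LinearMap.finrank_range_le _

theorem hfb_den {V B : Submodule ℂ K} {L : IntermediateField ℂ K}
    (hfr : ∀ a ∈ L, ∃ D, ∃ c ∈ V ^ D, c ≠ 0 ∧ c * a ∈ V ^ D) (hB : Submodule.span L (B : Set K) = ⊤)
    {S : Submodule ℂ K} (hS : S.FG) : ∃ D, ∃ c ∈ V ^ D, c ≠ 0 ∧ ∀ a ∈ S, c * a ∈ V ^ D * B := by
  classical
  have h1 : ∀ {D D' : ℕ} {c c' : K}, c ∈ V ^ D → c' ∈ V ^ D' → c * c' ∈ V ^ (D + D') :=
    fun h h' => pow_add V _ _ ▸ Submodule.mul_mem_mul h h'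
  have h2 : ∀ {D D' : ℕ} {c x : K}, c ∈ V ^ D → x ∈ V ^ D' * B → c * x ∈ V ^ (D + D') * B :=
    fun h h' => by
      rw [pow_add, mul_assoc]
      exact Submodule.mul_mem_mul h h'
  have h0 : (1 : K) ∈ V ^ 0 := by simp
  have h3 : ∀ a, ∃ D, ∃ c ∈ V ^ D, c ≠ 0 ∧ c * a ∈ V ^ D * B := fun a => by
    have ha : a ∈ Submodule.span L (B : Set K) := hB ▸ Submodule.mem_top
    induction ha using Submodule.span_induction with
    | mem x hx => exact ⟨0, 1, h0, one_ne_zero, Submodule.mul_mem_mul h0 hx⟩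
    | zero => exact ⟨0, 1, h0, one_ne_zero, by simp⟩
    | add x y _ _ hx hy =>
      obtain ⟨D, c, k1, k2, k3⟩ := hx
      obtain ⟨D', c', k1', k2', k3'⟩ := hy
      refine ⟨D + D', c * c', h1 k1 k1', mul_ne_zero k2 k2', ?_⟩
      rw [mul_add, mul_assoc c c' y, mul_comm c c', mul_assoc]
      exact add_mem (add_comm D D' ▸ h2 k1' k3) (h2 k1 k3')
    | smul l x _ hx =>
      obtain ⟨D, c, k1, k2, k3⟩ := hx
      obtain ⟨D', c', k1', k2', k3'⟩ := hfr l l.2
      refine ⟨D' + D, c' * c, h1 k1' k1, mul_ne_zero k2' k2, ?_⟩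
      rw [IntermediateField.smul_def, smul_eq_mul, mul_mul_mul_comm]
      exact h2 k3' k3
  obtain ⟨s, rfl⟩ := hS
  obtain ⟨D, c, k1, k2, k3⟩ : ∃ D, ∃ c ∈ V ^ D, c ≠ 0 ∧ ∀ a ∈ s, c * a ∈ V ^ D * B := by
    induction s using Finset.induction_on with
    | empty => exact ⟨0, 1, h0, one_ne_zero, by simp⟩
    | insert x s _ ih =>
      obtain ⟨D, c, k1, k2, k3⟩ := ih
      obtain ⟨D', c', k1', k2', k3'⟩ := h3 x
      refine ⟨D + D', c * c', h1 k1 k1', mul_ne_zero k2 k2', fun a ha => ?_⟩
      rcases Finset.mem_insert.1 ha with rfl | ha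
      · rw [mul_assoc]
        exact h2 k1 k3'
      · rw [mul_comm c, mul_assoc, add_comm]
        exact h2 k1' (k3 a ha)
  exact ⟨D, c, k1, k2, fun a ha => (Submodule.span_le
    (p := Submodule.comap (LinearMap.mulLeft ℂ c) (V ^ D * B))).2 k3 ha⟩

theorem hfb_grow {W : Submodule ℂ K} (h1 : (1 : K) ∈ W) {L : IntermediateField ℂ K}
    [FiniteDimensional L K] {N : ℕ} (hN : Submodule.span L ((W ^ N : Submodule ℂ K) : Set K) = ⊤) :
    ∀ j ≤ Module.finrank L K,
      j ≤ Module.finrank L (Submodule.span L ((W ^ j : Submodule ℂ K) : Set K)) := by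
  intro j
  induction j with
  | zero => exact fun _ => Nat.zero_le _
  | succ j ih =>
    intro hj
    rcases (Submodule.span_mono (R := L) (hfb_mono h1 j.le_succ)).lt_or_eq with h | h
    · exact (ih (by omega)).trans_lt (Submodule.finrank_lt_finrank_of_lt h)
    have h2 : ∀ k, ∀ x ∈ W ^ (j + k), x ∈ Submodule.span L ((W ^ j : Submodule ℂ K) : Set K) := by
      intro k
      induction k with
      | zero => exact fun x hx => Submodule.subset_span hx
      | succ k ih =>
        intro x hx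
        rw [← add_assoc, pow_succ] at hx
        refine Submodule.mul_induction_on hx (fun a ha b hb => ?_) fun _ _ => add_mem
        refine Submodule.span_le.2 (fun y hy => ?_ : ((W ^ j : Submodule ℂ K) : Set K) ⊆
          Submodule.comap (LinearMap.mulRight L b) (Submodule.span L _)) (ih a ha)
        rw [h]
        exact Submodule.subset_span (pow_succ W j ▸ Submodule.mul_mem_mul hy hb)
    have h3 : Submodule.span L ((W ^ j : Submodule ℂ K) : Set K) = ⊤ :=
      top_le_iff.1 (hN.ge.trans (Submodule.span_le.2 fun x hx =>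
        h2 N x (hfb_mono h1 (Nat.le_add_left N j) hx)))
    rw [← h, h3, finrank_top]
    exact hj

end

theorem hf_core {K : Type} [Field K] [Algebra ℂ K] (W V : Submodule ℂ K) [FiniteDimensional ℂ W]
    (h1 : (1 : K) ∈ V) (hV : V ≤ W) {N : ℕ} (hN : W ^ (N + 1) ≤ V * W ^ N)
    (hgen : ∀ a : K, ∃ k, ∃ P ∈ W ^ k, ∃ Q ∈ W ^ k, Q ≠ 0 ∧ a * Q = P) (L : IntermediateField ℂ K)
    (hL : ∀ a ∈ V, a ∈ L) (hfr : ∀ a ∈ L, ∃ D, ∃ c ∈ V ^ D, c ≠ 0 ∧ c * a ∈ V ^ D) :
    FiniteDimensional L K ∧ ∃ D : ℕ,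
      (∀ k, Module.finrank ℂ ↥(W ^ k) ≤ Module.finrank L K * Module.finrank ℂ ↥(V ^ (k + D))) ∧
      ∀ E ≤ Module.finrank L K, ∀ k,
        E * Module.finrank ℂ ↥(V ^ k) ≤ Module.finrank ℂ ↥(W ^ (k + E)) := by
  have hW := hV h1
  have := Submodule.finiteDimensional_of_le hV
  have := hfb_fin W
  have := hfb_fin V
  have h2 : ∀ k, W ^ k ≤ V ^ k * W ^ N := fun k => by
    refine (hfb_mono hW (Nat.le_add_left k N)).trans ?_
    induction k with
    | zero => simp
    | succ k ih =>
      rw [← add_assoc, pow_succ, pow_succ V, mul_assoc]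
      refine (mul_le_mul_left ih W).trans ?_
      rw [mul_assoc, ← pow_succ]
      exact mul_le_mul_right hN _
  have h3 : ∀ k, ∀ a ∈ V ^ k, a ∈ L := fun k a ha =>
    Submodule.pow_induction_on_left V L.algebraMap_mem (fun _ _ => add_mem)
      (fun m hm _ => mul_mem (hL m hm)) ha
  have h4 : ∀ k, ∀ x ∈ W ^ k, x ∈ Submodule.span L ((W ^ N : Submodule ℂ K) : Set K) := fun k x hx =>
    Submodule.mul_induction_on (h2 k hx) (fun a ha b hb =>
      Submodule.smul_mem _ (⟨a, h3 k a ha⟩ : L) (Submodule.subset_span hb)) fun _ _ => add_mem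
  have hfg : (W ^ N).FG := Module.Finite.iff_fg.1 inferInstance
  have h5 : (Submodule.span L ((W ^ N : Submodule ℂ K) : Set K)).FG := by
    obtain ⟨s, hs⟩ := hfg
    rw [← hs, Submodule.span_span_of_tower]
    exact ⟨s, rfl⟩
  have h6 : Submodule.span L ((W ^ N : Submodule ℂ K) : Set K) = ⊤ := top_le_iff.1 fun a _ => by
    obtain ⟨k, P, hP, Q, hQ, h0, e⟩ := hgen a
    have := Module.Finite.iff_fg.2 h5
    have h8 : Submodule.span L ((W ^ N : Submodule ℂ K) : Set K) ≤ Submodule.comap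
        (LinearMap.mulLeft L Q) (Submodule.span L ((W ^ N : Submodule ℂ K) : Set K)) :=
      Submodule.span_le.2 fun y hy => h4 _ _ (pow_add W k N ▸ Submodule.mul_mem_mul hQ hy)
    obtain ⟨u, hu⟩ := LinearMap.surjective_of_injective
      (f := (LinearMap.mulLeft L Q).restrict fun _ hx => Submodule.mem_comap.1 (h8 hx))
      (fun x y h => Subtype.ext (mul_left_cancel₀ h0 (congrArg Subtype.val h))) ⟨P, h4 k P hP⟩
    have h7 : Q * u = P := congrArg Subtype.val hu
    rw [mul_left_cancel₀ h0 ((mul_comm Q a).trans (e.trans h7.symm))]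
    exact u.2
  have hfin : FiniteDimensional L K := ⟨h6 ▸ h5⟩
  obtain ⟨D, c, -, k2, k3⟩ := hfb_den (B := Submodule.span ℂ (range (Module.finBasis L K))) hfr (by
    rw [Submodule.span_span_of_tower, Module.Basis.span_eq]) hfg
  refine ⟨hfin, D, fun k => ?_, fun E hE k => ?_⟩
  · have := Module.Finite.span_of_finite ℂ (finite_range (Module.finBasis L K))
    have : FiniteDimensional ℂ ↥(V ^ (k + D) * Submodule.span ℂ (range (Module.finBasis L K))) :=
      Module.Finite.iff_fg.2 ((Module.Finite.iff_fg.1 inferInstance).mul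
        (Module.Finite.iff_fg.1 inferInstance))
    have h7 : ∀ x ∈ W ^ k, LinearMap.mulLeft ℂ c x ∈
        V ^ (k + D) * Submodule.span ℂ (range (Module.finBasis L K)) := fun x hx =>
      Submodule.mul_induction_on (h2 k hx) (fun a ha b hb => by
        rw [LinearMap.mulLeft_apply, mul_left_comm, pow_add, mul_assoc]
        exact Submodule.mul_mem_mul ha (k3 b hb)) fun _ _ h h' => by
        rw [map_add]
        exact add_mem h h'
    refine (LinearMap.finrank_le_finrank_of_injective (f := (LinearMap.mulLeft ℂ c).restrict h7)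
      fun x y h => Subtype.ext (mul_left_cancel₀ k2 (congrArg Subtype.val h))).trans
      ((hfb_rank _ _).trans ?_)
    rw [mul_comm]
    exact Nat.mul_le_mul_right _ ((finrank_range_le_card _).trans (Fintype.card_fin _).le)
  · obtain ⟨f, hf, -, hli⟩ := Submodule.exists_fun_fin_finrank_span_eq L
      ((W ^ E : Submodule ℂ K) : Set K)
    have h7 := hfb_grow hW h6 E hE
    have h8 := Fintype.linearIndependent_iff.1 (hli.comp _ (Fin.castLE_injective h7))
    let g : (Fin E → ↥(V ^ k)) →ₗ[ℂ] K := ∑ β, (LinearMap.mulRight ℂ (f (Fin.castLE h7 β))).comp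
      ((V ^ k).subtype.comp (LinearMap.proj β))
    have h9 : ∀ a, g a = ∑ β, (a β : K) * f (Fin.castLE h7 β) := fun a => by simp [g]
    have h10 := LinearMap.finrank_le_finrank_of_injective (f := g.codRestrict (W ^ (k + E)) fun a => by
      rw [h9, pow_add]
      exact sum_mem fun β _ => Submodule.mul_mem_mul (pow_le_pow_left' hV k (a β).2) (hf _))
      ((injective_iff_map_eq_zero _).2 fun a ha => funext fun β => Subtype.ext (congrArg (fun l : L => (l : K))
        (h8 (fun β => ⟨a β, h3 k _ (a β).2⟩) ((h9 a).symm.trans (congrArg Subtype.val ha)) β)))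
    simpa [Module.finrank_pi_fintype] using h10

end Vale.Agent.P271
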