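import Vale.Agent.P271.A.HFa
import Vale.Agent.P271.A.HFb

/-! P271 A/HF: growth of the powers of a finite dimensional subspace of a function field. See
`notes/P271.md`, part A. -/

open MeasureTheory Set Filter Topology
open scoped ContDiff ENNReal ComplexConjugate

noncomputable section

namespace Vale.Agent.P271

theorem hf_scale {ι K : Type} [CommRing K] [Algebra ℂ K] {F : MvPolynomial ι ℂ} {d : ℕ}
    (hF : F.IsHomogeneous d) (l : K) (g : ι → K) :
    MvPolynomial.aeval (fun i => l * g i) F = l ^ d * MvPolynomial.aeval g F := by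
  rw [MvPolynomial.aeval_def, MvPolynomial.aeval_def, MvPolynomial.eval₂_eq, MvPolynomial.eval₂_eq,
    Finset.mul_sum]
  refine Finset.sum_congr rfl fun m hm => ?_
  rw [hF.degree_eq_sum_deg_support hm, ← Finset.prod_pow_eq_pow_sum]
  simp only [mul_pow, Finset.prod_mul_distrib]
  ring

theorem hf_mul_rank {K : Type} [Field K] [Algebra ℂ K] (U : Submodule ℂ K) {c : K} (hc : c ≠ 0) :
    Module.finrank ℂ ↥(Submodule.span ℂ {c} * U) = Module.finrank ℂ U := by
  have e : Submodule.span ℂ {c} * U = U.map (LinearMap.mulLeft ℂ c) := by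
    ext x
    simp [Submodule.mem_span_singleton_mul]
  rw [e]
  exact (Submodule.equivMapOfInjective _ (mul_right_injective₀ hc) U).finrank_eq.symm

theorem hf_poly {K ι : Type} [Field K] [Algebra ℂ K] {V : Submodule ℂ K} (h1 : (1 : K) ∈ V)
    {y : ι → K} (hy : ∀ i, y i ∈ V) (P : MvPolynomial ι ℂ) :
    ∃ D, ∀ D' ≥ D, MvPolynomial.aeval y P ∈ V ^ D' := by
  have h2 : ∀ {a : K} {D : ℕ}, a ∈ V ^ D → ∀ D' ≥ D, a ∈ V ^ D' := fun ha D' h =>
    pow_le_pow_right' (Submodule.one_le.2 h1) h ha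
  induction P using MvPolynomial.induction_on with
  | C a =>
    refine ⟨0, h2 ?_⟩
    rw [pow_zero, MvPolynomial.aeval_C]
    exact Submodule.algebraMap_mem a
  | add p q hp hq =>
    obtain ⟨D, h⟩ := hp
    obtain ⟨D', h'⟩ := hq
    exact ⟨D + D', fun n hn => by
      rw [map_add]
      exact add_mem (h n (by omega)) (h' n (by omega))⟩
  | mul_X p i hp =>
    obtain ⟨D, h⟩ := hp
    refine ⟨D + 1, h2 ?_⟩
    rw [map_mul, MvPolynomial.aeval_X, pow_succ]
    exact Submodule.mul_mem_mul (h D le_rfl) (hy i)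

theorem hilb {K : Type} [Field K] [Algebra ℂ K] (W : Submodule ℂ K) [FiniteDimensional ℂ W]
    (h1 : (1 : K) ∈ W) (hgen : ∀ a : K, ∃ k, ∃ P ∈ W ^ k, ∃ Q ∈ W ^ k, Q ≠ 0 ∧ a * Q = P) {d : ℕ}
    {y : Fin d → K} (hy : IsTranscendenceBasis ℂ y) :
    ∃ e D : ℕ, 1 ≤ e ∧ (∀ k, Module.finrank ℂ ↥(W ^ k) ≤ e * (k + D + d).choose d) ∧
      ∀ E ≤ e, ∀ k, E * (k + d).choose d ≤ Module.finrank ℂ ↥(W ^ (k + E)) := by
  obtain ⟨s, v, N, hv, hvW, hN⟩ := hf_noether W h1
  have h0 : v 0 ≠ 0 := fun e => MvPolynomial.X_ne_zero (R := ℂ) (0 : Fin (s + 1))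
    (hv _ 1 (MvPolynomial.isHomogeneous_X ℂ 0) (by rw [MvPolynomial.aeval_X, e]))
  have hc : (v 0)⁻¹ ≠ 0 := inv_ne_zero h0
  obtain ⟨v', hv'⟩ : ∃ v' : Fin (s + 1) → K, v' = fun i => (v 0)⁻¹ * v i := ⟨_, rfl⟩
  have k0 : v' 0 = 1 := by rw [hv']; exact inv_mul_cancel₀ h0
  have k1 : NoRel v' := fun P k hP e => hv P k hP (by
    rw [hv', hf_scale hP] at e
    exact (mul_eq_zero.1 e).resolve_left (pow_ne_zero _ hc))
  have k2 : Submodule.span ℂ (range v') =
      Submodule.span ℂ {(v 0)⁻¹} * Submodule.span ℂ (range v) := by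
    rw [Submodule.span_mul_span, singleton_mul, ← range_comp, hv']
    rfl
  have k3 : ∀ k, (Submodule.span ℂ {(v 0)⁻¹} * W) ^ k = Submodule.span ℂ {(v 0)⁻¹ ^ k} * W ^ k :=
    fun k => by rw [mul_pow, Submodule.span_pow, singleton_pow]
  have k4 : ∀ k, Module.finrank ℂ ↥((Submodule.span ℂ {(v 0)⁻¹} * W) ^ k) =
      Module.finrank ℂ ↥(W ^ k) := fun k => by rw [k3, hf_mul_rank _ (pow_ne_zero _ hc)]
  have k5 : ∀ i, v' i ∈ Submodule.span ℂ (range v') := fun i => Submodule.subset_span ⟨i, rfl⟩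
  have : FiniteDimensional ℂ ↥(Submodule.span ℂ {(v 0)⁻¹} * W) :=
    Module.Finite.iff_fg.2 ((Submodule.fg_span_singleton _).mul (Module.Finite.iff_fg.1 inferInstance))
  obtain ⟨hfin, D, k6, k7⟩ := hf_core (Submodule.span ℂ {(v 0)⁻¹} * W)
    (Submodule.span ℂ (range v')) (k0 ▸ k5 0)
    (k2 ▸ mul_le_mul_right (Submodule.span_le.2 (range_subset_iff.2 hvW)) _) (N := N) (by
      rw [k2, mul_pow, mul_pow, mul_mul_mul_comm, ← pow_succ']
      exact mul_le_mul_right hN _) (fun a => by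
      obtain ⟨k, P, hP, Q, hQ, e0, e⟩ := hgen a
      refine ⟨k, (v 0)⁻¹ ^ k * P, ?_, (v 0)⁻¹ ^ k * Q, ?_, mul_ne_zero (pow_ne_zero _ hc) e0, ?_⟩
      · rw [k3]
        exact Submodule.mul_mem_mul (Submodule.mem_span_singleton_self _) hP
      · rw [k3]
        exact Submodule.mul_mem_mul (Submodule.mem_span_singleton_self _) hQ
      · rw [← e, mul_left_comm])
    (IntermediateField.adjoin ℂ (range fun i : Fin s => v' i.succ)) (fun a ha => by
      refine (Submodule.span_le (p := (IntermediateField.adjoin ℂ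
        (range fun i : Fin s => v' i.succ)).toSubalgebra.toSubmodule)).2 ?_ ha
      rintro _ ⟨i, rfl⟩
      refine Fin.cases ?_ (fun i => IntermediateField.subset_adjoin ℂ _ ⟨i, rfl⟩) i
      rw [k0]
      exact IntermediateField.one_mem _) (fun a ha => by
      obtain ⟨r, t, rfl⟩ := (IntermediateField.mem_adjoin_range_iff _ _ _).1 ha
      obtain ⟨D, hD⟩ := hf_poly (k0 ▸ k5 0) (fun i : Fin s => k5 i.succ) r
      obtain ⟨D', hD'⟩ := hf_poly (k0 ▸ k5 0) (fun i : Fin s => k5 i.succ) t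
      by_cases ht : MvPolynomial.aeval (fun i : Fin s => v' i.succ) t = 0
      · exact ⟨0, 1, by simp, one_ne_zero, by simp [ht]⟩
      · refine ⟨D + D', _, hD' _ (by omega), ht, ?_⟩
        rw [mul_div_cancel₀ _ ht]
        exact hD _ (by omega))
  have hb : IsTranscendenceBasis ℂ fun i : Fin s => v' i.succ :=
    (hf_ind k1 k0).isTranscendenceBasis_iff_isAlgebraic.2
      (IntermediateField.isAlgebraic_adjoin_iff_top.1 inferInstance)
  obtain rfl : s = d := by simpa using hb.cardinalMk_eq hy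
  refine ⟨Module.finrank (IntermediateField.adjoin ℂ (range fun i : Fin s => v' i.succ)) K, D,
    Module.finrank_pos, fun k => ?_, fun E hE k => ?_⟩
  · have := k6 k
    rwa [k4, hf_rank k1] at this
  · have := k7 E hE k
    rwa [k4, hf_rank k1] at this

end Vale.Agent.P271
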