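import Vale.Agent.P271.Defs

/-! P271 A/HFa: linear Noether normalisation. Auxiliary names start with `hfa_`.

`hf_rank`: `span (range v) ^ k` is the image of `homogeneousSubmodule _ ℂ k` under `aeval v`
(`homogeneousSubmodule_one_pow`, `Submodule.map_pow`), injectively; its dimension is the number of
exponents of degree `k` (`basisRestrictSupport`, `Finset.card_finsuppAntidiag_nat_eq_choose`).
`hf_ind`: homogenise `Q` as `F = ∑ n ≤ D, X 0 ^ (D - n) * rename succ (homogeneousComponent n Q)`; then
`aeval v F = aeval _ Q` and `aeval (Fin.cons 1 X) F = Q`.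
`hf_noether`: strong induction on the cardinality of a finite index type `ι` with `W = span (range w)`.
If a nonzero form `P` of degree `D` kills `w`, take `c` with `eval c P ≠ 0` (`MvPolynomial.funext`) and
`c i ≠ 0` (`D ≠ 0`), `t = (c i)⁻¹ • w i`, `w' j = w j - c j • t` for `j ≠ i`, `W' = span (range w')`.
For a form `P` of degree `n`, `t * (aeval w P - eval c P • t ^ n) ∈ W' * W ^ n`; so
`t ^ (D + 1) ∈ W' * W ^ D`, and `W ^ (n + 1) ≤ W' * W ^ n ⊔ span {t ^ (n + 1)}`. Reductions compose:
`W ^ (N + k) ≤ W' ^ k * W ^ N`. The final family is nonempty since `1 ∈ W ^ (N + 1)`. -/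

open MeasureTheory Set Filter Topology
open scoped ContDiff ENNReal ComplexConjugate

noncomputable section

namespace Vale.Agent.P271

/-- The family `v` satisfies no nonzero homogeneous relation. -/
def NoRel {K ι : Type} [CommRing K] [Algebra ℂ K] (v : ι → K) : Prop :=
  ∀ (P : MvPolynomial ι ℂ) (k : ℕ), P.IsHomogeneous k → MvPolynomial.aeval v P = 0 → P = 0

variable {K : Type} [Field K] [Algebra ℂ K]

open MvPolynomial in
theorem hfa_map {ι : Type} (v : ι → K) (k : ℕ) :
    (homogeneousSubmodule ι ℂ k).map (aeval v).toLinearMap = Submodule.span ℂ (range v) ^ k := by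
  rw [← homogeneousSubmodule_one_pow, Submodule.map_pow, homogeneousSubmodule_one_eq_span_X,
    Submodule.map_span, ← range_comp]
  congr 3
  funext i
  exact aeval_X v i

theorem hfa_card {α : Type} (s : Finset α) [Fintype (s : Set α)] :
    Fintype.card (s : Set α) = s.card := by simp

open MvPolynomial in
theorem hfa_hom (s k : ℕ) :
    Module.finrank ℂ (homogeneousSubmodule (Fin (s + 1)) ℂ k) = (k + s).choose s := by
  have h1 : homogeneousSubmodule (Fin (s + 1)) ℂ k = restrictSupport ℂ
      ((Finset.univ.finsuppAntidiag k : Finset (Fin (s + 1) →₀ ℕ)) : Set (Fin (s + 1) →₀ ℕ)) := by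
    rw [homogeneousSubmodule_eq_finsupp_supported, restrictSupport]
    refine congrArg _ (Set.ext fun d => ?_)
    simp [Finset.mem_finsuppAntidiag, Finsupp.degree_eq_sum]
  rw [h1, Module.finrank_eq_card_basis (basisRestrictSupport ℂ _), hfa_card,
    Finset.card_finsuppAntidiag_nat_eq_choose, Finset.card_fin, ← Nat.choose_symm_add]
  exact congrArg (fun m => Nat.choose m k) (show s + 1 + k - 1 = k + s by omega)

open MvPolynomial in
theorem hfa_homog {s : ℕ} (Q : MvPolynomial (Fin s) ℂ) :
    ∃ F : MvPolynomial (Fin (s + 1)) ℂ, F.IsHomogeneous Q.totalDegree ∧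
      ∀ {A : Type} [CommRing A] [Algebra ℂ A] (u : Fin (s + 1) → A), u 0 = 1 →
        aeval u F = aeval (fun i : Fin s => u i.succ) Q := by
  refine ⟨∑ n ∈ Finset.range (Q.totalDegree + 1), X 0 ^ (Q.totalDegree - n) *
    rename Fin.succ (homogeneousComponent n Q), IsHomogeneous.sum _ _ _ fun n hn => ?_,
    fun u hu => ?_⟩
  · have h := (isHomogeneous_X_pow (R := ℂ) (0 : Fin (s + 1)) (Q.totalDegree - n)).mul
      ((homogeneousComponent_isHomogeneous n Q).rename_isHomogeneous (f := Fin.succ))
    rwa [Nat.sub_add_cancel (Nat.lt_succ_iff.1 (Finset.mem_range.1 hn))] at h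
  · conv_rhs => rw [← sum_homogeneousComponent Q]
    simp only [map_sum, map_mul, map_pow, aeval_X, hu, one_pow, one_mul, aeval_rename]
    rfl

open MvPolynomial in
theorem hfa_key {ι : Type} {w : ι → K} {c : ι → ℂ} {t : K} {U : Submodule ℂ K}
    (ht : t ∈ Submodule.span ℂ (range w)) (hU : ∀ j, w j - c j • t ∈ U) (n : ℕ) :
    ∀ P ∈ homogeneousSubmodule ι ℂ (n + 1),
      aeval w P - eval c P • t ^ (n + 1) ∈ U * Submodule.span ℂ (range w) ^ n := by
  have h1 : ∀ P ∈ homogeneousSubmodule ι ℂ 1, aeval w P - eval c P • t ∈ U := by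
    intro P hP
    rw [homogeneousSubmodule_one_eq_span_X] at hP
    induction hP using Submodule.span_induction with
    | mem P h =>
      obtain ⟨j, rfl⟩ := h
      rw [aeval_X, eval_X]
      exact hU j
    | zero => simp
    | add P Q _ _ h h' =>
      rw [map_add, map_add, add_smul, add_sub_add_comm]
      exact add_mem h h'
    | smul a P _ h =>
      rw [map_smul, smul_eval, mul_smul, ← smul_sub]
      exact U.smul_mem a h
  induction n with
  | zero => simpa using h1
  | succ n ih =>
    intro P hP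
    rw [← homogeneousSubmodule_one_pow, pow_succ, homogeneousSubmodule_one_pow] at hP
    refine Submodule.mul_induction_on hP (fun Q hQ R hR => ?_) fun P Q h h' => ?_
    · have e : aeval w (Q * R) - eval c (Q * R) • t ^ (n + 1 + 1) =
          (aeval w Q - eval c Q • t ^ (n + 1)) * aeval w R +
            eval c Q • ((aeval w R - eval c R • t) * t ^ (n + 1)) := by
        simp only [map_mul, Algebra.smul_def]
        ring
      have h2 : aeval w R ∈ Submodule.span ℂ (range w) := by
        rw [← pow_one (Submodule.span ℂ (range w)), ← hfa_map]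
        exact Submodule.mem_map_of_mem hR
      rw [e]
      refine add_mem ?_ (Submodule.smul_mem _ _
        (Submodule.mul_mem_mul (h1 R hR) (Submodule.pow_mem_pow _ ht _)))
      rw [pow_succ (Submodule.span ℂ (range w)), ← mul_assoc]
      exact Submodule.mul_mem_mul (ih Q hQ) h2
    · rw [map_add, map_add, add_smul, add_sub_add_comm]
      exact add_mem h h'

open MvPolynomial in
theorem hfa_step {n : ℕ} {w : Fin (n + 1) → K} (hw : ¬ NoRel w) :
    ∃ (w' : Fin n → K) (D : ℕ), Submodule.span ℂ (range w') ≤ Submodule.span ℂ (range w) ∧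
      Submodule.span ℂ (range w) ^ (D + 1) ≤
        Submodule.span ℂ (range w') * Submodule.span ℂ (range w) ^ D := by
  simp only [NoRel, not_forall] at hw
  obtain ⟨P, D, hP, h0, hne⟩ := hw
  obtain ⟨c, hc⟩ : ∃ c, eval c P ≠ 0 := by
    by_contra h
    exact hne (MvPolynomial.funext fun c => by
      rw [map_zero]
      exact by_contra fun h' => h ⟨c, h'⟩)
  obtain ⟨D, rfl⟩ : ∃ D', D = D' + 1 := by
    refine Nat.exists_eq_succ_of_ne_zero ?_
    rintro rfl
    rw [← totalDegree_zero_iff_isHomogeneous, totalDegree_eq_zero_iff_eq_C] at hP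
    rw [hP, aeval_C, map_eq_zero] at h0
    exact hne (by rw [hP, h0, map_zero])
  obtain ⟨i, hi⟩ : ∃ i, c i ≠ 0 := by
    by_contra h
    obtain rfl : c = 0 := funext fun i => by_contra fun h' => h ⟨i, h'⟩
    exact hc (by rw [eval_zero, constantCoeff_eq]; exact hP.coeff_eq_zero (by simp))
  have ht : (c i)⁻¹ • w i ∈ Submodule.span ℂ (range w) :=
    Submodule.smul_mem _ _ (Submodule.subset_span (mem_range_self i))
  refine ⟨fun j => w (i.succAbove j) - c (i.succAbove j) • (c i)⁻¹ • w i, D,
    Submodule.span_le.2 ?_, fun x hx => ?_⟩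
  · rintro _ ⟨j, rfl⟩
    exact sub_mem (Submodule.subset_span (mem_range_self _)) (Submodule.smul_mem _ _ ht)
  · have key := hfa_key (c := c) (U := Submodule.span ℂ (range fun j =>
      w (i.succAbove j) - c (i.succAbove j) • (c i)⁻¹ • w i)) ht (fun j => by
        rcases Fin.eq_self_or_eq_succAbove i j with rfl | ⟨j, rfl⟩
        · rw [smul_inv_smul₀ hi, sub_self]
          exact zero_mem _
        · exact Submodule.subset_span (mem_range_self j)) D
    have h1 := key P hP
    rw [h0, zero_sub, neg_mem_iff, Submodule.smul_mem_iff _ hc] at h1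
    rw [← hfa_map] at hx
    obtain ⟨R, hR, rfl⟩ := hx
    have h2 := add_mem (key R hR) (Submodule.smul_mem _ (eval c R) h1)
    rwa [sub_add_cancel] at h2

theorem hfa_ind (n : ℕ) : ∀ w : Fin n → K, Submodule.span ℂ (range w) ≠ ⊥ →
    ∃ (s : ℕ) (v : Fin (s + 1) → K) (N : ℕ), NoRel v ∧ (∀ i, v i ∈ Submodule.span ℂ (range w)) ∧
      Submodule.span ℂ (range w) ^ (N + 1) ≤
        Submodule.span ℂ (range v) * Submodule.span ℂ (range w) ^ N := by
  induction n with
  | zero => exact fun w hw => absurd (by simp) hw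
  | succ n ih =>
    intro w hw
    by_cases h : NoRel w
    · exact ⟨n, w, 0, h, fun i => Submodule.subset_span (mem_range_self i), by simp⟩
    obtain ⟨w', D, h1, h2⟩ := hfa_step h
    obtain ⟨s, v, N, h3, h4, h5⟩ := ih w' fun e => by
      rw [e, Submodule.bot_mul, le_bot_iff, Submodule.pow_eq_bot D.succ_ne_zero] at h2
      exact hw h2
    generalize Submodule.span ℂ (range w) = W at *
    generalize Submodule.span ℂ (range w') = U at *
    have h6 : ∀ k, W ^ (D + k) ≤ U ^ k * W ^ D := fun k => by
      induction k with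
      | zero => simp
      | succ k ih =>
        calc W ^ (D + (k + 1)) = W ^ (D + k) * W := pow_succ W (D + k)
          _ ≤ U ^ k * W ^ D * W := by gcongr
          _ = U ^ k * W ^ (D + 1) := by ring
          _ ≤ U ^ k * (U * W ^ D) := by gcongr
          _ = U ^ (k + 1) * W ^ D := by ring
    refine ⟨s, v, D + N, h3, fun i => h1 (h4 i), ?_⟩
    calc W ^ (D + N + 1) ≤ U ^ (N + 1) * W ^ D := h6 (N + 1)
      _ ≤ Submodule.span ℂ (range v) * U ^ N * W ^ D := by gcongr
      _ ≤ Submodule.span ℂ (range v) * W ^ N * W ^ D := by gcongr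
      _ = Submodule.span ℂ (range v) * W ^ (D + N) := by ring

theorem hf_rank {s : ℕ} {v : Fin (s + 1) → K} (hv : NoRel v) (k : ℕ) :
    Module.finrank ℂ ↥(Submodule.span ℂ (range v) ^ k) = (k + s).choose s := by
  rw [← hfa_map, ← LinearMap.range_domRestrict, LinearMap.finrank_range_of_inj, hfa_hom]
  refine (injective_iff_map_eq_zero _).2 fun P hP => Subtype.ext (hv P k P.2 hP)

theorem hf_ind {s : ℕ} {v : Fin (s + 1) → K} (hv : NoRel v) (h0 : v 0 = 1) :
    AlgebraicIndependent ℂ fun i : Fin s => v i.succ := by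
  refine algebraicIndependent_iff.2 fun Q hQ => ?_
  obtain ⟨F, hF, h⟩ := hfa_homog Q
  have h1 := hv F _ hF ((h v h0).trans hQ)
  have h2 := h (Fin.cons 1 MvPolynomial.X : Fin (s + 1) → MvPolynomial (Fin s) ℂ) rfl
  simp only [h1, map_zero, Fin.cons_succ, MvPolynomial.aeval_X_left_apply] at h2
  exact h2.symm

theorem hf_noether (W : Submodule ℂ K) [FiniteDimensional ℂ W] (h1 : (1 : K) ∈ W) :
    ∃ (s : ℕ) (v : Fin (s + 1) → K) (N : ℕ), NoRel v ∧ (∀ i, v i ∈ W) ∧
      W ^ (N + 1) ≤ Submodule.span ℂ (range v) * W ^ N := by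
  obtain ⟨n, w, rfl⟩ := Submodule.fg_iff_exists_fin_generating_family.1
    (Module.Finite.iff_fg.1 ‹_›)
  exact hfa_ind n w fun h => one_ne_zero (h ▸ h1 : (1 : K) ∈ (⊥ : Submodule ℂ K))

end Vale.Agent.P271
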