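import Vale.Agent.P271.A.Norm

/-! P271 A/KrA (about 100 lines): the graded ring at a point is generated by the etale coordinates.

Plan. `m = RingHom.ker (X.ev z)`. `kra_lin`: for every `r : A` there is `c` with
`r - algebraMap (ev z r) - ∑ j, c j • Y j ∈ m ^ 2` (`Algebra.adjoin_induction` with `X.gen`, generators by
`X.unr`; for a product write `r = α + L + e`, `r' = α' + L' + e'` with `L, L' ∈ m`, `e, e' ∈ m ^ 2`, take
`c = α • c' + α' • c`); the linear form is `∑ j, C (c j) * X j`. `kr_form`: induction on `k`; `k = 0`: `P = C (ev z r)`;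
`m ^ (k + 1) = m ^ k * m`, `Submodule.mul_induction_on`, `u v - P L = u (v - L) + (u - P) L`
(`IsHomogeneous.mul`, `IsHomogeneous.add`).
Auxiliary names start with `kra_`. -/

open MeasureTheory Set Filter Topology
open scoped ContDiff ENNReal ComplexConjugate

noncomputable section

namespace Vale.Agent.P271

variable {n M : ℕ} {A Ω : Type} [CommRing A] [IsDomain A] [Algebra ℂ A] [TopologicalSpace Ω]
  [T2Space Ω] [SecondCountableTopology Ω] [MeasurableSpace Ω] [BorelSpace Ω] (X : Aff n M A Ω)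

/-- The etale coordinates centred at `z`. -/
def Aff.Y (z : Ω) (j : Fin n) : A := X.x (X.σ j) - algebraMap ℂ A (X.ev z (X.x (X.σ j)))

theorem Aff.ev_Y (z w : Ω) (P : MvPolynomial (Fin n) ℂ) :
    X.ev w (MvPolynomial.aeval (X.Y z) P) = MvPolynomial.eval (X.π w - X.π z) P := by
  rw [MvPolynomial.comp_aeval_apply, MvPolynomial.aeval_eq_eval]
  congr 2
  funext j
  simp [Aff.Y, X.π_eq]

theorem Aff.kra_Y (z : Ω) (c : Fin n → ℂ) : ∑ j, c j • X.Y z j ∈ RingHom.ker (X.ev z) := by
  simp [RingHom.mem_ker, Aff.Y]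

theorem Aff.kra_lin (z : Ω) (r : A) : ∃ c : Fin n → ℂ,
    r - algebraMap ℂ A (X.ev z r) - ∑ j, c j • X.Y z j ∈ RingHom.ker (X.ev z) ^ 2 := by
  have hr : r ∈ Algebra.adjoin ℂ (range X.x) := X.gen ▸ Algebra.mem_top
  induction hr using Algebra.adjoin_induction with
  | mem x hx =>
    obtain ⟨i, rfl⟩ := hx
    exact X.unr z i
  | algebraMap a => exact ⟨0, by simp⟩
  | add x y _ _ hx hy =>
    obtain ⟨c, hc⟩ := hx
    obtain ⟨c', hc'⟩ := hy
    refine ⟨c + c', ?_⟩
    have h := Ideal.add_mem _ hc hc'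
    simp only [map_add, Pi.add_apply, add_smul, Finset.sum_add_distrib]
    rwa [show ∀ a b c d e f : A, a - b - c + (d - e - f) = a + d - (b + e) - (c + f) from
      fun _ _ _ _ _ _ => by ring] at h
  | mul x y _ _ hx hy =>
    obtain ⟨c, hc⟩ := hx
    obtain ⟨c', hc'⟩ := hy
    refine ⟨X.ev z x • c' + X.ev z y • c, ?_⟩
    have h1 : (x - algebraMap ℂ A (X.ev z x)) * (y - algebraMap ℂ A (X.ev z y)) ∈
        RingHom.ker (X.ev z) ^ 2 := by
      rw [pow_two]
      exact Ideal.mul_mem_mul (by simp [RingHom.mem_ker]) (by simp [RingHom.mem_ker])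
    have h := Ideal.add_mem _ h1 (Ideal.add_mem _
      (Ideal.mul_mem_left _ (algebraMap ℂ A (X.ev z x)) hc')
      (Ideal.mul_mem_left _ (algebraMap ℂ A (X.ev z y)) hc))
    have e : ∑ j, (X.ev z x • c' + X.ev z y • c) j • X.Y z j =
        algebraMap ℂ A (X.ev z x) * ∑ j, c' j • X.Y z j +
          algebraMap ℂ A (X.ev z y) * ∑ j, c j • X.Y z j := by
      simp only [Pi.add_apply, Pi.smul_apply, add_smul, Finset.sum_add_distrib, smul_eq_mul,
        mul_smul, ← Algebra.smul_def, Finset.smul_sum]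
    rw [e, map_mul, map_mul]
    rwa [show ∀ x y a b L L' : A, (x - a) * (y - b) + (a * (y - b - L') + b * (x - a - L)) =
      x * y - a * b - (a * L' + b * L) from fun _ _ _ _ _ _ => by ring] at h

theorem Aff.kr_form (z : Ω) (k : ℕ) {r : A} (hr : r ∈ RingHom.ker (X.ev z) ^ k) :
    ∃ P : MvPolynomial (Fin n) ℂ, P.IsHomogeneous k ∧
      r - MvPolynomial.aeval (X.Y z) P ∈ RingHom.ker (X.ev z) ^ (k + 1) := by
  induction k generalizing r with
  | zero =>
    exact ⟨MvPolynomial.C (X.ev z r), MvPolynomial.isHomogeneous_C _ _,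
      by simp [RingHom.mem_ker]⟩
  | succ k ih =>
    rw [pow_succ] at hr
    refine Submodule.mul_induction_on hr (fun u hu v hv => ?_) ?_
    · obtain ⟨P, hP, h1⟩ := ih hu
      obtain ⟨c, hc⟩ := X.kra_lin z v
      rw [RingHom.mem_ker.1 hv, map_zero, sub_zero] at hc
      refine ⟨P * ∑ j, MvPolynomial.C (c j) * MvPolynomial.X j,
        hP.mul (MvPolynomial.IsHomogeneous.sum _ _ _ fun j _ =>
          MvPolynomial.isHomogeneous_C_mul_X _ _), ?_⟩
      have e : MvPolynomial.aeval (X.Y z)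
          (∑ j, MvPolynomial.C (c j) * MvPolynomial.X j : MvPolynomial (Fin n) ℂ) =
            ∑ j, c j • X.Y z j := by
        simp [Algebra.smul_def]
      rw [map_mul, e, show ∀ u v P L : A, u * v - P * L = u * (v - L) + (u - P) * L from
        fun _ _ _ _ => by ring]
      refine Ideal.add_mem _ ?_ ?_
      · rw [add_assoc, pow_add]
        exact Ideal.mul_mem_mul hu hc
      · rw [pow_succ]
        exact Ideal.mul_mem_mul h1 (X.kra_Y z c)
    · rintro x y ⟨P, hP, h1⟩ ⟨Q, hQ, h2⟩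
      refine ⟨P + Q, hP.add hQ, ?_⟩
      rw [map_add, add_sub_add_comm]
      exact Ideal.add_mem _ h1 h2

end Vale.Agent.P271
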