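import Vale.Agent.P271.A.Norm

/-! P271 A/KrB (about 150 lines): Taylor polynomials and orders of vanishing.

Plan. `multi_poly`: `y = ∑ i, y i • Pi.single i 1` (`pi_eq_sum_univ'`), `ContinuousMultilinearMap.map_sum`,
`map_smul_univ`; `T = ∑ r : Fin k → Fin n, C (m fun l => Pi.single (r l) 1) * ∏ l, X (r l)`.
`kr_taylor`: `HasFPowerSeriesAt.isBigO_sub_partialSum_pow`, the truncated sum is
`∑ l ∈ range k, p l fun _ => y`. `kr_homog`: fix `y`, compose with `t ↦ t • y` on `𝓝[≠] 0` in `ℂ`: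
`eval (t • y) P = t ^ k * eval y P` (`IsHomogeneous.eval₂`, or `eval_eq` and the weight of the support), so
`‖eval y P‖ ≤ C ‖t‖ ‖y‖ ^ (k + 1) → 0`; `MvPolynomial.funext`. `kr_bigO`: induction on `k` with
`Submodule.mul_induction_on` and `IsBigO.mul`; for `r ∈ ker`, `loc (ev · r) z` is differentiable at `π z` with value `0`
(`DifferentiableAt.isBigO_sub`), compose with `π` (`map_π_nhds`, `mean_left`-type identity `(ch z).left_inv`
near `z`); `k = 0`: `continuous_ev`. Auxiliary names start with `krb_`. -/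

open MeasureTheory Set Filter Topology
open scoped ContDiff ENNReal ComplexConjugate

noncomputable section

namespace Vale.Agent.P271

open Asymptotics

theorem multi_poly {n k : ℕ} (m : ContinuousMultilinearMap ℂ (fun _ : Fin k => E n) ℂ) :
    ∃ T : MvPolynomial (Fin n) ℂ, ∀ y, (m fun _ => y) = MvPolynomial.eval y T := by
  refine ⟨∑ r : Fin k → Fin n, MvPolynomial.C (m fun l => Pi.single (r l) 1) *
    ∏ l, MvPolynomial.X (r l), fun y => ?_⟩
  conv_lhs => rw [pi_eq_sum_univ' y]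
  rw [m.map_sum, map_sum]
  refine Finset.sum_congr rfl fun r _ => ?_
  rw [m.map_smul_univ]
  simp [mul_comm]

theorem kr_taylor {n : ℕ} {G : E n → ℂ} {y₀ : E n} (hG : AnalyticAt ℂ G y₀) (k : ℕ) :
    ∃ T : MvPolynomial (Fin n) ℂ,
      (fun y => G (y₀ + y) - MvPolynomial.eval y T) =O[𝓝 0] fun y => ‖y‖ ^ k := by
  obtain ⟨p, hp⟩ := hG
  choose T hT using fun l => multi_poly (p l)
  refine ⟨∑ l ∈ Finset.range k, T l, ?_⟩
  simp only [map_sum, ← hT]
  exact hp.isBigO_sub_partialSum_pow k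

theorem krb_scale {n k : ℕ} {P : MvPolynomial (Fin n) ℂ} (hP : P.IsHomogeneous k) (t : ℂ)
    (y : E n) : MvPolynomial.eval (t • y) P = t ^ k * MvPolynomial.eval y P := by
  rw [MvPolynomial.eval_eq', MvPolynomial.eval_eq', Finset.mul_sum]
  refine Finset.sum_congr rfl fun d hd => ?_
  have h1 : ∑ i, d i = k := by
    rw [← Finsupp.degree_eq_sum, Finsupp.degree_eq_weight_one]
    exact hP (MvPolynomial.mem_support_iff.1 hd)
  simp only [Pi.smul_apply, smul_eq_mul, mul_pow, Finset.prod_mul_distrib,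
    Finset.prod_pow_eq_pow_sum, h1]
  ring

theorem kr_homog {n k : ℕ} {P : MvPolynomial (Fin n) ℂ} (hP : P.IsHomogeneous k)
    (h : (fun y : E n => MvPolynomial.eval y P) =O[𝓝 0] fun y => ‖y‖ ^ (k + 1)) : P = 0 := by
  refine MvPolynomial.funext fun y => ?_
  rw [map_zero]
  have h1 : Tendsto (fun t : ℂ => t • y) (𝓝[≠] 0) (𝓝 0) := by
    refine Tendsto.mono_left ?_ nhdsWithin_le_nhds
    exact Continuous.tendsto' (by fun_prop) _ _ (zero_smul _ _)
  obtain ⟨C, hC⟩ := (h.comp_tendsto h1).bound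
  have h2 : Tendsto (fun t : ℂ => C * (‖t‖ * ‖y‖ ^ (k + 1))) (𝓝[≠] 0) (𝓝 0) := by
    refine Tendsto.mono_left ?_ nhdsWithin_le_nhds
    exact Continuous.tendsto' (by fun_prop) _ _ (by simp)
  refine norm_le_zero_iff.1 (ge_of_tendsto h2 ?_)
  filter_upwards [hC, self_mem_nhdsWithin] with t ht h0
  have h3 : 0 < ‖t‖ ^ k := pow_pos (norm_pos_iff.2 h0) k
  simp only [Function.comp_apply, krb_scale hP, norm_mul, norm_pow, norm_norm, norm_smul,
    mul_pow] at ht
  refine le_of_mul_le_mul_left (ht.trans (le_of_eq ?_)) h3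
  ring

variable {n M : ℕ} {A Ω : Type} [CommRing A] [IsDomain A] [Algebra ℂ A] [TopologicalSpace Ω]
  [T2Space Ω] [SecondCountableTopology Ω] [MeasurableSpace Ω] [BorelSpace Ω] (X : Aff n M A Ω)

theorem Aff.krb_one (z : Ω) {r : A} (hr : r ∈ RingHom.ker (X.ev z)) :
    (fun w => X.ev w r) =O[𝓝 z] fun w => ‖X.π w - X.π z‖ := by
  have h1 := ((X.hol r z).differentiableAt.isBigO_sub.comp_tendsto
    (EtDom.continuous_π (D := X.toEtDom)).continuousAt).norm_right
  refine h1.congr' ?_ EventuallyEq.rfl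
  filter_upwards [(X.ch z).open_source.mem_nhds (X.mem z)] with w hw
  have h2 := (X.ch z).left_inv hw
  rw [X.coe] at h2
  rw [Function.comp_apply, EtDom.loc_self, RingHom.mem_ker.1 hr, sub_zero, EtDom.loc,
    Function.comp_apply, h2]

theorem Aff.kr_bigO (z : Ω) (k : ℕ) {r : A} (hr : r ∈ RingHom.ker (X.ev z) ^ k) :
    (fun w => X.ev w r) =O[𝓝 z] fun w => ‖X.π w - X.π z‖ ^ k := by
  induction k generalizing r with
  | zero =>
    simp only [pow_zero]
    exact (X.continuous_ev r).continuousAt.isBigO_one ℝ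
  | succ k ih =>
    rw [pow_succ] at hr
    refine Submodule.mul_induction_on hr (fun u hu v hv => ?_) fun x y hx hy => ?_
    · simp only [map_mul, pow_succ]
      exact (ih hu).mul (X.krb_one z hv)
    · simp only [map_add]
      exact hx.add hy

end Vale.Agent.P271
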