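import Vale.Agent.P271.A.KrA
import Vale.Agent.P271.A.KrB

/-! P271 A/Krull: a rational function holomorphic at a point is regular there. See
`notes/P271.md`, part A. -/

open MeasureTheory Set Filter Topology
open scoped ContDiff ENNReal ComplexConjugate

noncomputable section

namespace Vale.Agent.P271

open Asymptotics

variable {n M : ℕ} {A Ω : Type} [CommRing A] [IsDomain A] [Algebra ℂ A] [TopologicalSpace Ω]
  [T2Space Ω] [SecondCountableTopology Ω] [MeasurableSpace Ω] [BorelSpace Ω] (X : Aff n M A Ω)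

theorem Aff.kr_map (z : Ω) : map (fun w => X.π w - X.π z) (𝓝 z) = 𝓝 0 := by
  have h1 := (Homeomorph.subRight (X.π z)).map_nhds_eq (X.π z)
  rw [← X.toEtDom.map_π_nhds z, map_map] at h1
  simpa [Function.comp_def] using h1

theorem Aff.kr_mem (z : Ω) (k : ℕ) {r : A}
    (h : (fun w => X.ev w r) =O[𝓝 z] fun w => ‖X.π w - X.π z‖ ^ k) :
    r ∈ RingHom.ker (X.ev z) ^ k := by
  induction k with
  | zero => simp
  | succ k ih =>
    have ht : Tendsto (fun w => X.π w - X.π z) (𝓝 z) (𝓝 0) := (X.kr_map z).le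
    have h1 : (fun w => ‖X.π w - X.π z‖ ^ (k + 1)) =O[𝓝 z] fun w => ‖X.π w - X.π z‖ ^ k :=
      (isLittleO_pow_pow (Nat.lt_succ_self k)).isBigO.comp_tendsto
        (tendsto_zero_iff_norm_tendsto_zero.1 ht)
    obtain ⟨P, hP, hr⟩ := X.kr_form z k (ih (h.trans h1))
    have h2 := h.sub (X.kr_bigO z (k + 1) hr)
    have h3 : (fun y : E n => MvPolynomial.eval y P) =O[𝓝 0] fun y => ‖y‖ ^ (k + 1) := by
      rw [← X.kr_map z, isBigO_map]
      refine h2.congr_left fun w => ?_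
      simp only [map_sub, X.ev_Y, Function.comp_apply]
      ring
    rw [kr_homog hP h3] at hr
    simpa using hr

theorem Aff.kr_all {z : Ω} {F : Ω → ℂ} (hF : X.toEtDom.HolAt F z) {a b : A}
    (h : ∀ᶠ w in 𝓝 z, F w * X.ev w b = X.ev w a) (k : ℕ) :
    ∃ c : A, a - c * b ∈ RingHom.ker (X.ev z) ^ k := by
  obtain ⟨T, hT⟩ := kr_taylor hF k
  refine ⟨MvPolynomial.aeval (X.Y z) T, X.kr_mem z k ?_⟩
  have ht : Tendsto (fun w => X.π w - X.π z) (𝓝 z) (𝓝 0) := (X.kr_map z).le
  have h1 := (hT.comp_tendsto ht).mul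
    ((X.continuous_ev b).continuousAt (x := z).isBigO_one ℝ)
  refine (h1.congr' ?_ ?_)
  · filter_upwards [h, (X.ch z).open_source.mem_nhds (X.mem z)] with w hw hs
    have h2 : (X.ch z).symm (X.π w) = w := by
      have h3 := (X.ch z).left_inv hs
      rwa [X.coe z] at h3
    simp only [Function.comp_apply, add_sub_cancel, EtDom.loc, h2, map_sub, map_mul, X.ev_Y, ← hw]
    ring
  · exact Eventually.of_forall fun w => by simp

theorem Aff.krull {z : Ω} {F : Ω → ℂ} (hF : X.toEtDom.HolAt F z) {a b : A} (hb : b ≠ 0)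
    (h : ∀ᶠ w in 𝓝 z, F w * X.ev w b = X.ev w a) :
    ∃ t a' : A, X.ev z t ≠ 0 ∧ t * a = a' * b ∧ ∀ᶠ w in 𝓝 z, F w * X.ev w t = X.ev w a' := by
  have := X.noeth
  have h1 : Ideal.Quotient.mk (Ideal.span {b}) a ∈
      (⨅ k : ℕ, RingHom.ker (X.ev z) ^ k • ⊤ : Submodule A (A ⧸ Ideal.span {b})) := by
    refine (Submodule.mem_iInf _).2 fun k => ?_
    obtain ⟨c, hc⟩ := X.kr_all hF h k
    have h2 : Ideal.Quotient.mk (Ideal.span {b}) a =
        (a - c * b) • (1 : A ⧸ Ideal.span {b}) := by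
      rw [← Algebra.algebraMap_eq_smul_one, Ideal.Quotient.algebraMap_eq, Ideal.Quotient.eq]
      simpa using Ideal.mul_mem_left _ c (Ideal.mem_span_singleton_self b)
    rw [h2]
    exact Submodule.smul_mem_smul hc Submodule.mem_top
  obtain ⟨ρ, hρ⟩ := (Ideal.mem_iInf_smul_pow_eq_bot_iff _ _).1 h1
  rw [Algebra.smul_def, Ideal.Quotient.algebraMap_eq, ← map_mul, eq_comm, Ideal.Quotient.eq,
    Ideal.mem_span_singleton'] at hρ
  obtain ⟨a', ha'⟩ := hρ
  have h0 : X.ev z (ρ : A) = 0 := ρ.2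
  have ht : (1 - (ρ : A)) * a = a' * b := by rw [ha']; ring
  refine ⟨1 - ρ, a', by simp [h0], ht, ?_⟩
  filter_upwards [h.eventually_nhds, hF.eventually] with w hw hFw
  have h3 : ∃ᶠ v in 𝓝 w, F v * X.ev v (1 - ρ) - X.ev v a' = 0 := by
    have h4 : ∃ᶠ v in 𝓝 w, X.ev v b ≠ 0 := mem_closure_iff_frequently.1 (X.dense_ne hb w)
    refine (h4.and_eventually hw).mono fun v hv => ?_
    have h5 := congrArg (X.ev v) ht
    rw [map_mul, map_mul, ← hv.2] at h5
    refine mul_right_cancel₀ hv.1 ?_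
    linear_combination h5
  have h6 : ContinuousAt (fun v => F v * X.ev v (1 - ρ) - X.ev v a') w :=
    (hFw.smAt.continuousAt.mul (X.continuous_ev _).continuousAt).sub
      (X.continuous_ev _).continuousAt
  exact sub_eq_zero.1 (tendsto_nhds_unique_of_frequently_eq h6.tendsto tendsto_const_nhds h3)

end Vale.Agent.P271
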