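import Vale.Agent.P271.H.Calc

/-! P271 A/Norm: elementary facts on `Vk`, norms, and density of principal open sets.

Plan. `exists_norm`: `b` is algebraic over `Algebra.adjoin ℂ (range y)`; divide the equation by a power
of `b` (`IsAlgebraic.exists_nonzero_dvd` or by hand). `dense_ne`: `ev z (aeval y q) = eval (π z) q`; a
polynomial vanishing on a neighbourhood of `π z` (`map_π_nhds`) is zero (`MvPolynomial.funext_set`
with infinite discs, or analyticity). Auxiliary names start with `norm_`. -/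

open MeasureTheory Set Filter Topology
open scoped ContDiff ENNReal ComplexConjugate

noncomputable section

namespace Vale.Agent.P271

section

variable {A : Type} [CommRing A] [Algebra ℂ A] {M : ℕ} (x : Fin M → A)

theorem Vk_zero : Vk x 0 = Submodule.span ℂ {1} := by
  rw [Vk, pow_zero, Submodule.one_eq_span]

theorem norm_one_mem : (1 : A) ∈ Submodule.span ℂ (insert 1 (range x)) :=
  Submodule.subset_span (mem_insert _ _)

theorem Vk_mono : Monotone (Vk x) := by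
  refine monotone_nat_of_le_succ fun k a ha => ?_
  have := Submodule.mul_mem_mul ha (norm_one_mem x)
  rwa [mul_one, Vk, ← pow_succ] at this

theorem mul_mem_Vk {k k' : ℕ} {a b : A} (ha : a ∈ Vk x k) (hb : b ∈ Vk x k') :
    a * b ∈ Vk x (k + k') := by
  rw [Vk, pow_add]
  exact Submodule.mul_mem_mul ha hb

theorem one_mem_Vk (k : ℕ) : (1 : A) ∈ Vk x k := by
  refine Vk_mono x (Nat.zero_le k) ?_
  rw [Vk_zero]
  exact Submodule.subset_span rfl

theorem x_mem_Vk (i : Fin M) : x i ∈ Vk x 1 := by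
  rw [Vk, pow_one]
  exact Submodule.subset_span (mem_insert_of_mem _ (mem_range_self i))

instance finite_Vk (k : ℕ) : FiniteDimensional ℂ (Vk x k) :=
  Module.Finite.iff_fg.2
    ((Submodule.fg_span ((finite_range x).insert 1)).pow k)

theorem norm_pow_mem (i : Fin M) (k : ℕ) : x i ^ k ∈ Vk x k := by
  induction k with
  | zero => rw [pow_zero]; exact one_mem_Vk x 0
  | succ k ih => rw [pow_succ]; exact mul_mem_Vk x ih (x_mem_Vk x i)

theorem norm_prod_mem {ι : Type} (s : Finset ι) (τ : ι → Fin M) (e : ι → ℕ) :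
    ∏ j ∈ s, x (τ j) ^ e j ∈ Vk x (∑ j ∈ s, e j) := by
  classical
  induction s using Finset.induction_on with
  | empty => rw [Finset.prod_empty]; exact one_mem_Vk x _
  | insert j s hj ih =>
    rw [Finset.prod_insert hj, Finset.sum_insert hj]
    exact mul_mem_Vk x (norm_pow_mem x _ _) ih

theorem aeval_mem_Vk {d k : ℕ} (τ : Fin d → Fin M) {P : MvPolynomial (Fin d) ℂ}
    (hP : P.totalDegree ≤ k) : MvPolynomial.aeval (x ∘ τ) P ∈ Vk x k := by
  rw [P.as_sum, map_sum]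
  refine Submodule.sum_mem _ fun s hs => ?_
  rw [MvPolynomial.aeval_monomial, ← Algebra.smul_def]
  refine Submodule.smul_mem _ _ (Vk_mono x ((MvPolynomial.le_totalDegree hs).trans hP) ?_)
  exact norm_prod_mem x s.support τ s

theorem exists_mem_Vk (gen : Algebra.adjoin ℂ (range x) = ⊤) (a : A) : ∃ k, a ∈ Vk x k := by
  have ha : a ∈ (MvPolynomial.aeval x : MvPolynomial (Fin M) ℂ →ₐ[ℂ] A).range := by
    rw [MvPolynomial.aeval_range, gen]
    exact Algebra.mem_top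
  obtain ⟨P, rfl⟩ := ha
  exact ⟨P.totalDegree, aeval_mem_Vk x id le_rfl⟩

theorem norm_sqrt_ge (φ : A →ₐ[ℂ] ℂ) : 1 ≤ √(1 + ∑ i, ‖φ (x i)‖ ^ 2) :=
  Real.one_le_sqrt.2 (le_add_of_nonneg_right (Finset.sum_nonneg fun _ _ => sq_nonneg _))

theorem norm_base {a : A} (ha : a ∈ Submodule.span ℂ (insert 1 (range x))) :
    ∃ C : ℝ, 0 ≤ C ∧ ∀ φ : A →ₐ[ℂ] ℂ, ‖φ a‖ ≤ C * √(1 + ∑ i, ‖φ (x i)‖ ^ 2) := by
  induction ha using Submodule.span_induction with
  | mem a ha =>
    refine ⟨1, zero_le_one, fun φ => ?_⟩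
    rw [one_mul]
    rcases ha with rfl | ⟨i, rfl⟩
    · rw [map_one, norm_one]
      exact norm_sqrt_ge x φ
    · refine Real.le_sqrt_of_sq_le ?_
      have := Finset.single_le_sum (f := fun i => ‖φ (x i)‖ ^ 2) (fun _ _ => sq_nonneg _)
        (Finset.mem_univ i)
      linarith
  | zero => exact ⟨0, le_rfl, fun φ => by simp⟩
  | add a b _ _ ha hb =>
    obtain ⟨C, hC, h⟩ := ha
    obtain ⟨C', hC', h'⟩ := hb
    refine ⟨C + C', add_nonneg hC hC', fun φ => ?_⟩
    rw [map_add, add_mul]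
    exact (norm_add_le _ _).trans (add_le_add (h φ) (h' φ))
  | smul c a _ ha =>
    obtain ⟨C, hC, h⟩ := ha
    refine ⟨‖c‖ * C, mul_nonneg (norm_nonneg _) hC, fun φ => ?_⟩
    rw [map_smul, norm_smul, mul_assoc]
    exact mul_le_mul_of_nonneg_left (h φ) (norm_nonneg _)

theorem norm_aux {k : ℕ} {a : A} (ha : a ∈ Submodule.span ℂ (insert 1 (range x)) ^ k) :
    ∃ C : ℝ, 0 ≤ C ∧ ∀ φ : A →ₐ[ℂ] ℂ, ‖φ a‖ ≤ C * √(1 + ∑ i, ‖φ (x i)‖ ^ 2) ^ k := by
  induction ha using Submodule.pow_induction_on_left' with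
  | algebraMap r => exact ⟨‖r‖, norm_nonneg _, fun φ => by simp⟩
  | add a b i _ _ ha hb =>
    obtain ⟨C, hC, h⟩ := ha
    obtain ⟨C', hC', h'⟩ := hb
    refine ⟨C + C', add_nonneg hC hC', fun φ => ?_⟩
    rw [map_add, add_mul]
    exact (norm_add_le _ _).trans (add_le_add (h φ) (h' φ))
  | mem_mul m hm i a _ ha =>
    obtain ⟨C, hC, h⟩ := ha
    obtain ⟨C', hC', h'⟩ := norm_base x hm
    refine ⟨C' * C, mul_nonneg hC' hC, fun φ => ?_⟩
    rw [map_mul, norm_mul, pow_succ', mul_mul_mul_comm]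
    exact mul_le_mul (h' φ) (h φ) (norm_nonneg _) (mul_nonneg hC' (Real.sqrt_nonneg _))

theorem norm_le_of_mem_Vk {k : ℕ} {a : A} (ha : a ∈ Vk x k) :
    ∃ C : ℝ, 0 < C ∧ ∀ φ : A →ₐ[ℂ] ℂ, ‖φ a‖ ^ 2 ≤ C * (1 + ∑ i, ‖φ (x i)‖ ^ 2) ^ k := by
  obtain ⟨C, hC, h⟩ := norm_aux x ha
  refine ⟨C ^ 2 + 1, by positivity, fun φ => ?_⟩
  have h0 : 0 ≤ 1 + ∑ i, ‖φ (x i)‖ ^ 2 := by positivity
  have h1 := pow_le_pow_left₀ (norm_nonneg _) (h φ) 2
  rw [mul_pow, ← pow_mul, mul_comm k 2, pow_mul, Real.sq_sqrt h0] at h1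
  exact h1.trans (mul_le_mul_of_nonneg_right (by linarith) (pow_nonneg h0 k))

end

theorem exists_norm {A : Type} [CommRing A] [IsDomain A] [Algebra ℂ A] {d : ℕ} {y : Fin d → A}
    (hy : IsTranscendenceBasis ℂ y) {b : A} (hb : b ≠ 0) :
    ∃ q : MvPolynomial (Fin d) ℂ, q ≠ 0 ∧ b ∣ MvPolynomial.aeval y q := by
  obtain ⟨r, hr, h⟩ := (hy.isAlgebraic.isAlgebraic b).exists_nonzero_dvd
    (mem_nonZeroDivisors_of_ne_zero hb)
  have hm : (r : A) ∈ (MvPolynomial.aeval y : MvPolynomial (Fin d) ℂ →ₐ[ℂ] A).range := by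
    rw [MvPolynomial.aeval_range]
    exact r.2
  obtain ⟨q, hq⟩ := hm
  have hq' : MvPolynomial.aeval y q = (r : A) := hq
  refine ⟨q, fun h0 => hr (Subtype.ext ?_), hq' ▸ h⟩
  rw [← hq', h0, map_zero]
  rfl

variable {n M : ℕ} {A Ω : Type} [CommRing A] [IsDomain A] [Algebra ℂ A] [TopologicalSpace Ω]
  [T2Space Ω] [SecondCountableTopology Ω] [MeasurableSpace Ω] [BorelSpace Ω] (X : Aff n M A Ω)

include X in
theorem Aff.noeth : IsNoetherianRing A := by
  have : Algebra.FiniteType ℂ A := ⟨⟨(finite_range X.x).toFinset, by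
    rw [Finite.coe_toFinset]; exact X.gen⟩⟩
  exact Algebra.FiniteType.isNoetherianRing ℂ A

theorem Aff.ev_inj : Function.Injective X.ev := fun z w h =>
  X.emb.injective (funext fun i => by simp only [h])

theorem Aff.continuous_ev (a : A) : Continuous fun z => X.ev z a :=
  continuous_iff_continuousAt.2 fun z => (X.hol a z).smAt.continuousAt

theorem Aff.ev_aeval (z : Ω) (P : MvPolynomial (Fin n) ℂ) :
    X.ev z (MvPolynomial.aeval (X.x ∘ X.σ) P) = MvPolynomial.eval (X.π z) P := by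
  have e : (fun j => X.ev z ((X.x ∘ X.σ) j)) = X.π z := funext fun j => (X.π_eq z j).symm
  rw [← AlgHom.comp_apply, MvPolynomial.comp_aeval, e, MvPolynomial.aeval_eq_eval]

theorem Aff.tendsto_of_ev {z : ℕ → Ω} {z₀ : Ω}
    (h : ∀ a, Tendsto (fun l => X.ev (z l) a) atTop (𝓝 (X.ev z₀ a))) : Tendsto z atTop (𝓝 z₀) :=
  X.emb.tendsto_nhds_iff.2 (tendsto_pi_nhds.2 fun i => h (X.x i))

theorem norm_poly_zero {d : ℕ} {q : MvPolynomial (Fin d) ℂ} {y : Fin d → ℂ}
    (h : ∀ᶠ w in 𝓝 y, MvPolynomial.eval w q = 0) : q = 0 := by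
  obtain ⟨ε, hε, hb⟩ := Metric.eventually_nhds_iff_ball.1 h
  refine MvPolynomial.funext_set (fun i => Metric.ball (y i) ε)
    (fun i => infinite_of_mem_nhds (y i) (Metric.ball_mem_nhds _ hε)) fun w hw => ?_
  rw [map_zero]
  exact hb w (by rwa [ball_pi _ hε])

theorem Aff.dense_ne {b : A} (hb : b ≠ 0) : Dense {z | X.ev z b ≠ 0} := by
  obtain ⟨q, hq, c, hc⟩ := exists_norm X.tb hb
  intro z
  by_contra hz
  rw [mem_closure_iff_frequently, not_frequently] at hz
  refine hq (norm_poly_zero (y := X.π z) ?_)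
  rw [← EtDom.map_π_nhds, eventually_map]
  filter_upwards [hz] with w hw
  have hw' : X.ev w b = 0 := not_not.1 hw
  rw [← X.ev_aeval, hc, map_mul, hw', zero_mul]

end Vale.Agent.P271
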