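import Vale.Agent.P271.A.Norm
import Vale.Agent.P271.H.Psh

/-! P271 A/Stein: the open set `h ≠ 0` is Stein.

Plan. `ρ = log (1 + ∑ |x i| ^ 2 + |h⁻¹| ^ 2)` (`psh_log_sq` with index `Option (Fin M)`). The image of
`{ρ ≤ τ}` under the embedding `X.emb` is bounded and closed: it is the set of `v` killed by the
kernel of `aeval x` (such `v` give algebra maps `A → ℂ` since `aeval x` is onto) with
`(1 + ∑ |v i| ^ 2) |H v| ^ 2 + 1 ≤ exp τ * |H v| ^ 2`, where `aeval x H = h`. Use
`IsEmbedding.isCompact_iff`. Auxiliary names start with `stein_`. -/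

open MeasureTheory Set Filter Topology
open scoped ContDiff ENNReal ComplexConjugate

noncomputable section

namespace Vale.Agent.P271

variable {n M : ℕ} {A Ω : Type} [CommRing A] [IsDomain A] [Algebra ℂ A] [TopologicalSpace Ω]
  [T2Space Ω] [SecondCountableTopology Ω] [MeasurableSpace Ω] [BorelSpace Ω] (X : Aff n M A Ω)

theorem stein_ball {ι : Type} [Fintype ι] (τ : ℝ) :
    IsCompact {v : ι → ℂ | Real.log (1 + ∑ i, ‖v i‖ ^ 2) ≤ τ} := by
  have h0 : ∀ v : ι → ℂ, 0 < 1 + ∑ i, ‖v i‖ ^ 2 := fun v => by positivity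
  refine Metric.isCompact_of_isClosed_isBounded (isClosed_le (Continuous.log (by fun_prop)
    fun v => (h0 v).ne') continuous_const) ((Metric.isBounded_closedBall (x := 0)
      (r := Real.exp τ)).subset fun v hv => ?_)
  rw [mem_closedBall_zero_iff, pi_norm_le_iff_of_nonneg (Real.exp_pos τ).le]
  intro i
  have h1 := (Real.log_le_iff_le_exp (h0 v)).1 hv
  have h2 : ‖v i‖ ^ 2 ≤ ∑ i, ‖v i‖ ^ 2 :=
    Finset.single_le_sum (f := fun i => ‖v i‖ ^ 2) (fun i _ => sq_nonneg _) (Finset.mem_univ i)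
  nlinarith [sq_nonneg (‖v i‖ - 1)]

theorem Aff.stein_emb : IsClosedEmbedding fun (z : Ω) (o : Option (Fin M)) =>
    o.elim (X.ev z X.h)⁻¹ fun i => X.ev z (X.x i) := by
  have hs : Function.Surjective (MvPolynomial.aeval X.x : MvPolynomial (Fin M) ℂ →ₐ[ℂ] A) := by
    rw [← AlgHom.range_eq_top, ← Algebra.adjoin_range_eq_range_aeval, X.gen]
  obtain ⟨H, hH⟩ := hs X.h
  have he : ∀ (φ : A →ₐ[ℂ] ℂ) (P : MvPolynomial (Fin M) ℂ),
      MvPolynomial.eval (fun i => φ (X.x i)) P = φ (MvPolynomial.aeval X.x P) := fun φ P =>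
    (MvPolynomial.comp_aeval_apply X.x φ P).symm
  refine ⟨IsEmbedding.of_comp (g := fun (v : Option (Fin M) → ℂ) i => v (some i))
    (continuous_pi fun o => ?_) (by fun_prop) X.emb, ?_⟩
  · cases o
    · exact (X.continuous_ev _).inv₀ X.ev_h
    · exact X.continuous_ev _
  have hc : ∀ P : MvPolynomial (Fin M) ℂ,
      Continuous fun v : Option (Fin M) → ℂ => MvPolynomial.eval (fun i => v (some i)) P :=
    fun P => (MvPolynomial.continuous_eval P).comp (by fun_prop)
  have e : range (fun (z : Ω) (o : Option (Fin M)) =>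
      o.elim (X.ev z X.h)⁻¹ fun i => X.ev z (X.x i)) =
      (⋂ P ∈ {P | MvPolynomial.aeval X.x P = 0},
        {v | MvPolynomial.eval (fun i => v (some i)) P = 0}) ∩
      {v | MvPolynomial.eval (fun i => v (some i)) H * v none = 1} := by
    ext v
    simp only [mem_inter_iff, mem_iInter, mem_ofPred_eq]
    constructor
    · rintro ⟨z, rfl⟩
      exact ⟨fun P hP => (he _ P).trans (by rw [hP, map_zero]),
        (congrArg (· * _) ((he _ H).trans (by rw [hH]))).trans (mul_inv_cancel₀ (X.ev_h z))⟩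
    · rintro ⟨h1, h2⟩
      let φ := AlgHom.liftOfSurjective _ hs (MvPolynomial.aeval fun i => v (some i)) h1
      have h3 : ∀ P, φ (MvPolynomial.aeval X.x P) = MvPolynomial.eval (fun i => v (some i)) P :=
        fun P => AlgHom.liftOfSurjective_apply _ _ _ _ P
      rw [← h3, hH] at h2
      obtain ⟨z, hz⟩ := X.surj φ (left_ne_zero_of_mul_eq_one h2)
      refine ⟨z, funext fun o => ?_⟩
      cases o with
      | none => simpa [hz] using inv_eq_of_mul_eq_one_right h2
      | some i => simpa [hz] using h3 (MvPolynomial.X i)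
  rw [e]
  exact (isClosed_biInter fun P _ => isClosed_eq (hc P) continuous_const).inter
    (isClosed_eq ((hc H).mul (continuous_apply none)) continuous_const)

theorem Aff.stein_univ : X.toEtDom.Stein univ := by
  obtain ⟨s, hs, hc⟩ : ∃ s : Option (Fin M) → Ω → ℂ, (∀ o z, X.toEtDom.HolAt (s o) z) ∧
      IsClosedEmbedding fun z o => s o z := by
    refine ⟨fun o z => o.elim (X.ev z X.h)⁻¹ fun i => X.ev z (X.x i), fun o z => ?_, X.stein_emb⟩
    cases o with
    | none => exact (X.hol X.h z).inv (X.ev_h z)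
    | some i => exact X.hol (X.x i) z
  refine ⟨isOpen_univ, fun z => Real.log (1 + ∑ o, ‖s o z‖ ^ 2), fun z _ =>
    EtDom.psh_log_sq (fun o => hs o z) one_pos, fun τ => ?_⟩
  have h1 := hc.isCompact_preimage (stein_ball τ)
  rw [preimage_ofPred_eq] at h1
  simpa only [mem_univ, true_and] using h1

end Vale.Agent.P271
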