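import Vale.Agent.P271.Defs

/-! P271 A/VBa: power series expansion at a general point. Auxiliary names start with `vba_`.

`S = MvPolynomial (Fin d) ℂ` acts on `B` by `aeval y`. `FractionRing B` is formally etale over `S`
(localisation, then `FormallyEtale.of_isSeparable`), so `exists_etale_of_isEtaleAt` gives `b ≠ 0` with
`O = Localization.Away b` etale over `S`. Let `S` act on power series by `X j ↦ X j + C (φ (y j))`;
`FormallySmooth.exists_mkₐ_comp_eq_of_isAdicComplete` lifts `φ`. With `m = ker φ`, `Y` the ideal of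
the `y j - φ (y j)`: the maps `u ↦ u` and `u ↦ φ u` to `O ⧸ (Y + m ^ 2)` agree modulo a square zero ideal,
so `m ≤ Y + m ^ 2` (unramified) and `t * m ≤ Y` (Nakayama). Every `u` is a polynomial in the
`y j - φ (y j)` modulo `m ^ n`, and `Φ (m ^ n)` has order at least `n`. -/

open MeasureTheory Set Filter Topology
open scoped ContDiff ENNReal ComplexConjugate

noncomputable section

namespace Vale.Agent.P271

theorem vba_etale (S B : Type) [CommRing S] [IsDomain S] [CharZero S] [IsNoetherianRing S]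
    [CommRing B] [IsDomain B] [Algebra S B] [FaithfulSMul S B] [Algebra.IsAlgebraic S B]
    [Algebra.FiniteType S B] : ∃ b : B, b ≠ 0 ∧ Algebra.FormallyEtale S (Localization.Away b) := by
  let _ : Algebra (FractionRing S) (FractionRing B) := FractionRing.liftAlgebra S _
  have := FractionRing.isScalarTower_liftAlgebra S (FractionRing B)
  have h1 : Algebra.IsAlgebraic (FractionRing S) (FractionRing B) :=
    (IsFractionRing.comap_isAlgebraic_iff (A := S)).1
      ((IsFractionRing.isAlgebraic_iff' S B _).1 inferInstance)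
  have h2 : Algebra.FormallyEtale S (FractionRing S) :=
    Algebra.FormallyEtale.of_isLocalization (nonZeroDivisors S)
  have h3 : Algebra.FormallyEtale (FractionRing S) (FractionRing B) :=
    Algebra.FormallyEtale.of_isSeparable _ _
  have h4 : Algebra.FormallyEtale S (FractionRing B) :=
    Algebra.FormallyEtale.comp S (FractionRing S) _
  have h5 : IsLocalization (⊥ : Ideal B).primeCompl (FractionRing B) := by
    rw [Ideal.primeCompl_bot]
    infer_instance
  have h6 : Algebra.IsEtaleAt S (⊥ : Ideal B) := Algebra.FormallyEtale.of_equiv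
    ((IsLocalization.algEquiv (⊥ : Ideal B).primeCompl (FractionRing B)
      (Localization.AtPrime (⊥ : Ideal B))).restrictScalars S)
  have h7 : Algebra.FinitePresentation S B := Algebra.FinitePresentation.of_finiteType.1 inferInstance
  obtain ⟨b, hb, h⟩ := Algebra.exists_etale_of_isEtaleAt (R := S) (⊥ : Ideal B)
  exact ⟨b, hb, inferInstance⟩

theorem vba_lift {S O P : Type} [CommRing S] [CommRing O] [CommRing P] [Algebra S O]
    [Algebra.FormallySmooth S O] (σ : S →+* P) (I : Ideal P) [IsAdicComplete I P] (f : O →+* P ⧸ I)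
    (h : ∀ a, f (algebraMap S O a) = Ideal.Quotient.mk I (σ a)) :
    ∃ g : O →+* P, (∀ a, g (algebraMap S O a) = σ a) ∧ ∀ x, Ideal.Quotient.mk I (g x) = f x := by
  let _ := σ.toAlgebra
  obtain ⟨g, hg⟩ := Algebra.FormallySmooth.exists_mkₐ_comp_eq_of_isAdicComplete (R := S)
    (I := I) { f with commutes' := h }
  exact ⟨g, g.commutes, fun x => congr($hg x)⟩

theorem vba_unr {S O Q : Type} [CommRing S] [CommRing O] [CommRing Q] [Algebra S O]
    [Algebra.FormallyUnramified S O] (I : Ideal Q) (hI : IsNilpotent I) (f g : O →+* Q)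
    (h : f.comp (algebraMap S O) = g.comp (algebraMap S O))
    (h' : (Ideal.Quotient.mk I).comp f = (Ideal.Quotient.mk I).comp g) : f = g := by
  let _ := (f.comp (algebraMap S O)).toAlgebra
  have := Algebra.FormallyUnramified.ext (R := S) I hI (g₁ := { f with commutes' := fun _ => rfl })
    (g₂ := { g with commutes' := fun a => congr($h.symm a) }) fun x => congr($h' x)
  exact RingHom.ext fun x => congr($this x)

theorem vba_sq {B : Type} [CommRing B] [Algebra ℂ B] {d : ℕ} {y : Fin d → B} {b : B}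
    [Algebra (MvPolynomial (Fin d) ℂ) B]
    (hy : algebraMap (MvPolynomial (Fin d) ℂ) B = (MvPolynomial.aeval y).toRingHom)
    [Algebra.FormallyUnramified (MvPolynomial (Fin d) ℂ) (Localization.Away b)] (φ : B →ₐ[ℂ] ℂ)
    (hb : φ b ≠ 0) : RingHom.ker φ ≤
      Ideal.span (range fun j => y j - algebraMap ℂ B (φ (y j))) ⊔ RingHom.ker φ * RingHom.ker φ := by
  set I := Ideal.span (range fun j => y j - algebraMap ℂ B (φ (y j))) ⊔ RingHom.ker φ * RingHom.ker φ
  have h0 : ∀ u, u - algebraMap ℂ B (φ u) ∈ RingHom.ker φ := fun u => by simp [RingHom.mem_ker]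
  have h1 : IsNilpotent ((RingHom.ker φ).map (Ideal.Quotient.mk I)) := ⟨2, by
    rw [← Ideal.map_pow, sq]
    exact Ideal.map_mk_eq_bot_of_le le_sup_right⟩
  have h2 : IsUnit (Ideal.Quotient.mk I b) := by
    have h3 : IsNilpotent (Ideal.Quotient.mk I (b - algebraMap ℂ B (φ b))) := ⟨2, by
      rw [← map_pow, sq, Ideal.Quotient.eq_zero_iff_mem]
      exact Ideal.mem_sup_right (Ideal.mul_mem_mul (h0 b) (h0 b))⟩
    have h4 := h3.isUnit_add_left_of_commute
      (((IsUnit.mk0 _ hb).map (algebraMap ℂ B)).map (Ideal.Quotient.mk I)) (Commute.all _ _)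
    rwa [← map_add, add_sub_cancel] at h4
  let g : B →+* B ⧸ I := (algebraMap ℂ (B ⧸ I)).comp φ
  have h3 : IsUnit (g b) := (IsUnit.mk0 _ hb).map (algebraMap ℂ (B ⧸ I))
  have h4 := vba_unr (S := MvPolynomial (Fin d) ℂ) (O := Localization.Away b) _ h1
    (IsLocalization.Away.lift b h2) (IsLocalization.Away.lift b h3) (by
      rw [IsScalarTower.algebraMap_eq _ B (Localization.Away b), ← RingHom.comp_assoc,
        ← RingHom.comp_assoc, IsLocalization.Away.lift_comp, IsLocalization.Away.lift_comp, hy]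
      refine MvPolynomial.ringHom_ext (fun a => by simp [g]) fun j => ?_
      have h5 : y j - algebraMap ℂ B (φ (y j)) ∈ I := Ideal.mem_sup_left (Ideal.subset_span ⟨j, rfl⟩)
      simpa [g] using Ideal.Quotient.eq.2 h5) (by
      refine IsLocalization.ringHom_ext (Submonoid.powers b) (RingHom.ext fun u => ?_)
      simp only [RingHom.comp_apply, IsLocalization.Away.lift_eq]
      refine Ideal.Quotient.eq.2 ?_
      exact Ideal.mem_map_of_mem (Ideal.Quotient.mk I) (h0 u))
  intro u hu
  have h5 := congr($h4 (algebraMap B _ u))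
  rw [IsLocalization.Away.lift_eq, IsLocalization.Away.lift_eq] at h5
  rw [← Ideal.Quotient.eq_zero_iff_mem, h5]
  simp [g, show φ u = 0 from hu]

theorem vba_ord {B : Type} [CommRing B] {d : ℕ} {Y : Fin d → B} {m : Ideal B} {r : B}
    (hr : r - 1 ∈ m) (hm : ∀ n, ∀ u ∈ m ^ n, r ^ n * u ∈ Ideal.span (range Y) ^ n)
    (hY : ∀ j, Y j ∈ m) (Φ : B →+* MvPowerSeries (Fin d) ℂ) (h1 : ∀ j, Φ (Y j) = MvPowerSeries.X j)
    (h2 : ∀ u, MvPowerSeries.coeff 0 (Φ u) = 0 → u ∈ m) (u : B) (n : ℕ)
    (h : ∀ α : Fin d →₀ ℕ, α.degree < n → MvPowerSeries.coeff α (Φ u) = 0) : u ∈ m ^ n := by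
  classical
  induction n with
  | zero => simp
  | succ n ih =>
    have h3 := ih fun α hα => h α (by omega)
    obtain ⟨p, hp, e⟩ := (Ideal.mem_span_pow_iff_exists_isHomogeneous Y _).1 (hm n u h3)
    have h4 : ∀ α ∈ p.support, α.degree = n := fun α hα => by
      rw [hp.degree_eq_sum_deg_support hα, Finsupp.degree_apply]
    have h5 : ∀ α ∈ p.support, p.coeff α ∈ m := fun α hα => by
      have h6 : MvPowerSeries.coeff α (Φ (r ^ n * u)) = 0 := by
        rw [map_mul, MvPowerSeries.coeff_mul]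
        refine Finset.sum_eq_zero fun q hq => ?_
        rw [h q.2 ?_, mul_zero]
        rw [← h4 α hα, ← Finset.HasAntidiagonal.mem_antidiagonal.1 hq, map_add]
        omega
      rw [← e, MvPolynomial.eval_eq', map_sum, map_sum, Finset.sum_eq_single α] at h6
      · simp only [map_mul, map_prod, map_pow, h1] at h6
        rw [← Finsupp.prod_pow, ← MvPowerSeries.monomial_one_eq, MvPowerSeries.coeff_mul_monomial,
          if_pos le_rfl, tsub_self, mul_one] at h6
        exact h2 _ h6
      · intro β hβ hne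
        simp only [map_mul, map_prod, map_pow, h1]
        rw [← Finsupp.prod_pow, ← MvPowerSeries.monomial_one_eq, MvPowerSeries.coeff_mul_monomial,
          if_neg]
        intro hle
        obtain ⟨c, rfl⟩ := exists_add_of_le hle
        have h7 := h4 _ hα
        rw [map_add, h4 β hβ, add_eq_left, Finsupp.degree_eq_zero_iff] at h7
        exact hne (by rw [h7, add_zero])
      · exact fun h => absurd hα h
    have h6 : r ^ n * u ∈ m ^ (n + 1) := by
      rw [← e, MvPolynomial.eval_eq']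
      refine sum_mem fun α hα => ?_
      rw [pow_succ', ← h4 α hα, Finsupp.degree_eq_sum, ← Finset.prod_pow_eq_pow_sum]
      exact Ideal.mul_mem_mul (h5 α hα) (Ideal.prod_mem_prod fun j _ => Ideal.pow_mem_pow (hY j) _)
    have h7 : (r ^ n - 1) * u ∈ m ^ (n + 1) := by
      rw [pow_succ']
      exact Ideal.mul_mem_mul (Ideal.mem_of_dvd _ (by simpa using sub_dvd_pow_sub_pow r 1 n) hr) h3
    simpa [sub_mul] using sub_mem h6 h7

theorem vb_point {B : Type} [CommRing B] [IsDomain B] [Algebra ℂ B] [Algebra.FiniteType ℂ B] {d : ℕ}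
    {y : Fin d → B} (hy : IsTranscendenceBasis ℂ y) :
    ∃ b : B, b ≠ 0 ∧ ∀ φ : B →ₐ[ℂ] ℂ, φ b ≠ 0 → ∃ Φ : B →ₐ[ℂ] MvPowerSeries (Fin d) ℂ,
      (∀ j, Φ (y j - algebraMap ℂ B (φ (y j))) = MvPowerSeries.X j) ∧ Function.Injective Φ ∧
      ∀ (u : B) (n : ℕ), (∀ α : Fin d →₀ ℕ, α.degree < n → MvPowerSeries.coeff α (Φ u) = 0) →
        ∃ t, φ t ≠ 0 ∧ t * u ∈ Ideal.span (range fun j => y j - algebraMap ℂ B (φ (y j))) ^ n := by
  let _ : Algebra (MvPolynomial (Fin d) ℂ) B := (MvPolynomial.aeval y).toRingHom.toAlgebra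
  have hy' : algebraMap (MvPolynomial (Fin d) ℂ) B = (MvPolynomial.aeval y).toRingHom := rfl
  have i1 : IsScalarTower ℂ (MvPolynomial (Fin d) ℂ) B :=
    IsScalarTower.of_algebraMap_eq fun a => ((MvPolynomial.aeval y).commutes a).symm
  have i2 : FaithfulSMul (MvPolynomial (Fin d) ℂ) B :=
    (faithfulSMul_iff_algebraMap_injective _ _).2 hy.1
  have i3 : Algebra.IsAlgebraic (MvPolynomial (Fin d) ℂ) B :=
    have := hy.isAlgebraic
    Algebra.IsAlgebraic.of_ringHom_of_comp_eq hy.1.aevalEquiv (RingHom.id B)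
      hy.1.aevalEquiv.surjective Function.injective_id (RingHom.ext fun a => by simp [hy'])
  have i4 : Algebra.FiniteType (MvPolynomial (Fin d) ℂ) B :=
    Algebra.FiniteType.of_restrictScalars_finiteType ℂ _ _
  have i5 : IsNoetherianRing B := Algebra.FiniteType.isNoetherianRing ℂ B
  obtain ⟨b, hb0, hb⟩ := vba_etale (MvPolynomial (Fin d) ℂ) B
  refine ⟨b, hb0, fun φ hφ => ?_⟩
  set I : Ideal (MvPowerSeries (Fin d) ℂ) := Ideal.span (range MvPowerSeries.X)
  let f : B →+* _ ⧸ I := (algebraMap ℂ (_ ⧸ I)).comp φ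
  have h1 : IsUnit (f b) := (IsUnit.mk0 _ hφ).map (algebraMap ℂ (_ ⧸ I))
  let σ : MvPolynomial (Fin d) ℂ →ₐ[ℂ] MvPowerSeries (Fin d) ℂ :=
    MvPolynomial.aeval fun j => MvPowerSeries.X j + algebraMap ℂ _ (φ (y j))
  obtain ⟨g, h2, h3⟩ := vba_lift (S := MvPolynomial (Fin d) ℂ) (O := Localization.Away b)
    σ.toRingHom I (IsLocalization.Away.lift b h1) fun a => by
      rw [IsScalarTower.algebraMap_apply _ B (Localization.Away b), IsLocalization.Away.lift_eq]
      refine congr($(show f.comp (algebraMap _ B) = (Ideal.Quotient.mk I).comp σ.toRingHom from ?_) a)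
      rw [hy']
      refine MvPolynomial.ringHom_ext (fun a => by simp [f, σ]) fun j => ?_
      have h5 : MvPowerSeries.X j ∈ I := Ideal.subset_span ⟨j, rfl⟩
      simp [f, σ, Ideal.Quotient.eq_zero_iff_mem.2 h5]
  have h4 : ∀ p, g (algebraMap B _ (MvPolynomial.aeval y p)) = σ p := h2
  let Φ : B →ₐ[ℂ] MvPowerSeries (Fin d) ℂ :=
    { g.comp (algebraMap B _) with commutes' := fun a => by simpa using h4 (MvPolynomial.C a) }
  have h5 : ∀ j, Φ (y j - algebraMap ℂ B (φ (y j))) = MvPowerSeries.X j := fun j => by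
    have h6 : Φ (y j) = MvPowerSeries.X j + algebraMap ℂ _ (φ (y j)) := by
      simpa [σ, Φ] using h4 (MvPolynomial.X j)
    rw [map_sub, h6, AlgHom.commutes, add_sub_cancel_right]
  have h6 : ∀ u, MvPowerSeries.coeff 0 (Φ u) = 0 → u ∈ RingHom.ker φ := fun u hu => by
    have h7 := h3 (algebraMap B _ u)
    rw [IsLocalization.Away.lift_eq] at h7
    have h8 : I ≤ RingHom.ker MvPowerSeries.constantCoeff :=
      Ideal.span_le.2 (range_subset_iff.2 fun j => by simp)
    have h9 := h8 (Ideal.Quotient.eq.1 (show Ideal.Quotient.mk I (Φ u) =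
      Ideal.Quotient.mk I (algebraMap ℂ _ (φ u)) from h7))
    rw [MvPowerSeries.coeff_zero_eq_constantCoeff_apply] at hu
    simpa [RingHom.mem_ker, hu, MvPowerSeries.algebraMap_apply] using h9
  obtain ⟨r, hr, hr'⟩ := Submodule.exists_sub_one_mem_and_smul_le_of_fg_of_le_sup
    (IsNoetherian.noetherian (RingHom.ker φ)) le_rfl (vba_sq hy' φ hφ)
  have h7 : ∀ n, ∀ u ∈ RingHom.ker φ ^ n,
      r ^ n * u ∈ Ideal.span (range fun j => y j - algebraMap ℂ B (φ (y j))) ^ n := fun n u hu => by
    have h8 := Ideal.pow_right_mono (Ideal.span_singleton_mul_le_iff.2 fun z hz =>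
      hr' (Submodule.smul_mem_pointwise_smul z r _ hz)) n
    rw [mul_pow, Ideal.span_singleton_pow] at h8
    exact h8 (Ideal.mul_mem_mul (Ideal.mem_span_singleton_self _) hu)
  have h8 := vba_ord hr h7 (fun j => by simp [RingHom.mem_ker]) Φ.toRingHom h5 h6
  refine ⟨Φ, h5, (injective_iff_map_eq_zero _).2 fun u hu => ?_, fun u n h =>
    ⟨r ^ n, ?_, h7 n u (h8 u n h)⟩⟩
  · rw [← Ideal.mem_bot, ← Ideal.iInf_pow_eq_bot_of_isDomain _ (RingHom.ker_ne_top φ)]
    exact Ideal.mem_iInf.2 fun n => h8 u n fun α _ => by simp [hu]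
  · have h9 : φ r = 1 := by simpa [RingHom.mem_ker, sub_eq_zero] using hr
    simp [h9]

end Vale.Agent.P271
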