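import Vale.Agent.P271.Defs

/-! P271 A/VBb: coordinates on a torsion free quotient, and leading exponents. Auxiliary names start
with `vbb_`.

`vb_embed`: `N = J ⧸ (J' ⊓ J)` is a finite torsion free module over `A ⧸ 𝔭`
(`Module.IsTorsionBySet.module`); `exists_maximal_linearIndepOn` for a finite generating family gives
`b` with `b • N` inside the span of an independent family; `ρ g` = coordinates of `b • g`.
`vb_leaf`: compare `lam` first; at equal `lam` use the functionals. `vb_values`: induction on the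
dimension, `U' = U ⊓ ker (c (ν u₀))`. `Lead.mul`: `MvPowerSeries.coeff_mul`. -/

open MeasureTheory Set Filter Topology
open scoped ContDiff ENNReal ComplexConjugate

noncomputable section

namespace Vale.Agent.P271

theorem vbb_free {B N : Type} [CommRing B] [IsDomain B] [AddCommGroup N] [Module B N] (v : ℕ → N)
    (n : ℕ) (hv : ⊤ ≤ Submodule.span B (v '' Iio n)) (h0 : ∀ i, n ≤ i → v i = 0) :
    ∃ (b : B) (ρ : N →ₗ[B] ℕ → B), b ≠ 0 ∧ ∀ x, b • x = ∑ i ∈ Finset.range n, ρ x i • v i := by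
  obtain ⟨I, h1, h2⟩ := exists_maximal_linearIndepOn B v
  have h3 : ∀ i, ∃ a : B, a ≠ 0 ∧ a • v i ∈ Submodule.span B (v '' I) := fun i => by
    by_cases h : i ∈ I
    · exact ⟨1, one_ne_zero, by rw [one_smul]; exact Submodule.subset_span ⟨i, h, rfl⟩⟩
    · exact h2 i h
  choose a ha ha' using h3
  have h4 : ∀ x : N, ∃ l ∈ Finsupp.supported B B I,
      Finsupp.linearCombination B v l = (∏ i ∈ Finset.range n, a i) • x := fun x => by
    rw [← Finsupp.mem_span_image_iff_linearCombination]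
    refine Submodule.span_le.2 (fun y hy => ?_ : v '' Iio n ⊆ (Submodule.span B (v '' I)).comap
      (LinearMap.lsmul B N (∏ i ∈ Finset.range n, a i))) (hv Submodule.mem_top)
    obtain ⟨i, hi, rfl⟩ := hy
    obtain ⟨c, hc⟩ := Finset.dvd_prod_of_mem a (Finset.mem_range.2 hi)
    change (∏ i ∈ Finset.range n, a i) • v i ∈ Submodule.span B (v '' I)
    rw [hc, mul_comm, mul_smul]
    exact Submodule.smul_mem _ _ (ha' i)
  choose l hl hl' using h4
  have h5 := linearIndepOn_iffₛ.1 h1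
  refine ⟨∏ i ∈ Finset.range n, a i, ⟨⟨fun x => l x, fun x y => ?_⟩, fun c x => ?_⟩,
    Finset.prod_ne_zero_iff.2 fun i _ => ha i, fun x => ?_⟩
  · rw [h5 _ (hl (x + y)) _ (add_mem (hl x) (hl y)) (by rw [map_add, hl', hl', hl', smul_add])]
    rfl
  · exact congrArg DFunLike.coe (h5 _ (hl (c • x)) _ (Submodule.smul_mem _ c (hl x)) (by
      rw [map_smul, hl', hl', smul_comm]))
  · rw [← hl', Finsupp.linearCombination_apply, Finsupp.sum_of_support_subset _ (s := Finset.range n)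
      (fun i hi => Finset.mem_range.2 (lt_of_not_ge fun h => h1.ne_zero (hl x hi) (h0 i h)))
      (fun i a => a • v i) fun i _ => zero_smul _ _]
    rfl

theorem vb_embed {A : Type} [CommRing A] [IsNoetherianRing A] (𝔭 : Ideal A) [𝔭.IsPrime]
    (J J' : Ideal A) (h1 : ∀ a ∈ 𝔭, ∀ g ∈ J, a * g ∈ J') (h2 : ∀ b ∉ 𝔭, ∀ g, b * g ∈ J' → g ∈ J') :
    ∃ (n : ℕ) (ρ : A → ℕ → A ⧸ 𝔭) (b : A) (m : ℕ → A), b ∉ 𝔭 ∧ (∀ β, m β ∈ J) ∧
      (∀ f ∈ J, ∀ g ∈ J, ρ (f + g) = ρ f + ρ g) ∧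
      (∀ a, ∀ g ∈ J, ρ (a * g) = Ideal.Quotient.mk 𝔭 a • ρ g) ∧ (∀ g ∈ J, ρ g = 0 ↔ g ∈ J') ∧
      ∀ g ∈ J, ∀ r : ℕ → A, (∀ β, Ideal.Quotient.mk 𝔭 (r β) = ρ g β) →
        b * g - ∑ β ∈ Finset.range n, r β * m β ∈ J' := by
  classical
  obtain ⟨n, s, hs⟩ := Module.Finite.exists_fin (R := A) (M := J)
  obtain ⟨m, hm⟩ : ∃ m : ℕ → J, m = fun i => if h : i < n then s ⟨i, h⟩ else 0 := ⟨_, rfl⟩
  let π := (Submodule.comap J.subtype J').mkQ
  have hπ : ∀ g : J, π g = 0 ↔ (g : A) ∈ J' := fun g => Submodule.Quotient.mk_eq_zero _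
  have ht : Module.IsTorsionBySet A (J ⧸ Submodule.comap J.subtype J') 𝔭 := by
    rintro x ⟨a, ha⟩
    obtain ⟨g, rfl⟩ := Submodule.mkQ_surjective _ x
    exact (map_smul π a g).symm.trans ((hπ _).2 (h1 a ha g g.2))
  let _ := ht.module
  have hs' : ∀ (a : A) (x : J ⧸ Submodule.comap J.subtype J'),
      Ideal.Quotient.mk 𝔭 a • x = a • x := ht.mk_smul
  obtain ⟨b, ρ, hb, h3⟩ := vbb_free (B := A ⧸ 𝔭) (fun i => π (m i)) n (fun x _ => by
    obtain ⟨g, rfl⟩ := Submodule.mkQ_surjective _ x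
    have hg : g ∈ Submodule.span A (range s) := hs ▸ Submodule.mem_top
    induction hg using Submodule.span_induction with
    | mem _ h =>
      obtain ⟨i, rfl⟩ := h
      exact Submodule.subset_span ⟨i, i.2, by simp [hm, π]⟩
    | zero => exact zero_mem _
    | add _ _ _ _ h h' => exact add_mem (h trivial) (h' trivial)
    | smul a g _ h =>
      rw [map_smul, ← hs']
      exact Submodule.smul_mem _ _ (h trivial)) fun i hi => by simp [hm, hi.not_gt]
  obtain ⟨b, rfl⟩ := Ideal.Quotient.mk_surjective b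
  have hb' : b ∉ 𝔭 := fun h => hb (Ideal.Quotient.eq_zero_iff_mem.2 h)
  refine ⟨n, fun g => if h : g ∈ J then ρ (π ⟨g, h⟩) else 0, b, fun i => m i, hb', fun i => (m i).2,
    fun f hf g hg => ?_, fun a g hg => ?_, fun g hg => ?_, fun g hg r hr => ?_⟩
  · simp only [dif_pos hf, dif_pos hg, dif_pos (add_mem hf hg), ← map_add]
    rfl
  · simp only [dif_pos hg, dif_pos (J.mul_mem_left a hg), ← map_smul, hs']
    rfl
  · simp only [dif_pos hg]
    refine ⟨fun h => h2 b hb' g ((hπ (b • ⟨g, hg⟩)).1 ?_), fun h => by rw [(hπ _).2 h, map_zero]⟩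
    rw [map_smul, ← hs', h3, h]
    simp
  · simp only [dif_pos hg] at hr
    have h4 := (hπ (b • ⟨g, hg⟩ - ∑ i ∈ Finset.range n, r i • m i)).1 (by
      rw [map_sub, map_smul, ← hs', h3, map_sum, sub_eq_zero]
      exact Finset.sum_congr rfl fun i _ => by rw [map_smul, ← hs', hr])
    simpa using h4

theorem vb_leaf {A I : Type} [AddCommGroup A] [Module ℂ A] [LinearOrder I] (W : Submodule ℂ A)
    (J : ℝ → Submodule ℂ A) (lam : A → ℝ) (ν : A → I) (c : ℝ → I → A → ℂ)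
    (hJ : ∀ g ≠ 0, ∀ l, g ∈ J l ↔ l ≤ lam g)
    (add : ∀ l i, ∀ f ∈ J l, ∀ g ∈ J l, c l i (f + g) = c l i f + c l i g)
    (smul : ∀ l i (a : ℂ), ∀ g ∈ J l, c l i (a • g) = a * c l i g)
    (hz : ∀ l i, ∀ g ≠ 0, l < lam g → c l i g = 0)
    (hν : ∀ g ≠ 0, c (lam g) (ν g) g ≠ 0 ∧ ∀ i, c (lam g) i g ≠ 0 → ν g ≤ i) :
    IsLeaf W fun g => toLex (lam g, ν g) := by
  have hg : ∀ g ≠ 0, g ∈ J (lam g) := fun g h0 => (hJ g h0 _).2 le_rfl
  have key : ∀ f ≠ 0, ∀ l i, l ≤ lam f → c l i f ≠ 0 → toLex (lam f, ν f) ≤ toLex (l, i) := by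
    intro f h0 l i h1 h2
    obtain rfl : l = lam f := h1.eq_or_lt.resolve_right fun h => h2 (hz l i f h0 h)
    exact Prod.Lex.toLex_le_toLex.2 (Or.inr ⟨rfl, (hν f h0).2 i h2⟩)
  refine ⟨fun f _ g _ hf hg' h0 => ?_, fun f _ hf a ha => ?_, fun f _ g _ hf hg' h => ?_⟩
  · rw [min_le_iff]
    by_cases h1 : lam f < lam (f + g)
    · exact Or.inl (Prod.Lex.toLex_le_toLex.2 (Or.inl h1))
    by_cases h2 : lam g < lam (f + g)
    · exact Or.inr (Prod.Lex.toLex_le_toLex.2 (Or.inl h2))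
    rw [not_lt] at h1 h2
    have h3 := (hν _ h0).1
    rw [add _ _ f ((hJ f hf _).2 h1) g ((hJ g hg' _).2 h2)] at h3
    by_cases h4 : c (lam (f + g)) (ν (f + g)) f = 0
    · exact Or.inr (key g hg' _ _ h2 fun h => h3 (by rw [h4, h, add_zero]))
    · exact Or.inl (key f hf _ _ h1 h4)
  · have h0 : a • f ≠ 0 := smul_ne_zero ha hf
    have h1 : lam (a • f) = lam f := le_antisymm
      ((hJ f hf _).1 (((J _).smul_mem_iff ha).1 (hg _ h0)))
      ((hJ _ h0 _).1 ((J _).smul_mem a (hg f hf)))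
    have h2 := hν _ h0
    simp only [h1, smul _ _ a f (hg f hf), ne_eq, mul_eq_zero, ha, false_or] at h2
    rw [h1, le_antisymm (h2.2 _ (hν f hf).1) ((hν f hf).2 _ h2.1)]
  · obtain ⟨h1, h2⟩ := Prod.ext_iff.1 (toLex.injective h)
    simp only at h1 h2
    obtain ⟨a, ha⟩ : ∃ a, a = c (lam g) (ν g) f / c (lam g) (ν g) g := ⟨_, rfl⟩
    refine ⟨a, or_iff_not_imp_left.2 fun h0 => ?_⟩
    have h3 : f ∈ J (lam g) := h1 ▸ hg f hf
    have h4 : ∀ i, c (lam g) i (f - a • g) = c (lam g) i f - a * c (lam g) i g := fun i => by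
      rw [sub_eq_add_neg, ← neg_smul, add _ _ f h3 _ ((J _).smul_mem _ (hg g hg')),
        smul _ _ _ g (hg g hg')]
      ring
    have h5 := (hJ _ h0 _).1 (sub_mem h3 ((J _).smul_mem a (hg g hg')))
    rw [h, Prod.Lex.toLex_lt_toLex]
    refine h5.lt_or_eq.imp id fun h6 => ⟨h6, ?_⟩
    have h7 := (hν _ h0).1
    simp only at h6 ⊢
    rw [← h6, h4] at h7
    refine lt_of_le_of_ne ?_ fun h8 => h7 ?_
    · by_cases h9 : c (lam g) (ν (f - a • g)) g = 0
      · rw [h9, mul_zero, sub_zero, ← h1] at h7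
        exact h2 ▸ (hν f hf).2 _ h7
      · exact (hν g hg').2 _ h9
    · rw [← h8, ha, div_mul_cancel₀ _ (hν g hg').1, sub_self]

theorem vb_values {V I : Type} [AddCommGroup V] [Module ℂ V] (U : Submodule ℂ V)
    [FiniteDimensional ℂ U] (c : I → V →ₗ[ℂ] ℂ) (ν : V → I) (h : ∀ u ∈ U, u ≠ 0 → c (ν u) u ≠ 0) :
    ∃ Γ : Finset I, Γ.card = Module.finrank ℂ U ∧ ∀ γ ∈ Γ, ∃ u ∈ U, u ≠ 0 ∧ ν u = γ := by
  classical
  obtain ⟨n, hn⟩ : ∃ n, Module.finrank ℂ U = n := ⟨_, rfl⟩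
  induction n generalizing U with
  | zero => exact ⟨∅, by simp [hn], by simp⟩
  | succ n ih =>
    obtain ⟨u, hu, h0⟩ := Submodule.exists_mem_ne_zero_of_ne_bot (p := U) (by
      rintro rfl
      simp at hn)
    have h1 := ((c (ν u)).comp U.subtype).finrank_range_add_finrank_ker
    have h2 : LinearMap.range ((c (ν u)).comp U.subtype) = ⊤ :=
      (eq_bot_or_eq_top _).resolve_left fun e => h u hu h0 (by
        have h3 : (c (ν u)).comp U.subtype ⟨u, hu⟩ ∈ (⊥ : Submodule ℂ ℂ) := e ▸ ⟨_, rfl⟩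
        simpa using h3)
    rw [h2, finrank_top, Module.finrank_self, hn, ← Submodule.finrank_map_subtype_eq] at h1
    obtain ⟨Γ, h3, h4⟩ := ih _ (fun v hv => h v (Submodule.map_subtype_le _ _ hv))
      (add_left_cancel (h1.trans (add_comm _ _)))
    refine ⟨insert (ν u) Γ, ?_, fun γ hγ => ?_⟩
    · rw [Finset.card_insert_of_notMem, h3, hn, ← h1, add_comm]
      intro hγ
      obtain ⟨_, ⟨v, hv, rfl⟩, h5, h6⟩ := h4 _ hγ
      exact h _ v.2 h5 (h6 ▸ hv)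
    · rcases Finset.mem_insert.1 hγ with rfl | hγ
      · exact ⟨u, hu, h0, rfl⟩
      · obtain ⟨v, hv, h5⟩ := h4 γ hγ
        exact ⟨v, Submodule.map_subtype_le _ _ hv, h5⟩

/-- `(α, β)` is the least index of a nonzero coefficient of the family `F`. -/
def Lead {d : ℕ} (F : ℕ → MvPowerSeries (Fin d) ℂ) (α : Fin d →₀ ℕ) (β : ℕ) : Prop :=
  MvPowerSeries.coeff α (F β) ≠ 0 ∧ ∀ α' β', MvPowerSeries.coeff α' (F β') ≠ 0 →
    toLex (toDegLex α, β) ≤ toLex (toDegLex α', β')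

variable {d : ℕ} {F : ℕ → MvPowerSeries (Fin d) ℂ} {α α' γ : Fin d →₀ ℕ} {β β' : ℕ}

theorem exists_lead (h : F ≠ 0) : ∃ α β, Lead F α β := by
  obtain ⟨β, hβ⟩ := Function.ne_iff.1 h
  obtain ⟨α, hα⟩ := (MvPowerSeries.ext_iff.not.trans not_forall).1 hβ
  obtain ⟨p, hp, h1⟩ := (wellFounded_lt (α := DegLex (Fin d →₀ ℕ) ×ₗ ℕ)).has_min
    {p | MvPowerSeries.coeff (ofDegLex (ofLex p).1) (F (ofLex p).2) ≠ 0}
    ⟨toLex (toDegLex α, β), hα⟩
  exact ⟨_, _, hp, fun α' β' h' => not_lt.1 (h1 (toLex (toDegLex α', β')) h')⟩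

theorem Lead.unique (h : Lead F α β) (h' : Lead F α' β') : α = α' ∧ β = β' :=
  Prod.ext_iff.1 (toLex.injective (le_antisymm (h.2 _ _ h'.1) (h'.2 _ _ h.1)))

theorem Lead.const {H : MvPowerSeries (Fin d) ℂ} (h : Lead (fun _ => H) α β) : β = 0 := by
  simpa [Prod.Lex.toLex_le_toLex] using h.2 α 0 h.1

theorem Lead.mul {H : MvPowerSeries (Fin d) ℂ} (hH : Lead (fun _ => H) γ 0) (h : Lead F α β) :
    Lead (fun i => H * F i) (γ + α) β := by
  classical
  have h1 : ∀ p, MvPowerSeries.coeff p H ≠ 0 → toDegLex γ ≤ toDegLex p := fun p hp =>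
    (Prod.Lex.toLex_le_toLex.1 (hH.2 p 0 hp)).elim le_of_lt fun h => h.1.le
  refine ⟨?_, fun α' β' h' => ?_⟩
  · rw [MvPowerSeries.coeff_mul, Finset.sum_eq_single (γ, α)]
    · exact mul_ne_zero hH.1 h.1
    · intro q hq hne
      by_contra h2
      have h3 := h1 _ (left_ne_zero_of_mul h2)
      have h4 : toDegLex α ≤ toDegLex q.2 :=
        (Prod.Lex.toLex_le_toLex.1 (h.2 _ _ (right_ne_zero_of_mul h2))).elim le_of_lt fun h => h.1.le
      have h5 : toDegLex γ + toDegLex α = toDegLex q.1 + toDegLex q.2 :=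
        (Finset.HasAntidiagonal.mem_antidiagonal.1 hq).symm
      obtain ⟨h6, h7⟩ := (add_eq_add_iff_eq_and_eq h3 h4).1 h5
      exact hne (Prod.ext h6.symm h7.symm)
    · simp
  · rw [MvPowerSeries.coeff_mul] at h'
    obtain ⟨q, hq, h2⟩ := Finset.exists_ne_zero_of_sum_ne_zero h'
    have h3 := h1 _ (left_ne_zero_of_mul h2)
    rw [← Finset.HasAntidiagonal.mem_antidiagonal.1 hq, toDegLex_add, toDegLex_add,
      Prod.Lex.toLex_le_toLex]
    rcases Prod.Lex.toLex_le_toLex.1 (h.2 _ _ (right_ne_zero_of_mul h2)) with h4 | ⟨h4, h5⟩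
    · exact Or.inl (add_lt_add_of_le_of_lt h3 h4)
    · exact (add_le_add h3 h4.le).lt_or_eq.imp id fun h6 => ⟨h6, h5⟩

theorem Lead.deg (h : Lead F α β) (h' : α'.degree < α.degree) (i : ℕ) :
    MvPowerSeries.coeff α' (F i) = 0 := by
  by_contra h1
  have h2 : toDegLex α ≤ toDegLex α' :=
    (Prod.Lex.toLex_le_toLex.1 (h.2 _ _ h1)).elim le_of_lt fun h => h.1.le
  exact h'.not_ge (Finsupp.DegLex.monotone_degree h2)

theorem lead_mono (e : Fin d →₀ ℕ) : Lead (fun _ => ∏ j, MvPowerSeries.X j ^ e j) e 0 := by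
  classical
  rw [← Finsupp.prod_pow, ← MvPowerSeries.monomial_one_eq]
  refine ⟨by simp, fun α β h => ?_⟩
  obtain rfl := MvPowerSeries.eq_of_coeff_monomial_ne_zero h
  exact Prod.Lex.toLex_le_toLex.2 (Or.inr ⟨rfl, Nat.zero_le _⟩)

end Vale.Agent.P271
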