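import Vale.Agent.P271.Defs

/-! P271 A/VBc: the weight filtration. Auxiliary names start with `vbc_`.

`J l = {g | ∃ b ∉ 𝔭, b * g ∈ Jw G w l}`. The weights `∑ m i * w i` below a bound are finitely many, so
for each `l` there is `ε l > 0` with no weight in `(l, l + ε l)` nor in `(l - ε l, l)`. With
`R = 1 + ∑ w i`, `Jw G w (n * R) ≤ 𝔭 ^ n`; Krull in `Localization.AtPrime 𝔭` bounds `{l | g ∈ J l}`;
`lam g` is its supremum, attained, and a weight. The chain `W ⊓ J (n * R)` stabilises at `⊥`, so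
`lam` is bounded on `W`. -/

open MeasureTheory Set Filter Topology
open scoped ContDiff ENNReal ComplexConjugate

noncomputable section

namespace Vale.Agent.P271

section

variable {A ι : Type} [CommRing A] [Fintype ι] (G : ι → A) (w : ι → ℝ)

theorem vb_Jw_anti : Antitone (Jw G w) := fun _ _ h =>
  Ideal.span_mono fun _ ⟨m, hm, e⟩ => ⟨m, h.trans hm, e⟩

theorem vb_Jw_mul {l l' : ℝ} {a b : A} (ha : a ∈ Jw G w l) (hb : b ∈ Jw G w l') :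
    a * b ∈ Jw G w (l + l') := by
  have h := Ideal.mul_mem_mul ha hb
  rw [Jw, Jw, Ideal.span_mul_span'] at h
  refine Ideal.span_mono ?_ h
  rintro _ ⟨_, ⟨m, hm, rfl⟩, _, ⟨m', hm', rfl⟩, rfl⟩
  refine ⟨m + m', ?_, by simp [pow_add, Finset.prod_mul_distrib]⟩
  simpa [add_mul, Finset.sum_add_distrib] using add_le_add hm hm'

theorem vbc_top {l : ℝ} (hl : l ≤ 0) (a : A) : a ∈ Jw G w l := by
  have h : (1 : A) ∈ Jw G w l := Ideal.subset_span ⟨0, by simpa using hl, by simp⟩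
  simpa using Ideal.mul_mem_left _ a h

theorem vbc_gen (i : ι) : G i ∈ Jw G w (w i) := by
  classical
  refine Ideal.subset_span ⟨Pi.single i 1, ?_, ?_⟩
  · rw [Finset.sum_eq_single i (fun j _ h => by simp [h]) (by simp)]
    simp
  · rw [Finset.prod_eq_single i (fun j _ h => by simp [h]) (by simp)]
    simp

theorem vb_Jw_left {κ : Type} [Fintype κ] (Y : κ → A) (σ : κ → ℝ) (l : ℝ) :
    Jw G w l ≤ Jw (Sum.elim G Y) (Sum.elim w σ) l :=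
  Ideal.span_mono fun _ ⟨m, hm, e⟩ => ⟨Sum.elim m 0, by simpa using hm, by simpa using e⟩

theorem vb_Jw_right {κ : Type} [Fintype κ] (Y : κ → A) (σ : ℝ) (n : ℕ) :
    Ideal.span (range Y) ^ n ≤ Jw (Sum.elim G Y) (Sum.elim w fun _ => σ) (σ * n) := by
  induction n with
  | zero => exact fun a _ => vbc_top _ _ (by simp) a
  | succ n ih =>
    rw [pow_succ, Nat.cast_succ, mul_add, mul_one]
    refine Ideal.mul_le.2 fun a ha b hb => vb_Jw_mul _ _ (ih ha) (Ideal.span_le.2 ?_ hb)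
    rintro _ ⟨j, rfl⟩
    exact vbc_gen (Sum.elim G Y) (Sum.elim w fun _ => σ) (Sum.inr j)

theorem vbc_pow {R : ℝ} (hR : 0 < R) (hw : ∀ i, w i ≤ R) (n : ℕ) :
    Jw G w (n * R) ≤ Ideal.span (range G) ^ n := by
  refine Ideal.span_le.2 ?_
  rintro _ ⟨m, hm, rfl⟩
  have h1 : n ≤ ∑ i, m i := by
    have h2 : (n : ℝ) * R ≤ (∑ i, m i : ℕ) * R := by
      rw [Nat.cast_sum, Finset.sum_mul]
      exact hm.trans (Finset.sum_le_sum fun i _ => by gcongr; exact hw i)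
    exact_mod_cast le_of_mul_le_mul_right h2 hR
  refine Ideal.pow_le_pow_right h1 ?_
  rw [← Finset.prod_pow_eq_pow_sum]
  exact Ideal.prod_mem_prod fun i _ => Ideal.pow_mem_pow (Ideal.subset_span (mem_range_self i)) _

theorem vbc_pos {l : ℝ} (hl : 0 < l) : Jw G w l ≤ Ideal.span (range G) := by
  refine Ideal.span_le.2 ?_
  rintro _ ⟨m, hm, rfl⟩
  obtain ⟨i, -, hi⟩ := Finset.exists_ne_zero_of_sum_ne_zero (hl.trans_le hm).ne'
  exact Ideal.mem_of_dvd _ ((dvd_pow_self _ (by simpa using left_ne_zero_of_mul hi)).trans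
    (Finset.dvd_prod_of_mem (fun i => G i ^ m i) (Finset.mem_univ i))) (Ideal.subset_span ⟨i, rfl⟩)

theorem vbc_fin (hw : ∀ i, 0 < w i) (c : ℝ) :
    {s | s ≤ c ∧ ∃ m : ι → ℕ, s = ∑ i, (m i : ℝ) * w i}.Finite := by
  classical
  refine ((finite_Iic fun i => ⌈c / w i⌉₊).image fun m : ι → ℕ => ∑ i, (m i : ℝ) * w i).subset ?_
  rintro _ ⟨h, m, rfl⟩
  refine ⟨m, fun i => ?_, rfl⟩
  have h1 : (m i : ℝ) * w i ≤ c := (Finset.single_le_sum (f := fun i => (m i : ℝ) * w i)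
    (fun j _ => mul_nonneg (Nat.cast_nonneg _) (hw j).le) (Finset.mem_univ i)).trans h
  exact_mod_cast ((le_div_iff₀ (hw i)).2 h1).trans (Nat.le_ceil _)

theorem vbc_eps (hw : ∀ i, 0 < w i) (l : ℝ) : ∃ ε > 0, ∀ m : ι → ℕ,
    l - ε < ∑ i, (m i : ℝ) * w i → ∑ i, (m i : ℝ) * w i < l + ε → ∑ i, (m i : ℝ) * w i = l := by
  obtain ⟨ε, h0, h⟩ := Metric.isOpen_iff.1
    ((vbc_fin w hw (l + 1)).subset (sdiff_subset (t := {l}))).isClosed.isOpen_compl l (by simp)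
  refine ⟨min ε 1, lt_min h0 one_pos, fun m h1 h2 => by_contra fun h3 => h (a := _) ?_ ⟨⟨?_, m, rfl⟩, h3⟩⟩
  · rw [Real.ball_eq_Ioo]
    constructor <;> linarith [min_le_left ε 1]
  · linarith [min_le_right ε 1]

theorem vbc_fg {𝔭 I I' : Ideal A} [𝔭.IsPrime] (hI : I.FG) (h : ∀ g ∈ I, ∃ b ∉ 𝔭, b * g ∈ I') :
    ∃ t ∉ 𝔭, ∀ g ∈ I, t * g ∈ I' := by
  obtain ⟨s, rfl⟩ := hI
  choose! b hb hb' using h
  refine ⟨∏ g ∈ s, b g, 𝔭.primeCompl.prod_mem fun g hg => hb g (Ideal.subset_span hg), fun g hg =>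
    Submodule.span_le.2 (fun x hx => ?_ : (s : Set A) ⊆ Submodule.comap
      (LinearMap.mulLeft A (∏ g ∈ s, b g)) I') hg⟩
  exact Ideal.mem_of_dvd I' (mul_dvd_mul_right (Finset.dvd_prod_of_mem b hx) x)
    (hb' x (Ideal.subset_span hx))

end

theorem vb_weights {A ι : Type} [CommRing A] [IsDomain A] [IsNoetherianRing A] [Algebra ℂ A]
    [Fintype ι] (𝔭 : Ideal A) [𝔭.IsPrime] (G : ι → A) (w : ι → ℝ) (hw : ∀ i, 0 < w i)
    (hG : Ideal.span (range G) = 𝔭) (W : Submodule ℂ A) [FiniteDimensional ℂ W] :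
    ∃ (J : ℝ → Ideal A) (lam : A → ℝ) (ε : ℝ → ℝ) (T : Finset ℝ), (∀ l, Jw G w l ≤ J l) ∧
      (∀ l, ∃ t ∉ 𝔭, ∀ g ∈ J l, t * g ∈ Jw G w l) ∧ (∀ l, ∀ b ∉ 𝔭, ∀ g, b * g ∈ J l → g ∈ J l) ∧
      (∀ g ≠ 0, ∀ l, g ∈ J l ↔ l ≤ lam g) ∧ (∀ l, 0 < ε l) ∧
      (∀ l, ∀ a ∈ 𝔭, ∀ g ∈ J l, a * g ∈ J (l + ε l)) ∧
      (∀ g ≠ 0, ∀ l, l < lam g → l + ε l ≤ lam g) ∧ (∀ g ≠ 0, 0 ≤ lam g) ∧ (∀ g ∉ 𝔭, lam g = 0) ∧
      ∀ g ∈ W, g ≠ 0 → lam g ∈ T := by
  choose ε hε hε' using vbc_eps w hw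
  obtain ⟨J, hJd⟩ : ∃ J : ℝ → Ideal A, J = fun l => ((Jw G w l).map
    (algebraMap A (Localization.AtPrime 𝔭))).comap (algebraMap A (Localization.AtPrime 𝔭)) := ⟨_, rfl⟩
  have hJ : ∀ l g, g ∈ J l ↔ ∃ b ∉ 𝔭, b * g ∈ Jw G w l := fun l g => by
    rw [hJd]
    exact IsLocalization.algebraMap_mem_map_algebraMap_iff 𝔭.primeCompl _ _ _
  have mono : ∀ {l l'}, Jw G w l ≤ Jw G w l' → J l ≤ J l' := fun h =>
    hJd ▸ Ideal.comap_mono (Ideal.map_mono h)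
  have anti : Antitone J := fun _ _ h => mono (vb_Jw_anti G w h)
  have h1 : ∀ l, Jw G w l ≤ J l := fun l => hJd ▸ Ideal.le_comap_map
  have h2 : ∀ {l l'}, l < l' → Jw G w l' ≤ Jw G w (l + ε l) := fun {l l'} h =>
    Ideal.span_mono fun _ ⟨m, hm, e⟩ => ⟨m, not_lt.1 fun h' =>
      (h.trans_le hm).ne' (hε' l m (by linarith [hε l]) h'), e⟩
  have h3 : ∀ l, Jw G w (l - ε l / 2) ≤ Jw G w l := fun l =>
    Ideal.span_mono fun _ ⟨m, hm, e⟩ => ⟨m, not_lt.1 fun h' =>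
      h'.ne (hε' l m (by linarith [hε l]) (by linarith [hε l])), e⟩
  obtain ⟨R, hR, hR'⟩ : ∃ R : ℝ, 0 < R ∧ ∀ i, w i ≤ R :=
    ⟨∑ i, w i + 1, by linarith [Finset.sum_nonneg fun i (_ : i ∈ Finset.univ) => (hw i).le], fun i =>
      by linarith [Finset.single_le_sum (fun i (_ : i ∈ Finset.univ) => (hw i).le) (Finset.mem_univ i)]⟩
  have h4 : ∀ g ≠ 0, ∃ n : ℕ, g ∉ J (n * R) := fun g h0 => by
    by_contra! h
    refine h0 ((IsLocalization.to_map_eq_zero_iff (Localization.AtPrime 𝔭)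
      𝔭.primeCompl_le_nonZeroDivisors).1 ?_)
    rw [← Ideal.mem_bot, ← Ideal.iInf_pow_eq_bot_of_isLocalRing _
      (IsLocalRing.maximalIdeal.isMaximal _).ne_top]
    refine Ideal.mem_iInf.2 fun n => ?_
    rw [← Localization.AtPrime.map_eq_maximalIdeal, ← Ideal.map_pow]
    have h5 := h n
    rw [hJd] at h5
    exact Ideal.map_mono (hG ▸ vbc_pow G w hR hR' n) h5
  have h5 : ∀ g ≠ 0, BddAbove {l | g ∈ J l} := fun g h0 => by
    obtain ⟨n, hn⟩ := h4 g h0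
    exact ⟨n * R, fun l hl => not_lt.1 fun h => hn (anti h.le hl)⟩
  have h6 : ∀ g, g ∈ J 0 := fun g => h1 _ (vbc_top G w le_rfl g)
  have h7 : ∀ g ≠ 0, ∀ l, g ∈ J l ↔ l ≤ sSup {l | g ∈ J l} := fun g h0 l => by
    refine ⟨fun h => le_csSup (h5 g h0) h, fun h => anti h (mono (h3 _) ?_)⟩
    obtain ⟨l', hl', h'⟩ := exists_lt_of_lt_csSup (s := {l | g ∈ J l}) ⟨0, h6 g⟩
      (sub_lt_self _ (half_pos (hε (sSup {l | g ∈ J l}))))
    exact anti h'.le hl'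
  obtain ⟨n, hn⟩ := IsArtinian.monotone_stabilizes (R := ℂ) (M := W)
    ⟨fun n => OrderDual.toDual (((J (n * R)).restrictScalars ℂ).comap W.subtype),
      fun n n' h g hg => anti (by gcongr) hg⟩
  refine ⟨J, fun g => sSup {l | g ∈ J l}, ε, (vbc_fin w hw (n * R)).toFinset, h1,
    fun l => vbc_fg (IsNoetherian.noetherian _) fun g hg => (hJ l g).1 hg, fun l b hb g hg => ?_, h7,
    hε, fun l a ha g hg => ?_, fun g h0 l hl => (h7 g h0 _).1 (mono (h2 hl) ((h7 g h0 _).2 le_rfl)),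
    fun g h0 => (h7 g h0 0).1 (h6 g), fun g hg => ?_, fun g hg h0 => ?_⟩
  · obtain ⟨c, hc, h⟩ := (hJ l _).1 hg
    exact (hJ l g).2 ⟨c * b, 𝔭.primeCompl.mul_mem hc hb, by rwa [mul_assoc]⟩
  · obtain ⟨c, hc, h⟩ := (hJ l _).1 hg
    refine (hJ _ _).2 ⟨c, hc, ?_⟩
    rw [mul_left_comm, mul_comm]
    refine Submodule.span_le.2 (?_ : range G ⊆ Submodule.comap
      (LinearMap.mulLeft A (c * g)) (Jw G w (l + ε l))) (hG ▸ ha : a ∈ Ideal.span (range G))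
    rintro _ ⟨i, rfl⟩
    exact h2 (lt_add_of_pos_right l (hw i)) (vb_Jw_mul G w h (vbc_gen G w i))
  · have h0 : g ≠ 0 := fun e => hg (e ▸ 𝔭.zero_mem)
    refine le_antisymm (not_lt.1 fun h => ?_) ((h7 g h0 0).1 (h6 g))
    obtain ⟨c, hc, h'⟩ := (hJ _ _).1 ((h7 g h0 _).2 le_rfl)
    exact 𝔭.primeCompl.mul_mem hc hg (hG ▸ vbc_pos G w h h')
  · rw [Finite.mem_toFinset]
    refine ⟨not_lt.1 fun h => ?_, by_contra fun h => ?_⟩
    · obtain ⟨k, hk⟩ := h4 g h0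
      have h8 : (⟨g, hg⟩ : W) ∈ ((J (n * R)).restrictScalars ℂ).comap W.subtype := (h7 g h0 _).2 h.le
      have h9 := OrderDual.toDual.injective (hn (n + k) (by omega))
      rw [h9] at h8
      exact hk (anti (by gcongr; omega) h8)
    · have h8 : Jw G w (sSup {l | g ∈ J l}) ≤ Jw G w (sSup {l | g ∈ J l} + ε (sSup {l | g ∈ J l})) :=
        Ideal.span_mono fun _ ⟨m, hm, e⟩ => ⟨m, not_lt.1 fun h' =>
          h ⟨m, (hε' _ m (by linarith [hε (sSup {l | g ∈ J l})]) h').symm⟩, e⟩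
      linarith [(h7 g h0 _).1 (mono h8 ((h7 g h0 _).2 le_rfl)), hε (sSup {l | g ∈ J l})]

end Vale.Agent.P271
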