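import Vale.Agent.P271.A.Norm
import Vale.Agent.P271.A.VBa
import Vale.Agent.P271.A.VBb
import Vale.Agent.P271.A.VBc

/-! P271 A/ValB: the valuation attached to a weighted family generating a prime `𝔭` and a general
point `φ` of `V(𝔭)`. See `notes/P271.md`, part A. -/

open MeasureTheory Set Filter Topology
open scoped ContDiff ENNReal ComplexConjugate

noncomputable section

namespace Vale.Agent.P271

theorem vb_prod_mem {A : Type} [CommRing A] [Algebra ℂ A] {M : ℕ} (x : Fin M → A) {κ : Type}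
    (s : Finset κ) {f : κ → A} (hf : ∀ j, f j ∈ Vk x 1) : ∏ j ∈ s, f j ∈ Vk x s.card := by
  classical
  induction s using Finset.induction_on with
  | empty => simpa using one_mem_Vk x 0
  | insert j s hj ih =>
    rw [Finset.prod_insert hj, Finset.card_insert_of_notMem hj, add_comm]
    exact mul_mem_Vk x (hf j) ih

theorem vb_recon {A ι κ : Type} [CommRing A] [Fintype ι] [Fintype κ] (G : ι → A) (w : ι → ℝ)
    (Y : κ → A) {σ l ε δ : ℝ} (hδ : δ ≤ ε) {j n : ℕ} {g t t' : A} {r m : ℕ → A}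
    (h1 : t' * (g - ∑ β ∈ Finset.range n, r β * m β) ∈ Jw G w (l + ε))
    (h2 : ∀ β, t * m β ∈ Jw G w l) (h3 : ∀ β < n, r β ∈ Ideal.span (range Y) ^ j) :
    t * t' * g ∈ Jw (Sum.elim G Y) (Sum.elim w fun _ => σ) (l + min (σ * j) δ) := by
  have e : t * t' * g = t * (t' * (g - ∑ β ∈ Finset.range n, r β * m β)) +
      t' * ∑ β ∈ Finset.range n, t * m β * r β := by
    rw [mul_sub, mul_sub, Finset.mul_sum, Finset.mul_sum, Finset.mul_sum, ← mul_assoc,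
      Finset.sum_congr rfl fun β _ => (by ring : t * (t' * (r β * m β)) = t' * (t * m β * r β)),
      sub_add_cancel]
  rw [e]
  refine add_mem (Ideal.mul_mem_left _ _ (vb_Jw_anti _ _ ?_ (vb_Jw_left G w Y _ _ h1)))
    (Ideal.mul_mem_left _ _ (sum_mem fun β hβ => vb_Jw_anti _ _ ?_ (vb_Jw_mul _ _
      (vb_Jw_left G w Y _ _ (h2 β)) (vb_Jw_right G w Y σ j (h3 β (Finset.mem_range.1 hβ))))))
  · exact add_le_add le_rfl ((min_le_right _ _).trans hδ)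
  · exact add_le_add le_rfl (min_le_left _ _)

theorem valB {A : Type} [CommRing A] [IsDomain A] [Algebra ℂ A] {M : ℕ} (x : Fin M → A)
    (gen : Algebra.adjoin ℂ (range x) = ⊤) (𝔭 : Ideal A) [𝔭.IsPrime] {ι : Type} [Fintype ι]
    (G : ι → A) (w : ι → ℝ) (hw : ∀ i, 0 < w i) (hG : Ideal.span (range G) = 𝔭) (K : ℕ) {d : ℕ}
    (τ : Fin d → Fin M)
    (hτ : IsTranscendenceBasis ℂ fun j => Ideal.Quotient.mk 𝔭 (x (τ j))) :
    ∃ b ∉ 𝔭, ∃ δ > (0 : ℝ), ∀ φ : A →ₐ[ℂ] ℂ, 𝔭 ≤ RingHom.ker φ → φ b ≠ 0 →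
      ∃ (Λ : Type) (_ : LinearOrder Λ) (ℓ : A → Λ) (wt : Λ → ℝ) (cl : Λ → ℕ)
        (al : Λ → Fin d → ℕ), IsLeaf (Vk x K) ℓ ∧ Monotone wt ∧
        (∀ f ∈ Vk x K, ∀ g ∈ Vk x K, f ≠ 0 → g ≠ 0 → wt (ℓ f) = wt (ℓ g) → cl (ℓ f) = cl (ℓ g) →
          al (ℓ f) = al (ℓ g) → ℓ f = ℓ g) ∧
        (∀ g ∈ Vk x K, g ≠ 0 → 0 ≤ wt (ℓ g) ∧ (g ∉ 𝔭 → wt (ℓ g) = 0) ∧
          (∀ l, g ∈ Jw G w l → l ≤ wt (ℓ g)) ∧
          ∀ σ > (0 : ℝ), (∀ i, σ ≤ w i) → ∃ t, φ t ≠ 0 ∧ t * g ∈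
            Jw (Sum.elim G fun j => x (τ j) - algebraMap ℂ A (φ (x (τ j))))
              (Sum.elim w fun _ => σ) (wt (ℓ g) + min (σ * ∑ j, (al (ℓ g) j : ℝ)) δ)) ∧
        ∀ k', ∃ Γ : Finset (Fin d → ℕ), Γ.card =
          Module.finrank ℂ ((Vk x k').map (Ideal.Quotient.mkₐ ℂ 𝔭).toLinearMap) ∧
          ∀ γ ∈ Γ, ∀ e : Fin d → ℕ, (∀ j, e j ≤ 1) → ∀ k, k + k' + d ≤ K → ∀ g ∈ Vk x k, g ≠ 0 →
            ∃ g' ∈ Vk x (k + k' + d), g' ≠ 0 ∧ wt (ℓ g') = wt (ℓ g) ∧ cl (ℓ g') = cl (ℓ g) ∧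
              al (ℓ g') = al (ℓ g) + γ + e := by
  have hft : Algebra.FiniteType ℂ A := ⟨⟨(finite_range x).toFinset, by simpa using gen⟩⟩
  have hN : IsNoetherianRing A := Algebra.FiniteType.isNoetherianRing ℂ A
  obtain ⟨J, lam, ε, T, j1, j2, j3, j4, j5, j6, j7, j8, j9, j10⟩ := vb_weights 𝔭 G w hw hG (Vk x K)
  choose t ht ht' using j2
  choose n ρ b1 m e1 e2 e3 e4 e5 e6 using fun l => vb_embed 𝔭 (J l) (J (l + ε l)) (j6 l) (j3 _)
  obtain ⟨b3, hb3, hpt⟩ := vb_point hτ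
  obtain ⟨b3, rfl⟩ := Ideal.Quotient.mk_surjective b3
  obtain ⟨δ, hδ, hδ'⟩ : ∃ δ > (0 : ℝ), ∀ l ∈ T, δ ≤ ε l := by
    rcases T.eq_empty_or_nonempty with rfl | h
    · exact ⟨1, one_pos, by simp⟩
    · obtain ⟨l, -, hl⟩ := T.exists_min_image ε h
      exact ⟨ε l, j5 l, hl⟩
  have hp := ‹𝔭.IsPrime›
  refine ⟨b3 * ∏ l ∈ T, (t l * t (l + ε l) * b1 l), ?_, δ, hδ, fun φ hφ hb => ?_⟩
  · exact 𝔭.primeCompl.mul_mem (fun h => hb3 (Ideal.Quotient.eq_zero_iff_mem.2 h))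
      (𝔭.primeCompl.prod_mem fun l _ =>
        𝔭.primeCompl.mul_mem (𝔭.primeCompl.mul_mem (ht _) (ht _)) (e1 l))
  rw [map_mul, map_prod] at hb
  obtain ⟨φ', hφ'⟩ : ∃ φ' : (A ⧸ 𝔭) →ₐ[ℂ] ℂ, ∀ a, φ' (Ideal.Quotient.mk 𝔭 a) = φ a :=
    ⟨Ideal.Quotient.liftₐ 𝔭 φ fun a ha => hφ ha, fun _ => rfl⟩
  obtain ⟨Φ, f1, f2, f3⟩ := hpt φ' (hφ' b3 ▸ left_ne_zero_of_mul hb)
  obtain ⟨Y, hY⟩ : ∃ Y : Fin d → A, Y = fun j => x (τ j) - algebraMap ℂ A (φ (x (τ j))) := ⟨_, rfl⟩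
  have hY' : (fun j => Ideal.Quotient.mk 𝔭 (x (τ j)) -
      algebraMap ℂ (A ⧸ 𝔭) (φ' (Ideal.Quotient.mk 𝔭 (x (τ j))))) = Ideal.Quotient.mk 𝔭 ∘ Y := by
    funext j
    rw [hY, hφ']
    rfl
  have f1' : ∀ j, Φ (Ideal.Quotient.mk 𝔭 (Y j)) = MvPowerSeries.X j := fun j =>
    (congrArg Φ (congrFun hY' j).symm).trans (f1 j)
  rw [hY', range_comp, ← Ideal.map_span] at f3
  have hg : ∀ g ≠ 0, g ∈ J (lam g) := fun g h0 => (j4 g h0 _).2 le_rfl
  have hF : ∀ g : A, ∃ α β, g ≠ 0 → Lead (fun i => Φ (ρ (lam g) g i)) α β := fun g => by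
    by_cases h0 : g = 0
    · exact ⟨0, 0, fun h => absurd h0 h⟩
    · obtain ⟨α, β, h⟩ := exists_lead (F := fun i => Φ (ρ (lam g) g i)) fun h => by
        have h1 : ρ (lam g) g = 0 := funext fun i => f2 ((congrFun h i).trans (map_zero Φ).symm)
        have h2 := (j4 g h0 _).1 ((e5 _ g (hg g h0)).1 h1)
        linarith [j5 (lam g)]
      exact ⟨α, β, fun _ => h⟩
  choose α β hL using hF
  refine ⟨ℝ ×ₗ DegLex (Fin d →₀ ℕ) ×ₗ ℕ, inferInstance,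
    fun g => toLex (lam g, toLex (toDegLex (α g), β g)), fun p => (ofLex p).1,
    fun p => (ofLex (ofLex p).2).2, fun p j => ofDegLex (ofLex (ofLex p).2).1 j, ?_, ?_, ?_, ?_, ?_⟩
  · refine vb_leaf _ (fun l => (J l).restrictScalars ℂ) lam _
      (fun l i g => MvPowerSeries.coeff (ofDegLex (ofLex i).1) (Φ (ρ l g (ofLex i).2))) j4
      (fun l i f hf g hg => ?_) (fun l i a g hg => ?_) (fun l i g h0 hl => ?_)
      fun g h0 => ⟨(hL g h0).1, fun i hi => (hL g h0).2 _ _ hi⟩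
    · rw [e3 l f hf g hg, Pi.add_apply, map_add, map_add]
    · rw [Algebra.smul_def, e4 l _ g hg, Pi.smul_apply, smul_eq_mul, Ideal.Quotient.mk_algebraMap,
        ← Algebra.smul_def, map_smul, map_smul, smul_eq_mul]
    · rw [(e5 l g ((j4 g h0 _).2 hl.le)).2 ((j4 g h0 _).2 (j7 g h0 l hl)), Pi.zero_apply, map_zero,
        map_zero]
  · exact fun p q h => (Prod.Lex.le_iff.1 h).elim le_of_lt fun h => h.1.le
  · intro f _ g _ _ _ h1 h2 h3
    have h4 : α f = α g := Finsupp.ext (congrFun h3)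
    simp only [ofLex_toLex] at h1 h2
    simp only [h1, h2, h4]
  · intro g hgK h0
    simp only [ofLex_toLex, ofDegLex_toDegLex]
    refine ⟨j8 g h0, j9 g, fun l hl => (j4 g h0 l).1 (j1 l hl), fun σ _ _ => ?_⟩
    choose s hs hs' using fun i => f3 _ _ fun a ha => (hL g h0).deg ha i
    obtain ⟨s', hs0⟩ := Ideal.Quotient.mk_surjective (∏ i ∈ Finset.range (n (lam g)), s i)
    have h1 : ∀ i, ∃ r, Ideal.Quotient.mk 𝔭 r = ρ (lam g) (s' * g) i ∧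
        (i < n (lam g) → r ∈ Ideal.span (range Y) ^ (α g).degree) := fun i => by
      by_cases hi : i < n (lam g)
      · obtain ⟨c, hc⟩ := Finset.dvd_prod_of_mem s (Finset.mem_range.2 hi)
        have h2 := Ideal.mul_mem_left _ c (hs' i)
        rw [← Ideal.map_pow, Ideal.mem_map_iff_of_surjective _ Ideal.Quotient.mk_surjective] at h2
        obtain ⟨r, hr, h2⟩ := h2
        refine ⟨r, ?_, fun _ => hr⟩
        rw [h2, e4 _ _ g (hg g h0), Pi.smul_apply, smul_eq_mul, hs0, hc]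
        ring
      · obtain ⟨r, hr⟩ := Ideal.Quotient.mk_surjective (ρ (lam g) (s' * g) i)
        exact ⟨r, hr, fun h => absurd h hi⟩
    choose r hr hr' using h1
    have h2 := vb_recon G w Y (σ := σ) (hδ' _ (j10 g hgK h0))
      (ht' _ _ (e6 _ _ (Ideal.mul_mem_left _ s' (hg g h0)) r hr)) (fun i => ht' _ _ (e2 _ i)) hr'
    refine ⟨t (lam g) * t (lam g + ε (lam g)) * b1 (lam g) * s', ?_, ?_⟩
    · rw [map_mul φ _ s', ← hφ' s', hs0, map_prod]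
      exact mul_ne_zero (Finset.prod_ne_zero_iff.1 (right_ne_zero_of_mul hb) _ (j10 g hgK h0))
        (Finset.prod_ne_zero_iff.2 fun i _ => hs i)
    · rw [← hY, ← Nat.cast_sum, ← Finsupp.degree_eq_sum]
      simpa only [mul_assoc] using h2
  · intro k'
    have h1 : ∀ u : A ⧸ 𝔭, ∃ a, u ≠ 0 → Lead (fun _ => Φ u) a 0 := fun u => by
      by_cases h0 : u = 0
      · exact ⟨0, fun h => absurd h0 h⟩
      · obtain ⟨a, c, h⟩ := exists_lead (F := fun _ => Φ u) fun h =>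
          h0 (f2 ((congrFun h 0).trans (map_zero Φ).symm))
        exact ⟨a, fun _ => h.const ▸ h⟩
    choose ν hν using h1
    obtain ⟨Γ, h2, h3⟩ := vb_values ((Vk x k').map (Ideal.Quotient.mkₐ ℂ 𝔭).toLinearMap)
      (fun a => (MvPowerSeries.coeff a).comp Φ.toLinearMap) ν fun u _ h0 => (hν u h0).1
    refine ⟨Γ.map Finsupp.equivFunOnFinite.toEmbedding, by rw [Finset.card_map, h2],
      fun γ hγ e he k _ g hgk h0 => ?_⟩
    obtain ⟨γ, hγ', rfl⟩ := Finset.mem_map.1 hγ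
    obtain ⟨_, ⟨u, hu, rfl⟩, hu0, rfl⟩ := h3 γ hγ'
    obtain ⟨e, rfl⟩ := Finsupp.equivFunOnFinite.surjective e
    have h4 := (hν _ hu0).mul (lead_mono e)
    have h5 : Φ (Ideal.Quotient.mk 𝔭 (u * ∏ j, Y j ^ e j)) =
        Φ ((Ideal.Quotient.mkₐ ℂ 𝔭).toLinearMap u) * ∏ j, MvPowerSeries.X j ^ e j := by
      simp only [map_mul, map_prod, map_pow, f1']
      rfl
    rw [← h5] at h4
    have h6 : u * ∏ j, Y j ^ e j ∈ Vk x (k' + d) := by
      refine mul_mem_Vk x hu ?_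
      have h7 := vb_prod_mem x Finset.univ (f := fun j => Y j ^ e j) fun j => by
        rcases Nat.le_one_iff_eq_zero_or_eq_one.1 (he j) with h | h
        · rw [show e j = 0 from h, pow_zero]
          exact one_mem_Vk x 1
        · rw [show e j = 1 from h, pow_one, hY]
          simp only [Algebra.algebraMap_eq_smul_one]
          exact sub_mem (x_mem_Vk x _) (Submodule.smul_mem _ _ (one_mem_Vk x 1))
      simpa using h7
    generalize u * ∏ j, Y j ^ e j = f at h4 h6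
    have h7 : f ∉ 𝔭 := fun h => h4.1 (by simp [Ideal.Quotient.eq_zero_iff_mem.2 h])
    have h8 : f * g ≠ 0 := mul_ne_zero (fun h => h7 (h ▸ 𝔭.zero_mem)) h0
    have h9 : lam (f * g) = lam g := le_antisymm ((j4 g h0 _).1 (j3 _ f h7 g (hg _ h8)))
      ((j4 _ h8 _).1 (Ideal.mul_mem_left _ f (hg g h0)))
    have h10 := hL _ h8
    rw [h9, e4 _ f g (hg g h0)] at h10
    simp only [Pi.smul_apply, smul_eq_mul, map_mul] at h10
    obtain ⟨h11, h12⟩ := h10.unique (h4.mul (hL g h0))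
    refine ⟨f * g, ?_, h8, h9, h12, ?_⟩
    · rw [add_assoc, mul_comm]
      exact mul_mem_Vk x hgk h6
    · simp only [ofLex_toLex, ofDegLex_toDegLex, h11]
      funext j
      simp
      ring

end Vale.Agent.P271
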